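import Crest.Agent.Lib.Coh.Mdl

/-!
# The `k`-coskeleton of a globular presheaf (flat definition)

A cell of `Cosk k P` at level `j` is a map from the `k`-skeleton of the `j`-globe to `P`: cells
`low i _ _ b` for `i < j`, `i ≤ k`, and a top cell if `j ≤ k`.
-/

set_option autoImplicit false

open CategoryTheory CategoryTheory.Limits Opposite
open Crest.GeometryTopology.Coherator

universe u

namespace Crest.Agent.Coh

/-- Cells of the coskeleton. -/
@[ext]
structure CC (k : ℕ) (P : GlobPsh.{u}) (j : ℕ) where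
  /-- the boundary cells up to level `k` -/
  low : ∀ i, i < j → i ≤ k → Bool → Cl P i
  /-- the top cell, if `j ≤ k` -/
  top : j ≤ k → Cl P j
  fl : ∀ i i' (h' : i' < i) (hi : i < j) (hik : i ≤ k) (b b' : Bool),
    fc P h' b' (low i hi hik b) = low i' (h'.trans hi) (by omega) b'
  ft : ∀ (hj : j ≤ k) i (h : i < j) (b : Bool), fc P h b (top hj) = low i h (by omega) b

/-- Faces in the coskeleton. -/
def CC.face {k : ℕ} {P : GlobPsh.{u}} {i₀ j : ℕ} (h : i₀ < j) (u : Bool) (c : CC k P j) :
    CC k P i₀ where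
  low i hi hik b := c.low i (hi.trans h) hik b
  top hi₀ := c.low i₀ h hi₀ u
  fl i i' h' hi hik b b' := c.fl i i' h' (hi.trans h) hik b b'
  ft hi₀ i hi b := c.fl i₀ i hi h hi₀ u b

/-- The coskeleton. -/
noncomputable def Cosk (k : ℕ) (P : GlobPsh.{u}) : GlobPsh.{u} :=
  mkPsh (CC k P) CC.face (fun _ _ _ _ _ => rfl)

@[simp] theorem fc_cosk {k : ℕ} {P : GlobPsh.{u}} {i j : ℕ} (h : i < j) (b : Bool) (c : CC k P j) :
    fc (Cosk k P) h b c = CC.face h b c := rfl

/-- The cell of the coskeleton given by a cell. -/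
def etaC (k : ℕ) {P : GlobPsh.{u}} {j : ℕ} (z : Cl P j) : CC k P j where
  low i hi _ b := fc P hi b z
  top _ := z
  fl i i' h' hi _ b b' := fc_fc P h' hi b' b z
  ft _ _ _ _ := rfl

/-- The unit of the coskeleton. -/
noncomputable def eta (k : ℕ) (P : GlobPsh.{u}) : P ⟶ Cosk k P :=
  mkHom (P := P) (Q := Cosk k P) (fun _ z => etaC k z) (by
    intro i j h b x
    apply CC.ext
    · funext i' hi hik b'
      change fc P hi b' (fc P h b x) = fc P (hi.trans h) b' x
      rw [fc_fc]
    · rfl)

@[simp] theorem eta_app (k : ℕ) (P : GlobPsh.{u}) {j : ℕ} (z : Cl P j) :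
    (eta k P).app (op (GlobeObj.mk j)) z = etaC k z := rfl

/-- Functoriality of the coskeleton on cells. -/
def CC.map {k : ℕ} {P Q : GlobPsh.{u}} (φ : P ⟶ Q) {j : ℕ} (c : CC k P j) : CC k Q j where
  low i hi hik b := φ.app _ (c.low i hi hik b)
  top hj := φ.app _ (c.top hj)
  fl i i' h' hi hik b b' := by
    rw [← fc_nat, c.fl]
  ft hj i h b := by
    rw [← fc_nat, c.ft]

/-- Functoriality of the coskeleton. -/
noncomputable def coskMap (k : ℕ) {P Q : GlobPsh.{u}} (φ : P ⟶ Q) : Cosk k P ⟶ Cosk k Q :=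
  mkHom (P := Cosk k P) (Q := Cosk k Q) (fun _ c => CC.map φ c) (fun _ _ _ => rfl)

@[simp] theorem coskMap_app (k : ℕ) {P Q : GlobPsh.{u}} (φ : P ⟶ Q) {j : ℕ} (c : CC k P j) :
    (coskMap k φ).app (op (GlobeObj.mk j)) c = CC.map φ c := rfl

theorem eta_coskMap (k : ℕ) {P Q : GlobPsh.{u}} (φ : P ⟶ Q) :
    eta k P ≫ coskMap k φ = φ ≫ eta k Q := by
  apply hom_ext'
  intro n x
  apply CC.ext
  · funext i hi hik b
    exact fc_nat φ hi b x
  · rfl

theorem coskMap_etaC (k : ℕ) {P Q : GlobPsh.{u}} (φ : P ⟶ Q) {j : ℕ} (z : Cl P j) :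
    (coskMap k φ).app (op (GlobeObj.mk j)) (etaC k z) = etaC k (φ.app _ z) := by
  apply CC.ext
  · funext i hi hik b
    exact fc_nat φ hi b z
  · rfl

theorem coskMap_comp (k : ℕ) {P Q R : GlobPsh.{u}} (φ : P ⟶ Q) (ψ : Q ⟶ R) :
    coskMap k (φ ≫ ψ) = coskMap k φ ≫ coskMap k ψ := rfl

theorem coskMap_id (k : ℕ) (P : GlobPsh.{u}) : coskMap k (𝟙 P) = 𝟙 _ := rfl

/-- The unit of the coskeleton is bijective up to level `k`. -/
theorem eta_bijective (k : ℕ) (P : GlobPsh.{u}) (j : ℕ) (hj : j ≤ k) :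
    Function.Bijective ((eta k P).app (op (GlobeObj.mk j))) := by
  constructor
  · intro x y h
    exact congrFun (congrArg CC.top h) hj
  · intro (c : CC k P j)
    refine ⟨c.top hj, ?_⟩
    apply CC.ext
    · funext i hi hik b
      exact c.ft hj i hi b
    · funext _
      rfl

/-- The cell below the truncation level. -/
def CC.cell {k : ℕ} {P : GlobPsh.{u}} {j : ℕ} (hj : j ≤ k) (c : CC k P j) : Cl P j := c.top hj

@[simp] theorem etaC_cell {k : ℕ} {P : GlobPsh.{u}} {j : ℕ} (hj : j ≤ k) (z : Cl P j) :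
    CC.cell hj (etaC k z) = z := rfl

theorem CC.etaC_cell' {k : ℕ} {P : GlobPsh.{u}} {j : ℕ} (hj : j ≤ k) (c : CC k P j) :
    etaC k (CC.cell hj c) = c := by
  apply CC.ext
  · funext i hi hik b
    exact c.ft hj i hi b
  · funext _
    rfl

theorem CC.cell_face {k : ℕ} {P : GlobPsh.{u}} {i j : ℕ} (h : i < j) (b : Bool) (hj : j ≤ k)
    (c : CC k P j) : CC.cell (by omega) (CC.face h b c) = fc P h b (CC.cell hj c) :=
  (c.ft hj i h b).symm

/-- Above level `k`, a cell of the coskeleton is determined by its boundary. -/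
theorem CC.eq_of_par {k : ℕ} {P : GlobPsh.{u}} {j : ℕ} (hj : k < j) {x y : CC k P j}
    (hxy : Par (Cosk k P) (k := j) x y) : x = y := by
  apply CC.ext
  · funext i hi hik b
    have h := hxy i hi b
    have h2 : CC.face hi b x = CC.face hi b y := h
    exact congrFun (congrArg CC.top h2) hik
  · funext hj'
    omega

/-- The low data of a cell with prescribed faces. -/
def CC.low2 {k : ℕ} {P : GlobPsh.{u}} {j : ℕ} (x y : CC k P j) : ∀ i, i < j + 1 → i ≤ k → Bool → Cl P i :=
  fun i hi hik b =>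
    if h : i < j then x.low i h hik b
    else
      have hij : i = j := by omega
      hij ▸ (if b then y else x).top (hij ▸ hik)

theorem CC.low2_lt {k : ℕ} {P : GlobPsh.{u}} {j : ℕ} (x y : CC k P j) {i : ℕ} (hi : i < j + 1)
    (hik : i ≤ k) (b : Bool) (h : i < j) : CC.low2 x y i hi hik b = x.low i h hik b := dif_pos h

theorem CC.low2_eq {k : ℕ} {P : GlobPsh.{u}} {j : ℕ} (x y : CC k P j) (hik : j ≤ k) (b : Bool) :
    CC.low2 x y j (Nat.lt_succ_self j) hik b = (if b then y else x).top hik :=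
  dif_neg (Nat.lt_irrefl j)

/-- In the coskeleton at or above level `k`, a parallel pair has a unique filler. -/
def CC.fill {k : ℕ} {P : GlobPsh.{u}} {j : ℕ} (hj : k ≤ j) (x y : CC k P j)
    (hxy : Par (Cosk k P) (k := j) x y) : CC k P (j + 1) where
  low := CC.low2 x y
  top hj' := by omega
  fl i i' h' hi hik b b' := by
    have hlt : i' < j := by omega
    rw [CC.low2_lt x y (by omega) (by omega) b' hlt]
    by_cases h : i < j
    · rw [CC.low2_lt x y hi hik b h]
      exact x.fl i i' h' h hik b b'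
    · have hij : i = j := by omega
      subst hij
      rw [CC.low2_eq]
      cases b
      · exact x.ft hik i' h' b'
      · have hz := hxy i' h' b'
        have hz2 : CC.face h' b' x = CC.face h' b' y := hz
        have h3 : (CC.face h' b' y).top (by omega) = y.low i' h' (by omega) b' := rfl
        change fc P h' b' (y.top hik) = _
        rw [y.ft hik i' h' b']
        have h4 := congrArg (fun c : CC k P i' => c.top (by omega)) hz2
        exact h4.symm
  ft hj' := by omega

theorem CC.face_fill_false {k : ℕ} {P : GlobPsh.{u}} {j : ℕ} (hj : k ≤ j) (x y : CC k P j)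
    (hxy : Par (Cosk k P) (k := j) x y) :
    CC.face (Nat.lt_succ_self j) false (CC.fill hj x y hxy) = x := by
  apply CC.ext
  · funext i hi hik b
    exact CC.low2_lt x y (hi.trans (Nat.lt_succ_self j)) hik b hi
  · funext hik
    exact CC.low2_eq x y hik false

theorem CC.face_fill_true {k : ℕ} {P : GlobPsh.{u}} {j : ℕ} (hj : k ≤ j) (x y : CC k P j)
    (hxy : Par (Cosk k P) (k := j) x y) :
    CC.face (Nat.lt_succ_self j) true (CC.fill hj x y hxy) = y := by
  apply CC.ext
  · funext i hi hik b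
    refine (CC.low2_lt x y (hi.trans (Nat.lt_succ_self j)) hik b hi).trans ?_
    have hz := hxy i hi b
    have hz2 : CC.face hi b x = CC.face hi b y := hz
    have h4 := congrArg (fun c : CC k P i => c.top (by omega)) hz2
    have h5 : ∀ c : CC k P j, (CC.face hi b c).top hik = c.low i hi hik b := fun _ => rfl
    exact h4
  · funext hik
    exact CC.low2_eq x y hik true

/-- A map from `P` to `Cosk k Q` is determined by its values up to level `k` (for tuples). -/
theorem cosk_hom_ext {k : ℕ} {P Q : GlobPsh.{u}} {φ ψ : P ⟶ Cosk k Q}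
    (h : ∀ j, j ≤ k → ∀ x : Cl P j, φ.app _ x = ψ.app _ x) : φ = ψ := by
  apply hom_ext'
  intro n
  induction n using Nat.strong_induction_on with
  | _ n ih =>
    intro x
    by_cases hn : n ≤ k
    · exact h n hn x
    · apply CC.eq_of_par (not_le.mp hn)
      intro i hi b
      change fc (Cosk k Q) hi b (φ.app _ x) = fc (Cosk k Q) hi b (ψ.app _ x)
      rw [← fc_nat, ← fc_nat]
      exact ih i hi _

end Crest.Agent.Coh
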