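import Crest.Agent.Lib.Coh.FreeFill

/-!
# Chosen operations: units, inverses, the three-fold composites `comp3`

`Kit C` bundles the coherator data. All operations are total functions on cells; their laws hold
under the evident matching hypotheses.
-/

set_option autoImplicit false

open CategoryTheory CategoryTheory.Limits Opposite
open Crest.GeometryTopology.Coherator

universe u

namespace Crest.Agent.Coh

/-- The coherator data. -/
class Kit (C : GlobTheory.{u}) where
  hC : HasFillers C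
  e : C.UnitChoice
  T : C.Tower

variable {C : GlobTheory.{u}} [Kit C]

theorem fc_opC (M : Mdl C) {T : Shape} {k : ℕ} (o : C.arr (Shape.globe (k + 1)) T) (τ : Tup M.G T)
    (b : Bool) :
    fc M.G (Nat.lt_succ_self k) b (M.opC o τ) =
      M.opC (C.seq (C.ofShape (Shape.faceMap (Nat.lt_succ_self k) b)) o) τ := by
  unfold Mdl.opC
  rw [M.act_seq, M.act_ofShape]
  exact (tCell_pre_face _ b _).symm

/-! ### Units -/

/-- The unit cell. -/
noncomputable def unitC (M : Mdl C) {k : ℕ} (x : Cl M.G k) : Cl M.G (k + 1) :=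
  M.opC (Kit.e.unit k) (cellT x)

theorem fc_unitC (M : Mdl C) {k : ℕ} (x : Cl M.G k) (b : Bool) :
    fc M.G (Nat.lt_succ_self k) b (unitC M x) = x := by
  unfold unitC
  rw [fc_opC]
  have h : C.seq (C.ofShape (Shape.faceMap (Nat.lt_succ_self k) b)) (Kit.e.unit k) =
      C.one (Shape.globe k) := by
    cases b
    · exact Kit.e.src_unit k
    · exact Kit.e.tgt_unit k
  rw [h]
  unfold Mdl.opC
  rw [M.act_one, tCell_cellT]

theorem unitC_nat {M M' : Mdl C} (f : M ⟶ M') {k : ℕ} (x : Cl M.G k) :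
    Mdl.cm f (unitC M x) = unitC M' (Mdl.cm f x) := by
  unfold unitC
  rw [Mdl.opC_nat, cellT_map]

/-! ### Inverses -/

theorem exists_inv (k : ℕ) : ∃ F : tupF C (Shape.globe (k + 1)) ⟶ cellF C (k + 1),
    ∀ (M : Mdl C) (τ : Tup M.G (Shape.globe (k + 1))),
      fc M.G (Nat.lt_succ_self k) false (F.app M τ) = fc M.G (Nat.lt_succ_self k) true (tCell τ) ∧
      fc M.G (Nat.lt_succ_self k) true (F.app M τ) = fc M.G (Nat.lt_succ_self k) false (tCell τ) := by
  refine fillTup Kit.hC (Shape.globe (k + 1)) (k + 1 - 1 + 0) (by simp [Shape.dim_globe'])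
    (natOp (fun M τ => fc M.G (Nat.lt_succ_self k) true (tCell τ)) ?_)
    (natOp (fun M τ => fc M.G (Nat.lt_succ_self k) false (tCell τ)) ?_) ?_
  · intro M M' φ x
    exact fc_nat (Mdl.Hom.φ φ) _ _ _
  · intro M M' φ x
    exact fc_nat (Mdl.Hom.φ φ) _ _ _
  · intro M x i h b
    change fc M.G h b (fc M.G (Nat.lt_succ_self k) true (tCell x)) =
      fc M.G h b (fc M.G (Nat.lt_succ_self k) false (tCell x))
    rw [fc_fc, fc_fc]

/-- The inverse cell. -/
noncomputable def invC (M : Mdl C) {k : ℕ} (x : Cl M.G (k + 1)) : Cl M.G (k + 1) :=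
  (Classical.choose (exists_inv (C := C) k)).app M (cellT x)

theorem fc_invC_false (M : Mdl C) {k : ℕ} (x : Cl M.G (k + 1)) :
    fc M.G (Nat.lt_succ_self k) false (invC M x) = fc M.G (Nat.lt_succ_self k) true x := by
  have := (Classical.choose_spec (exists_inv (C := C) k) M (cellT x)).1
  rwa [tCell_cellT] at this

theorem fc_invC_true (M : Mdl C) {k : ℕ} (x : Cl M.G (k + 1)) :
    fc M.G (Nat.lt_succ_self k) true (invC M x) = fc M.G (Nat.lt_succ_self k) false x := by
  have := (Classical.choose_spec (exists_inv (C := C) k) M (cellT x)).2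
  rwa [tCell_cellT] at this

theorem invC_nat {M M' : Mdl C} (f : M ⟶ M') {k : ℕ} (x : Cl M.G (k + 1)) :
    Mdl.cm f (invC M x) = invC M' (Mdl.cm f x) := by
  unfold invC
  rw [nat_apply]
  congr 1
  exact cellT_map x (Mdl.Hom.φ f)

/-! ### Triple composites -/

/-- The shape `D_{i+1} ∨_{D_i} D_j ∨_{D_i} D_{i+1}`. -/
def U3 (i j : ℕ) (h : i < j) : Shape :=
  ((Shape.globe (i + 1)).glue i j (Nat.lt_succ_self i) h).glue i (i + 1) h (Nat.lt_succ_self i)

theorem dim_U3 (i j : ℕ) (h : i < j) : (U3 i j h).dim = j := by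
  simp only [U3, Shape.dim_glue', Shape.dim_globe']
  omega

@[simp] theorem last_cellT {P : GlobPsh.{u}} {n : ℕ} (c : Cl P n) : Tup.last (cellT c) = c := by
  change tCell (Tup.pre (𝟙 _) (cellT c)) = c
  rw [Tup.pre_id, tCell_cellT]

section tup3

variable {P : GlobPsh.{u}} {i j : ℕ}

/-- A tuple of shape `U3`. -/
noncomputable def tup3 (h : i < j) (x : Cl P (i + 1)) (y : Cl P j) (w : Cl P (i + 1))
    (h1 : fc P (Nat.lt_succ_self i) true x = fc P h false y)
    (h2 : fc P h true y = fc P (Nat.lt_succ_self i) false w) : Tup P (U3 i j h) :=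
  Tup.glueT h (Nat.lt_succ_self i)
    (Tup.glueT (Nat.lt_succ_self i) h (cellT x) y (by rw [last_cellT]; exact h1))
    w (by rw [Tup.last_glueT]; exact h2)

/-- First projection. -/
noncomputable def prj1 {h : i < j} (τ : Tup P (U3 i j h)) : Cl P (i + 1) :=
  tCell (Tup.pre (Shape.inLeft _ _ _ _ _) (Tup.pre (Shape.inLeft _ _ _ _ _) τ))

/-- Second projection. -/
noncomputable def prj2 {h : i < j} (τ : Tup P (U3 i j h)) : Cl P j :=
  Tup.last (Tup.pre (Shape.inLeft _ _ _ _ _) τ)

/-- Third projection. -/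
noncomputable def prj3 {h : i < j} (τ : Tup P (U3 i j h)) : Cl P (i + 1) :=
  Tup.last τ

theorem prj1_match {h : i < j} (τ : Tup P (U3 i j h)) :
    fc P (Nat.lt_succ_self i) true (prj1 τ) = fc P h false (prj2 τ) := by
  have := Tup.glue_match (Tup.pre (Shape.inLeft _ _ _ _ _) τ)
  have e : ∀ σ : Tup P (Shape.globe (i + 1)), Tup.last σ = tCell σ := fun σ => by
    change tCell (Tup.pre (𝟙 _) σ) = tCell σ
    rw [Tup.pre_id]
  rwa [e] at this

theorem prj2_match {h : i < j} (τ : Tup P (U3 i j h)) :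
    fc P h true (prj2 τ) = fc P (Nat.lt_succ_self i) false (prj3 τ) :=
  Tup.glue_match τ

theorem tup3_eta {h : i < j} (τ : Tup P (U3 i j h)) :
    tup3 h (prj1 τ) (prj2 τ) (prj3 τ) (prj1_match τ) (prj2_match τ) = τ := by
  apply Tup.glue_ext
  · unfold tup3
    rw [Tup.pre_glueT]
    apply Tup.glue_ext
    · rw [Tup.pre_glueT]
      exact cellT_tCell _
    · rw [Tup.last_glueT]
      rfl
  · unfold tup3
    rw [Tup.last_glueT]
    rfl

@[simp] theorem prj1_tup3 (h : i < j) (x : Cl P (i + 1)) (y : Cl P j) (w : Cl P (i + 1))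
    (h1 : fc P (Nat.lt_succ_self i) true x = fc P h false y)
    (h2 : fc P h true y = fc P (Nat.lt_succ_self i) false w) :
    prj1 (tup3 h x y w h1 h2) = x := by
  unfold prj1 tup3
  rw [Tup.pre_glueT, Tup.pre_glueT, tCell_cellT]

@[simp] theorem prj2_tup3 (h : i < j) (x : Cl P (i + 1)) (y : Cl P j) (w : Cl P (i + 1))
    (h1 : fc P (Nat.lt_succ_self i) true x = fc P h false y)
    (h2 : fc P h true y = fc P (Nat.lt_succ_self i) false w) :
    prj2 (tup3 h x y w h1 h2) = y := by
  unfold prj2 tup3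
  rw [Tup.pre_glueT]
  exact Tup.last_glueT _ _ _

@[simp] theorem prj3_tup3 (h : i < j) (x : Cl P (i + 1)) (y : Cl P j) (w : Cl P (i + 1))
    (h1 : fc P (Nat.lt_succ_self i) true x = fc P h false y)
    (h2 : fc P h true y = fc P (Nat.lt_succ_self i) false w) :
    prj3 (tup3 h x y w h1 h2) = w := by
  unfold prj3 tup3
  exact Tup.last_glueT _ _ _

theorem prj1_map {Q : GlobPsh.{u}} {h : i < j} (τ : Tup P (U3 i j h)) (φ : P ⟶ Q) :
    prj1 (τ ≫ φ) = φ.app _ (prj1 τ) := rfl

theorem prj2_map {Q : GlobPsh.{u}} {h : i < j} (τ : Tup P (U3 i j h)) (φ : P ⟶ Q) :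
    prj2 (τ ≫ φ) = φ.app _ (prj2 τ) := rfl

theorem prj3_map {Q : GlobPsh.{u}} {h : i < j} (τ : Tup P (U3 i j h)) (φ : P ⟶ Q) :
    prj3 (τ ≫ φ) = φ.app _ (prj3 τ) := rfl

theorem tup3_map {Q : GlobPsh.{u}} (φ : P ⟶ Q) (h : i < j) (x : Cl P (i + 1)) (y : Cl P j)
    (w : Cl P (i + 1))
    (h1 : fc P (Nat.lt_succ_self i) true x = fc P h false y)
    (h2 : fc P h true y = fc P (Nat.lt_succ_self i) false w) :
    tup3 h x y w h1 h2 ≫ φ = tup3 h (φ.app _ x) (φ.app _ y) (φ.app _ w)
      (by rw [← fc_nat, ← fc_nat, h1]) (by rw [← fc_nat, ← fc_nat, h2]) := by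
  rw [← tup3_eta (tup3 h x y w h1 h2 ≫ φ)]
  simp only [prj1_map, prj2_map, prj3_map, prj1_tup3, prj2_tup3, prj3_tup3]

theorem U3_ext {h : i < j} {τ τ' : Tup P (U3 i j h)} (h1 : prj1 τ = prj1 τ')
    (h2 : prj2 τ = prj2 τ') (h3 : prj3 τ = prj3 τ') : τ = τ' := by
  rw [← tup3_eta τ, ← tup3_eta τ']
  simp only [h1, h2, h3]

end tup3

/-- Lower faces agree along a `tup3`. -/
theorem tup3_low {P : GlobPsh.{u}} {i j : ℕ} (h : i < j) {x w : Cl P (i + 1)} {y : Cl P j}
    (h1 : fc P (Nat.lt_succ_self i) true x = fc P h false y)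
    (h2 : fc P h true y = fc P (Nat.lt_succ_self i) false w) {i' : ℕ} (hi : i' < i) (b : Bool) :
    fc P (hi.trans (Nat.lt_succ_self i)) b x = fc P (hi.trans (Nat.lt_succ_self i)) b w := by
  calc fc P (hi.trans (Nat.lt_succ_self i)) b x
      = fc P hi b (fc P (Nat.lt_succ_self i) true x) := (fc_fc _ _ _ _ _ _).symm
    _ = fc P hi b (fc P h false y) := by rw [h1]
    _ = fc P (hi.trans h) b y := fc_fc _ _ _ _ _ _
    _ = fc P hi b (fc P h true y) := (fc_fc _ _ _ _ _ _).symm
    _ = fc P hi b (fc P (Nat.lt_succ_self i) false w) := by rw [h2]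
    _ = fc P (hi.trans (Nat.lt_succ_self i)) b w := fc_fc _ _ _ _ _ _

/-- A natural operation on `U3`-tuples that respects parallelism in the middle variable. -/
def C3Good {i j : ℕ} {h : i < j} (c : tupF C (U3 i j h) ⟶ cellF C j) : Prop :=
  ∀ (M : Mdl C) (τ τ' : Tup M.G (U3 i j h)), prj1 τ = prj1 τ' → prj3 τ = prj3 τ' →
    Par M.G (prj2 τ) (prj2 τ') → Par M.G (c.app M τ) (c.app M τ')

theorem exists_comp3_base (i : ℕ) :
    ∃ c : tupF C (U3 i (i + 1) (Nat.lt_succ_self i)) ⟶ cellF C (i + 1),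
      ∀ (M : Mdl C) (τ : Tup M.G (U3 i (i + 1) (Nat.lt_succ_self i))),
        fc M.G (Nat.lt_succ_self i) false (c.app M τ) = fc M.G (Nat.lt_succ_self i) false (prj1 τ) ∧
        fc M.G (Nat.lt_succ_self i) true (c.app M τ) = fc M.G (Nat.lt_succ_self i) true (prj3 τ) := by
  refine fillTup Kit.hC (U3 i (i + 1) (Nat.lt_succ_self i)) i (by rw [dim_U3])
    (natOp (fun M τ => fc M.G (Nat.lt_succ_self i) false (prj1 τ)) ?_)
    (natOp (fun M τ => fc M.G (Nat.lt_succ_self i) true (prj3 τ)) ?_) ?_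
  · intro M M' φ x
    exact fc_nat (Mdl.Hom.φ φ) _ _ _
  · intro M M' φ x
    exact fc_nat (Mdl.Hom.φ φ) _ _ _
  · intro M τ i' hi b
    change fc M.G hi b (fc M.G (Nat.lt_succ_self i) false (prj1 τ)) =
      fc M.G hi b (fc M.G (Nat.lt_succ_self i) true (prj3 τ))
    rw [fc_fc, fc_fc]
    exact tup3_low _ (prj1_match τ) (prj2_match τ) hi b

theorem comp3_base_good (i : ℕ)
    (c : tupF C (U3 i (i + 1) (Nat.lt_succ_self i)) ⟶ cellF C (i + 1))
    (hc : ∀ (M : Mdl C) (τ : Tup M.G (U3 i (i + 1) (Nat.lt_succ_self i))),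
        fc M.G (Nat.lt_succ_self i) false (c.app M τ) = fc M.G (Nat.lt_succ_self i) false (prj1 τ) ∧
        fc M.G (Nat.lt_succ_self i) true (c.app M τ) = fc M.G (Nat.lt_succ_self i) true (prj3 τ)) :
    C3Good c := by
  intro M τ τ' h1 h3 _
  apply Par.of_succ
  · rw [(hc M τ).1, (hc M τ').1, h1]
  · rw [(hc M τ).2, (hc M τ').2, h3]

/-- The lowered tuple. -/
noncomputable def lowerT {P : GlobPsh.{u}} {i j : ℕ} (h : i < j) (b : Bool)
    (τ : Tup P (U3 i (j + 1) (h.trans (Nat.lt_succ_self j)))) : Tup P (U3 i j h) :=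
  tup3 h (prj1 τ) (fc P (Nat.lt_succ_self j) b (prj2 τ)) (prj3 τ)
    (by rw [prj1_match, fc_fc]) (by rw [fc_fc, prj2_match])

theorem lowerT_map {P Q : GlobPsh.{u}} {i j : ℕ} (h : i < j) (b : Bool)
    (τ : Tup P (U3 i (j + 1) (h.trans (Nat.lt_succ_self j)))) (φ : P ⟶ Q) :
    lowerT h b (τ ≫ φ) = lowerT h b τ ≫ φ := by
  unfold lowerT
  rw [tup3_map]
  simp only [prj1_map, prj2_map, prj3_map, fc_nat]

theorem prj1_lowerT {P : GlobPsh.{u}} {i j : ℕ} (h : i < j) (b : Bool)
    (τ : Tup P (U3 i (j + 1) (h.trans (Nat.lt_succ_self j)))) : prj1 (lowerT h b τ) = prj1 τ :=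
  prj1_tup3 _ _ _ _ _ _

theorem prj3_lowerT {P : GlobPsh.{u}} {i j : ℕ} (h : i < j) (b : Bool)
    (τ : Tup P (U3 i (j + 1) (h.trans (Nat.lt_succ_self j)))) : prj3 (lowerT h b τ) = prj3 τ :=
  prj3_tup3 _ _ _ _ _ _

theorem prj2_lowerT {P : GlobPsh.{u}} {i j : ℕ} (h : i < j) (b : Bool)
    (τ : Tup P (U3 i (j + 1) (h.trans (Nat.lt_succ_self j)))) :
    prj2 (lowerT h b τ) = fc P (Nat.lt_succ_self j) b (prj2 τ) :=
  prj2_tup3 _ _ _ _ _ _

theorem exists_comp3_step {i j : ℕ} (h : i < j) (c : tupF C (U3 i j h) ⟶ cellF C j)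
    (hc : C3Good c) :
    ∃ c' : tupF C (U3 i (j + 1) (h.trans (Nat.lt_succ_self j))) ⟶ cellF C (j + 1),
      ∀ (M : Mdl C) (τ : Tup M.G (U3 i (j + 1) (h.trans (Nat.lt_succ_self j)))),
        fc M.G (Nat.lt_succ_self j) false (c'.app M τ) = c.app M (lowerT h false τ) ∧
        fc M.G (Nat.lt_succ_self j) true (c'.app M τ) = c.app M (lowerT h true τ) := by
  refine fillTup Kit.hC (U3 i (j + 1) (h.trans (Nat.lt_succ_self j))) j (by rw [dim_U3])
    (natOp (fun M τ => c.app M (lowerT h false τ)) ?_)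
    (natOp (fun M τ => c.app M (lowerT h true τ)) ?_) ?_
  · intro M M' φ x
    rw [nat_apply]
    congr 1
    exact (lowerT_map h false x (Mdl.Hom.φ φ)).symm
  · intro M M' φ x
    rw [nat_apply]
    congr 1
    exact (lowerT_map h true x (Mdl.Hom.φ φ)).symm
  · intro M (τ : Tup M.G _)
    refine hc M (lowerT h false τ) (lowerT h true τ) ?_ ?_ ?_
    · rw [prj1_lowerT, prj1_lowerT]
    · rw [prj3_lowerT, prj3_lowerT]
    · intro i' hi b
      rw [prj2_lowerT, prj2_lowerT, fc_fc, fc_fc]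

theorem comp3_step_good {i j : ℕ} (h : i < j) (c : tupF C (U3 i j h) ⟶ cellF C j)
    (hc : C3Good c)
    (c' : tupF C (U3 i (j + 1) (h.trans (Nat.lt_succ_self j))) ⟶ cellF C (j + 1))
    (hc' : ∀ (M : Mdl C) (τ : Tup M.G (U3 i (j + 1) (h.trans (Nat.lt_succ_self j)))),
        fc M.G (Nat.lt_succ_self j) false (c'.app M τ) = c.app M (lowerT h false τ) ∧
        fc M.G (Nat.lt_succ_self j) true (c'.app M τ) = c.app M (lowerT h true τ)) :
    C3Good c' := by
  intro M τ τ' h1 h3 hp
  have hfc : ∀ b, lowerT h b τ = lowerT h b τ' := by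
    intro b
    apply U3_ext
    · rw [prj1_lowerT, prj1_lowerT, h1]
    · rw [prj2_lowerT, prj2_lowerT]
      exact hp j (Nat.lt_succ_self j) b
    · rw [prj3_lowerT, prj3_lowerT, h3]
  apply Par.of_succ
  · rw [(hc' M τ).1, (hc' M τ').1, hfc]
  · rw [(hc' M τ).2, (hc' M τ').2, hfc]

/-- Recursive construction of the composites. -/
noncomputable def comp3Seq (i : ℕ) : (j : ℕ) → (h : i < j) →
    { c : tupF C (U3 i j h) ⟶ cellF C j // C3Good c }
  | 0, h => absurd h (Nat.not_lt_zero i)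
  | j + 1, h =>
    if h' : i < j then
      ⟨Classical.choose (exists_comp3_step h' (comp3Seq i j h').1 (comp3Seq i j h').2),
        comp3_step_good h' _ (comp3Seq i j h').2 _
          (Classical.choose_spec (exists_comp3_step h' (comp3Seq i j h').1 (comp3Seq i j h').2))⟩
    else by
      have hij : j = i := by omega
      subst hij
      exact ⟨Classical.choose (exists_comp3_base j),
        comp3_base_good j _ (Classical.choose_spec (exists_comp3_base j))⟩

theorem comp3Seq_base (i : ℕ) (M : Mdl C) (τ : Tup M.G (U3 i (i + 1) (Nat.lt_succ_self i))) :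
    fc M.G (Nat.lt_succ_self i) false ((comp3Seq i (i + 1) (Nat.lt_succ_self i)).1.app M τ) =
        fc M.G (Nat.lt_succ_self i) false (prj1 τ) ∧
    fc M.G (Nat.lt_succ_self i) true ((comp3Seq i (i + 1) (Nat.lt_succ_self i)).1.app M τ) =
        fc M.G (Nat.lt_succ_self i) true (prj3 τ) := by
  have e : comp3Seq (C := C) i (i + 1) (Nat.lt_succ_self i) =
      ⟨Classical.choose (exists_comp3_base i),
        comp3_base_good i _ (Classical.choose_spec (exists_comp3_base i))⟩ := by
    rw [comp3Seq, dif_neg (Nat.lt_irrefl i)]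
  rw [e]
  exact Classical.choose_spec (exists_comp3_base i) M τ

theorem comp3Seq_step {i j : ℕ} (h : i < j) (M : Mdl C)
    (τ : Tup M.G (U3 i (j + 1) (h.trans (Nat.lt_succ_self j)))) :
    fc M.G (Nat.lt_succ_self j) false
        ((comp3Seq i (j + 1) (h.trans (Nat.lt_succ_self j))).1.app M τ) =
      (comp3Seq i j h).1.app M (lowerT h false τ) ∧
    fc M.G (Nat.lt_succ_self j) true
        ((comp3Seq i (j + 1) (h.trans (Nat.lt_succ_self j))).1.app M τ) =
      (comp3Seq i j h).1.app M (lowerT h true τ) := by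
  have e : comp3Seq (C := C) i (j + 1) (h.trans (Nat.lt_succ_self j)) =
      ⟨Classical.choose (exists_comp3_step h (comp3Seq i j h).1 (comp3Seq i j h).2),
        comp3_step_good h _ (comp3Seq i j h).2 _
          (Classical.choose_spec (exists_comp3_step h (comp3Seq i j h).1 (comp3Seq i j h).2))⟩ := by
    rw [comp3Seq, dif_pos h]
  rw [e]
  exact Classical.choose_spec (exists_comp3_step h (comp3Seq i j h).1 (comp3Seq i j h).2) M τ

/-- The matching conditions for a triple composite. -/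
def C3Valid (P : GlobPsh.{u}) {i j : ℕ} (x : Cl P (i + 1)) (y : Cl P j) (w : Cl P (i + 1)) : Prop :=
  ∃ h : i < j, fc P (Nat.lt_succ_self i) true x = fc P h false y ∧
    fc P h true y = fc P (Nat.lt_succ_self i) false w

open Classical in
/-- The triple composite `x ; y ; w` (total: returns `y` on invalid input). -/
noncomputable def comp3 (M : Mdl C) {i j : ℕ} (x : Cl M.G (i + 1)) (y : Cl M.G j)
    (w : Cl M.G (i + 1)) : Cl M.G j :=
  if hv : C3Valid M.G x y w then
    (comp3Seq i j hv.1).1.app M (tup3 hv.1 x y w hv.2.1 hv.2.2)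
  else y

theorem comp3_eq (M : Mdl C) {i j : ℕ} (h : i < j) {x w : Cl M.G (i + 1)} {y : Cl M.G j}
    (h1 : fc M.G (Nat.lt_succ_self i) true x = fc M.G h false y)
    (h2 : fc M.G h true y = fc M.G (Nat.lt_succ_self i) false w) :
    comp3 M x y w = (comp3Seq i j h).1.app M (tup3 h x y w h1 h2) :=
  dif_pos (⟨h, h1, h2⟩ : C3Valid M.G x y w)

theorem comp3_nat {M M' : Mdl C} (f : M ⟶ M') {i j : ℕ} (h : i < j) {x w : Cl M.G (i + 1)}
    {y : Cl M.G j}
    (h1 : fc M.G (Nat.lt_succ_self i) true x = fc M.G h false y)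
    (h2 : fc M.G h true y = fc M.G (Nat.lt_succ_self i) false w) :
    Mdl.cm f (comp3 M x y w) = comp3 M' (Mdl.cm f x) (Mdl.cm f y) (Mdl.cm f w) := by
  rw [comp3_eq M h h1 h2, comp3_eq M' h (by rw [← fc_nat, ← fc_nat, h1])
    (by rw [← fc_nat, ← fc_nat, h2]), nat_apply]
  congr 1
  exact tup3_map (Mdl.Hom.φ f) h x y w h1 h2

/-- One-step faces of a triple composite. -/
theorem comp3_fc_step (M : Mdl C) {i j : ℕ} (h : i < j) {x w : Cl M.G (i + 1)}
    {y : Cl M.G (j + 1)}
    (h1 : fc M.G (Nat.lt_succ_self i) true x = fc M.G (h.trans (Nat.lt_succ_self j)) false y)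
    (h2 : fc M.G (h.trans (Nat.lt_succ_self j)) true y = fc M.G (Nat.lt_succ_self i) false w)
    (b : Bool) :
    fc M.G (Nat.lt_succ_self j) b (comp3 M x y w) = comp3 M x (fc M.G (Nat.lt_succ_self j) b y) w := by
  rw [comp3_eq M (h.trans (Nat.lt_succ_self j)) h1 h2,
    comp3_eq M h (by rw [fc_fc, h1]) (by rw [fc_fc, h2])]
  have key : ∀ c : Bool, lowerT h c (tup3 (h.trans (Nat.lt_succ_self j)) x y w h1 h2) =
      tup3 h x (fc M.G (Nat.lt_succ_self j) c y) w (by rw [fc_fc, h1]) (by rw [fc_fc, h2]) := by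
    intro c
    apply U3_ext
    · rw [prj1_lowerT, prj1_tup3, prj1_tup3]
    · rw [prj2_lowerT, prj2_tup3, prj2_tup3]
    · rw [prj3_lowerT, prj3_tup3, prj3_tup3]
  have hs := comp3Seq_step h M (tup3 (h.trans (Nat.lt_succ_self j)) x y w h1 h2)
  cases b
  · rw [hs.1, key]
  · rw [hs.2, key]

/-- Faces of a triple composite at level `i` (the base of the composite). -/
theorem comp3_fc_base (M : Mdl C) {i j : ℕ} (h : i < j) {x w : Cl M.G (i + 1)} {y : Cl M.G j}
    (h1 : fc M.G (Nat.lt_succ_self i) true x = fc M.G h false y)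
    (h2 : fc M.G h true y = fc M.G (Nat.lt_succ_self i) false w) :
    fc M.G h false (comp3 M x y w) = fc M.G (Nat.lt_succ_self i) false x ∧
    fc M.G h true (comp3 M x y w) = fc M.G (Nat.lt_succ_self i) true w := by
  induction j with
  | zero => exact absurd h (Nat.not_lt_zero i)
  | succ j ih =>
    by_cases h' : i < j
    · have h1' : fc M.G (Nat.lt_succ_self i) true x = fc M.G h' false (fc M.G (Nat.lt_succ_self j) false y) := by
        rw [fc_fc, h1]
      have h2' : fc M.G h' true (fc M.G (Nat.lt_succ_self j) false y) = fc M.G (Nat.lt_succ_self i) false w := by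
        rw [fc_fc, h2]
      have hs := comp3_fc_step M h' h1 h2 false
      have hih := ih h' h1' h2'
      rw [← hs] at hih
      rw [fc_fc, fc_fc] at hih
      exact hih
    · have hij : j = i := by omega
      subst hij
      rw [comp3_eq M h h1 h2]
      have := comp3Seq_base j M (tup3 h x y w h1 h2)
      rwa [prj1_tup3, prj3_tup3] at this

/-- Faces of a triple composite above the base. -/
theorem comp3_fc_high (M : Mdl C) {i i₁ j : ℕ} (h : i < j) (hi : i < i₁) (hj : i₁ < j)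
    {x w : Cl M.G (i + 1)} {y : Cl M.G j}
    (h1 : fc M.G (Nat.lt_succ_self i) true x = fc M.G h false y)
    (h2 : fc M.G h true y = fc M.G (Nat.lt_succ_self i) false w) (b : Bool) :
    fc M.G hj b (comp3 M x y w) = comp3 M x (fc M.G hj b y) w := by
  induction j with
  | zero => exact absurd hj (Nat.not_lt_zero _)
  | succ j ih =>
    have hij : i < j := by omega
    by_cases hk : i₁ = j
    · subst hk
      exact comp3_fc_step M hij h1 h2 b
    · have hlt : i₁ < j := by omega
      have h1' : fc M.G (Nat.lt_succ_self i) true x = fc M.G hij false (fc M.G (Nat.lt_succ_self j) false y) := by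
        rw [fc_fc, h1]
      have h2' : fc M.G hij true (fc M.G (Nat.lt_succ_self j) false y) = fc M.G (Nat.lt_succ_self i) false w := by
        rw [fc_fc, h2]
      have hs := comp3_fc_step M hij h1 h2 false
      have hih := ih hij hlt h1' h2'
      rw [← hs, fc_fc, fc_fc] at hih
      exact hih

/-- Lower faces of a triple composite. -/
theorem comp3_fc_low (M : Mdl C) {i i' j : ℕ} (h : i < j) (hi : i' < i) {x w : Cl M.G (i + 1)}
    {y : Cl M.G j}
    (h1 : fc M.G (Nat.lt_succ_self i) true x = fc M.G h false y)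
    (h2 : fc M.G h true y = fc M.G (Nat.lt_succ_self i) false w) (b : Bool) :
    fc M.G (hi.trans h) b (comp3 M x y w) = fc M.G (hi.trans h) b y := by
  have e1 := (comp3_fc_base M h h1 h2).1
  calc fc M.G (hi.trans h) b (comp3 M x y w)
      = fc M.G hi b (fc M.G h false (comp3 M x y w)) := (fc_fc _ _ _ _ _ _).symm
    _ = fc M.G hi b (fc M.G (Nat.lt_succ_self i) false x) := by rw [e1]
    _ = fc M.G hi b (fc M.G (Nat.lt_succ_self i) true x) := by rw [fc_fc, fc_fc]
    _ = fc M.G hi b (fc M.G h false y) := by rw [h1]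
    _ = fc M.G (hi.trans h) b y := fc_fc _ _ _ _ _ _

end Crest.Agent.Coh
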