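import Crest.Agent.Lib.Coh.Com
import Crest.Agent.Lib.Coh.Cosk
import Crest.Agent.Lib.Coh.Ops

/-!
# Building theory maps along the tower; the coskeletal model
-/

set_option autoImplicit false

open CategoryTheory CategoryTheory.Limits Opposite
open Crest.GeometryTopology.Coherator

universe u v

namespace Crest.Agent.Coh

variable {C : GlobTheory.{u}}

/-- A family of theory maps from a stage of the tower. -/
abbrev StageFam (T : C.Tower) {I : Type v} (G : I → GlobPsh.{u}) (r : ℕ) : Type (max u v) :=
  ∀ i, GlobTheory.TheoryMap (T.stage r) (EndT (G i))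

/-- Fillers in a presheaf as functions. -/
theorem filler_iff {D : GlobTheory.{u}} {P : GlobPsh.{u}} (A : GlobTheory.TheoryMap D (EndT P))
    (p : D.Admissible) (w : (EndT P).arr (Shape.globe (p.n + 1)) p.shape) :
    GlobTheory.IsFillerAlong A p w ↔
      (∀ τ, Tup.pre (Shape.σ p.n) (w τ) = A.map p.lower τ) ∧
      (∀ τ, Tup.pre (Shape.τ p.n) (w τ) = A.map p.upper τ) := by
  constructor
  · rintro ⟨h1, h2⟩
    exact ⟨fun τ => congrFun h1 τ, fun τ => congrFun h2 τ⟩
  · rintro ⟨h1, h2⟩
    exact ⟨funext h1, funext h2⟩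

/-- A filler rule given on cells. -/
noncomputable def ruleOf {P : GlobPsh.{u}} {S : Shape} {n : ℕ} (F : Tup P S → Cl P n) :
    Tup P S → Tup P (Shape.globe n) := fun τ => cellT (F τ)

theorem filler_of_cells {D : GlobTheory.{u}} {P : GlobPsh.{u}} (A : GlobTheory.TheoryMap D (EndT P))
    (p : D.Admissible) (F : Tup P p.shape → Cl P (p.n + 1))
    (h1 : ∀ τ, fc P (Nat.lt_succ_self p.n) false (F τ) = tCell (A.map p.lower τ))
    (h2 : ∀ τ, fc P (Nat.lt_succ_self p.n) true (F τ) = tCell (A.map p.upper τ)) :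
    GlobTheory.IsFillerAlong A p (ruleOf F) := by
  rw [filler_iff]
  constructor
  · intro τ
    have : Tup.pre (Shape.σ p.n) (cellT (F τ)) = cellT (fc P (Nat.lt_succ_self p.n) false (F τ)) :=
      pre_face_cellT _ _ _
    change Tup.pre (Shape.σ p.n) (cellT (F τ)) = _
    rw [this, h1, cellT_tCell]
  · intro τ
    have : Tup.pre (Shape.τ p.n) (cellT (F τ)) = cellT (fc P (Nat.lt_succ_self p.n) true (F τ)) :=
      pre_face_cellT _ _ _
    change Tup.pre (Shape.τ p.n) (cellT (F τ)) = _
    rw [this, h2, cellT_tCell]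

/-- The generic construction of a family of theory maps along the tower, maintaining an invariant.
`step`: from a family on stage `r` satisfying the invariant produce filler rules such that any
extension to stage `r + 1` with those values on generators satisfies the invariant. -/
theorem tower_build (T : C.Tower) {I : Type v} (G : I → GlobPsh.{u})
    (Inv : ∀ r, StageFam T G r → Prop)
    (h0 : ∀ Φ : StageFam T G 0, Inv 0 Φ)
    (step : ∀ r (Φ : StageFam T G r), Inv r Φ →
      ∃ w : ∀ i (g : T.gen r), (EndT (G i)).arr (Shape.globe ((T.prob r g).n + 1)) (T.prob r g).shape,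
        (∀ i g, GlobTheory.IsFillerAlong (Φ i) (T.prob r g) (w i g)) ∧
        ∀ Φ' : StageFam T G (r + 1), (∀ i, (T.next r).comp (Φ' i) = Φ i) →
          (∀ i g, (Φ' i).map (T.fill r g) = w i g) → Inv (r + 1) Φ') :
    ∃ Φ : ∀ i, GlobTheory.TheoryMap C (EndT (G i)),
      ∀ r, Inv r (fun i => (T.toEnd r).comp (Φ i)) := by
  classical
  have hstage0 : ∀ i, Nonempty (Unique (GlobTheory.TheoryMap (T.stage 0) (EndT (G i)))) :=
    fun i => T.stage_zero _
  -- one step of the recursion
  have hstep : ∀ r (x : { Φ : StageFam T G r // Inv r Φ }),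
      ∃ y : { Φ : StageFam T G (r + 1) // Inv (r + 1) Φ },
        ∀ i, (T.next r).comp (y.1 i) = x.1 i := by
    rintro r ⟨Φ, hΦ⟩
    obtain ⟨w, hw1, hw2⟩ := step r Φ hΦ
    have hH := fun i => (T.free r).2 (EndT (G i)) (Φ i) (w i) (hw1 i)
    choose Φ' hΦ' _ using hH
    exact ⟨⟨Φ', hw2 Φ' (fun i => (hΦ' i).1) (fun i g => (hΦ' i).2 g)⟩, fun i => (hΦ' i).1⟩
  let seq : (r : ℕ) → { Φ : StageFam T G r // Inv r Φ } := fun r =>
    Nat.rec ⟨fun i => (Classical.choice (hstage0 i)).default, h0 _⟩
      (fun r x => Classical.choose (hstep r x)) r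
  have hseq : ∀ r i, (T.next r).comp ((seq (r + 1)).1 i) = (seq r).1 i :=
    fun r i => Classical.choose_spec (hstep r (seq r)) i
  have hC := fun i => T.colim (EndT (G i)) (fun r => (seq r).1 i) (fun r => hseq r i)
  choose Φ hΦ _ using hC
  refine ⟨Φ, fun r => ?_⟩
  have e : (fun i => (T.toEnd r).comp (Φ i)) = (seq r).1 := funext fun i => hΦ i r
  rw [e]
  exact (seq r).2

/-- Faces of the value of a filler under a theory map. -/
theorem fc_fill {D D' : GlobTheory.{u}} {F : GlobTheory.TheoryMap D D'} {p : D.Admissible}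
    {z : D'.arr (Shape.globe (p.n + 1)) p.shape} (hz : GlobTheory.IsFillerAlong F p z)
    {P : GlobPsh.{u}} (A : GlobTheory.TheoryMap D' (EndT P)) (τ : Tup P p.shape) :
    fc P (Nat.lt_succ_self p.n) false (tCell (A.map z τ)) = tCell (A.map (F.map p.lower) τ) ∧
    fc P (Nat.lt_succ_self p.n) true (tCell (A.map z τ)) = tCell (A.map (F.map p.upper) τ) := by
  obtain ⟨h1, h2⟩ := hz
  constructor
  · have e := congrFun (congrArg A.map h1) τ
    rw [A.map_seq, A.map_ofShape] at e
    rw [← tCell_pre_face]
    exact congrArg tCell e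
  · have e := congrFun (congrArg A.map h2) τ
    rw [A.map_seq, A.map_ofShape] at e
    rw [← tCell_pre_face]
    exact congrArg tCell e

/-- Commutation into a coskeleton for a free extension: only generators of level `≤ k` matter. -/
theorem comm_free_cosk {D D' : GlobTheory.{u}} {F : GlobTheory.TheoryMap D D'} {ι : Type u}
    {prob : ι → D.Admissible}
    {fill : (i : ι) → D'.arr (Shape.globe ((prob i).n + 1)) (prob i).shape}
    (hF : GlobTheory.IsFreeOn F ι prob fill) {k : ℕ} {P Q : GlobPsh.{u}}
    (A : GlobTheory.TheoryMap D' (EndT P)) (B : GlobTheory.TheoryMap D' (EndT (Cosk k Q)))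
    (φ : P ⟶ Cosk k Q)
    (h : Commutes (F.comp A) (F.comp B) φ)
    (hg : ∀ i, (prob i).n + 1 ≤ k → ∀ τ, A.map (fill i) τ ≫ φ = B.map (fill i) (τ ≫ φ)) :
    Commutes A B φ := by
  apply comm_free hF A B φ h
  intro i τ
  by_cases hi : (prob i).n + 1 ≤ k
  · exact hg i hi τ
  · have hz := hF.1 i
    have key : tCell (A.map (fill i) τ ≫ φ) = tCell (B.map (fill i) (τ ≫ φ)) := by
      have hk : k < (prob i).n + 1 := by omega
      apply CC.eq_of_par hk
      apply Par.of_succ
      · rw [tCell_map, ← fc_nat, (fc_fill hz A τ).1, (fc_fill hz B _).1]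
        exact congrArg tCell (h (prob i).lower τ)
      · rw [tCell_map, ← fc_nat, (fc_fill hz A τ).2, (fc_fill hz B _).2]
        exact congrArg tCell (h (prob i).upper τ)
    have := congrArg cellT key
    simpa using this

/-- Commutation into a coskeleton for `C`: only generators of level `≤ k` matter, and the
commutation at earlier stages may be used. -/
theorem comm_of_gens_cosk {C : GlobTheory.{u}} (T : C.Tower) {k : ℕ} {P Q : GlobPsh.{u}}
    (A : GlobTheory.TheoryMap C (EndT P)) (B : GlobTheory.TheoryMap C (EndT (Cosk k Q)))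
    (φ : P ⟶ Cosk k Q)
    (hg : ∀ r, Commutes ((T.toEnd r).comp A) ((T.toEnd r).comp B) φ →
      ∀ (g : T.gen r), (T.prob r g).n + 1 ≤ k → ∀ (τ : Tup P (T.prob r g).shape),
      A.map ((T.toEnd (r + 1)).map (T.fill r g)) τ ≫ φ =
        B.map ((T.toEnd (r + 1)).map (T.fill r g)) (τ ≫ φ)) : Commutes A B φ := by
  apply comm_colim T
  intro r
  induction r with
  | zero => exact comm_initial T.stage_zero _ _ φ
  | succ r ih =>
    apply comm_free_cosk (T.free r)
    · have e1 : (T.next r).comp ((T.toEnd (r + 1)).comp A) = (T.toEnd r).comp A := by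
        rw [← T.toEnd_comm r]; rfl
      have e2 : (T.next r).comp ((T.toEnd (r + 1)).comp B) = (T.toEnd r).comp B := by
        rw [← T.toEnd_comm r]; rfl
      rw [e1, e2]
      exact @ih
    · intro g hle τ
      exact hg r @ih g hle τ

/-- Parallelism of the images of an admissible pair. -/
theorem par_of_admissible {D : GlobTheory.{u}} {P : GlobPsh.{u}} (A : GlobTheory.TheoryMap D (EndT P))
    (p : D.Admissible) (τ : Tup P p.shape) :
    Par P (tCell (A.map p.lower τ)) (tCell (A.map p.upper τ)) := by
  rcases p with ⟨n, S, hS, lo, up, hp⟩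
  cases n with
  | zero => intro i hi b; exact absurd (show i < 0 from hi) (Nat.not_lt_zero _)
  | succ n =>
    obtain ⟨h1, h2⟩ := hp
    apply Par.of_succ
    · rw [← tCell_pre_face, ← tCell_pre_face]
      have e := congrFun (congrArg A.map h1) τ
      rw [A.map_seq, A.map_seq, A.map_ofShape] at e
      exact congrArg tCell e
    · rw [← tCell_pre_face, ← tCell_pre_face]
      have e := congrFun (congrArg A.map h2) τ
      rw [A.map_seq, A.map_seq, A.map_ofShape] at e
      exact congrArg tCell e

end Crest.Agent.Coh
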