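import Crest.Agent.Lib.Coh.Build

/-!
# The coskeletal model `ckM k M`
-/

set_option autoImplicit false

open CategoryTheory CategoryTheory.Limits Opposite
open Crest.GeometryTopology.Coherator

universe u

namespace Crest.Agent.Coh

variable {C : GlobTheory.{u}} [Kit C]

/-- The tower. -/
noncomputable abbrev TT (C : GlobTheory.{u}) [Kit C] : C.Tower := Kit.T

/-- The generator as an operation of `C`. -/
noncomputable def opG (r : ℕ) (g : (TT C).gen r) :
    C.arr (Shape.globe (((TT C).prob r g).n + 1)) ((TT C).prob r g).shape :=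
  ((TT C).toEnd (r + 1)).map ((TT C).fill r g)

theorem toEnd_next (r : ℕ) {S T : Shape} (o : ((TT C).stage r).arr S T) :
    ((TT C).toEnd (r + 1)).map (((TT C).next r).map o) = ((TT C).toEnd r).map o := by
  rw [← (TT C).toEnd_comm r]
  rfl

theorem fc_opG (M : Mdl C) (r : ℕ) (g : (TT C).gen r) (τ : Tup M.G ((TT C).prob r g).shape) :
    fc M.G (Nat.lt_succ_self _) false (M.opC (opG r g) τ) =
      M.opC (((TT C).toEnd r).map ((TT C).prob r g).lower) τ ∧
    fc M.G (Nat.lt_succ_self _) true (M.opC (opG r g) τ) =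
      M.opC (((TT C).toEnd r).map ((TT C).prob r g).upper) τ := by
  have h := fc_fill (((TT C).free r).1 g) (((TT C).toEnd (r + 1)).comp M.Φ) τ
  have e : ∀ o : ((TT C).stage r).arr (Shape.globe ((TT C).prob r g).n) ((TT C).prob r g).shape,
      tCell ((((TT C).toEnd (r + 1)).comp M.Φ).map (((TT C).next r).map o) τ) =
        M.opC (((TT C).toEnd r).map o) τ := by
    intro o
    change tCell (M.act (((TT C).toEnd (r + 1)).map (((TT C).next r).map o)) τ) = _
    rw [toEnd_next]
    rfl
  rw [e, e] at h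
  exact h

/-- Lifting tuples of low height along `eta`. -/
noncomputable def liftTup {k : ℕ} {P : GlobPsh.{u}} {S : Shape} (hS : S.dim ≤ k)
    (τ : Tup (Cosk k P) S) : Tup P S :=
  Function.surjInv (tup_lift_bijective (eta k P) k (eta_bijective k P) S hS).2 τ

theorem liftTup_spec {k : ℕ} {P : GlobPsh.{u}} {S : Shape} (hS : S.dim ≤ k)
    (τ : Tup (Cosk k P) S) : liftTup hS τ ≫ eta k P = τ :=
  Function.surjInv_eq (tup_lift_bijective (eta k P) k (eta_bijective k P) S hS).2 τ

theorem liftTup_eta {k : ℕ} {P : GlobPsh.{u}} {S : Shape} (hS : S.dim ≤ k) (τ : Tup P S) :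
    liftTup hS (τ ≫ eta k P) = τ :=
  (tup_lift_bijective (eta k P) k (eta_bijective k P) S hS).1 (liftTup_spec hS _)

open Classical in
/-- The rule for a generator in the coskeletal model. -/
noncomputable def ckRule (k : ℕ) (M : Mdl C) (r : ℕ)
    (Φ : GlobTheory.TheoryMap ((TT C).stage r) (EndT (Cosk k M.G))) (g : (TT C).gen r)
    (τ : Tup (Cosk k M.G) ((TT C).prob r g).shape) : Cl (Cosk k M.G) (((TT C).prob r g).n + 1) :=
  if hn : ((TT C).prob r g).n + 1 ≤ k then
    etaC k (M.opC (opG r g) (liftTup (le_trans ((TT C).prob r g).dim_le hn) τ))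
  else
    CC.fill (by omega) (tCell (Φ.map ((TT C).prob r g).lower τ))
      (tCell (Φ.map ((TT C).prob r g).upper τ)) (par_of_admissible Φ _ τ)

theorem exists_ck (k : ℕ) (M : Mdl C) :
    ∃ Φ : GlobTheory.TheoryMap C (EndT (Cosk k M.G)), Commutes M.Φ Φ (eta k M.G) := by
  obtain ⟨Φ, hΦ⟩ := tower_build (TT C) (I := PUnit.{1}) (fun _ => Cosk k M.G)
    (fun r Φ => Commutes (((TT C).toEnd r).comp M.Φ) (Φ PUnit.unit) (eta k M.G))
    (fun Φ => comm_initial (TT C).stage_zero _ _ _)
    (by
      intro r Φ hΦ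
      refine ⟨fun _ g => ruleOf (ckRule k M r (Φ PUnit.unit) g), fun _ g => ?_, ?_⟩
      · apply filler_of_cells
        · intro τ
          unfold ckRule
          split_ifs with hn
          · have hS := le_trans ((TT C).prob r g).dim_le hn
            have h1 : fc (Cosk k M.G) (Nat.lt_succ_self _) false
                (etaC k (M.opC (opG r g) (liftTup hS τ))) =
                etaC k (fc M.G (Nat.lt_succ_self _) false (M.opC (opG r g) (liftTup hS τ))) :=
              (fc_nat (eta k M.G) _ _ _).symm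
            rw [h1, (fc_opG M r g _).1]
            have h2 := hΦ ((TT C).prob r g).lower (liftTup hS τ)
            rw [liftTup_spec] at h2
            rw [← h2]
            rfl
          · exact CC.face_fill_false _ _ _ _
        · intro τ
          unfold ckRule
          split_ifs with hn
          · have hS := le_trans ((TT C).prob r g).dim_le hn
            have h1 : fc (Cosk k M.G) (Nat.lt_succ_self _) true
                (etaC k (M.opC (opG r g) (liftTup hS τ))) =
                etaC k (fc M.G (Nat.lt_succ_self _) true (M.opC (opG r g) (liftTup hS τ))) :=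
              (fc_nat (eta k M.G) _ _ _).symm
            rw [h1, (fc_opG M r g _).2]
            have h2 := hΦ ((TT C).prob r g).upper (liftTup hS τ)
            rw [liftTup_spec] at h2
            rw [← h2]
            rfl
          · exact CC.face_fill_true _ _ _ _
      · intro Φ' h1 h2
        apply comm_free_cosk ((TT C).free r)
        · have e1 : ((TT C).next r).comp (((TT C).toEnd (r + 1)).comp M.Φ) =
              ((TT C).toEnd r).comp M.Φ := by
            rw [← (TT C).toEnd_comm r]; rfl
          rw [e1, h1]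
          exact @hΦ
        · intro g hn τ
          have hS := le_trans ((TT C).prob r g).dim_le hn
          have e := h2 PUnit.unit g
          rw [e]
          change M.act (opG r g) τ ≫ eta k M.G = cellT (ckRule k M r (Φ PUnit.unit) g (τ ≫ eta k M.G))
          unfold ckRule
          rw [dif_pos hn, liftTup_eta]
          conv_lhs => rw [← cellT_tCell (M.act (opG r g) τ)]
          rw [cellT_map]
          rfl)
  refine ⟨Φ PUnit.unit, ?_⟩
  apply comm_colim (TT C)
  intro r
  exact hΦ r

/-- The coskeletal model. -/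
noncomputable abbrev ckM (k : ℕ) (M : Mdl C) : Mdl C :=
  ⟨Cosk k M.G, Classical.choose (exists_ck k M)⟩

/-- The unit of the coskeletal model is a morphism of models. -/
noncomputable def etaM (k : ℕ) (M : Mdl C) : M ⟶ ckM k M :=
  ⟨eta k M.G, Classical.choose_spec (exists_ck k M)⟩

theorem etaM_comm (k : ℕ) (M : Mdl C) {S T : Shape} (o : C.arr S T) (τ : Tup M.G T) :
    (ckM k M).act o (τ ≫ eta k M.G) = M.act o τ ≫ eta k M.G :=
  (Classical.choose_spec (exists_ck k M) o τ).symm

/-- Functoriality of the coskeletal model. -/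
noncomputable def ckMap (k : ℕ) {M M' : Mdl C} (f : M ⟶ M') : ckM k M ⟶ ckM k M' :=
  ⟨coskMap k (Mdl.Hom.φ f), by
    have h : Commutes (ckM k M).Φ (ckM k M').Φ (coskMap k (Mdl.Hom.φ f)) :=
     comm_of_gens_cosk (TT C) (ckM k M).Φ (ckM k M').Φ (coskMap k (Mdl.Hom.φ f)) (by
      intro r _ g hn τ
      have hS := le_trans ((TT C).prob r g).dim_le hn
      obtain ⟨τ', rfl⟩ : ∃ τ', τ = τ' ≫ eta k M.G := ⟨liftTup hS τ, (liftTup_spec hS τ).symm⟩
      have h1 := etaM_comm k M (opG r g) τ'
      have h2 := etaM_comm k M' (opG r g) (τ' ≫ Mdl.Hom.φ f)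
      have a1 : (M.act (opG r g) τ' ≫ eta k M.G) ≫ coskMap k (Mdl.Hom.φ f) =
          M.act (opG r g) τ' ≫ Mdl.Hom.φ f ≫ eta k M'.G := by
        rw [Category.assoc, eta_coskMap]
      have a2 : M.act (opG r g) τ' ≫ Mdl.Hom.φ f = M'.act (opG r g) (τ' ≫ Mdl.Hom.φ f) :=
        Mdl.Hom.comm f _ _
      have a3 : (τ' ≫ eta k M.G) ≫ coskMap k (Mdl.Hom.φ f) = (τ' ≫ Mdl.Hom.φ f) ≫ eta k M'.G := by
        rw [Category.assoc, eta_coskMap, Category.assoc]
      change (ckM k M).act (opG r g) (τ' ≫ eta k M.G) ≫ coskMap k (Mdl.Hom.φ f) =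
        (ckM k M').act (opG r g) ((τ' ≫ eta k M.G) ≫ coskMap k (Mdl.Hom.φ f))
      refine (congrArg (fun x : Tup (Cosk k M.G) _ => x ≫ coskMap k (Mdl.Hom.φ f)) h1).trans ?_
      refine a1.trans ?_
      refine Eq.trans ?_ (congrArg ((ckM k M').act (opG r g)) a3).symm
      rw [h2, ← a2, Category.assoc])
    intro S T o τ
    exact h o τ⟩

theorem ckMap_phi (k : ℕ) {M M' : Mdl C} (f : M ⟶ M') :
    Mdl.Hom.φ (ckMap k f) = coskMap k (Mdl.Hom.φ f) := rfl

theorem etaM_ckMap (k : ℕ) {M M' : Mdl C} (f : M ⟶ M') :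
    etaM k M ≫ ckMap k f = f ≫ etaM k M' := by
  apply Mdl.Hom.ext
  exact eta_coskMap k (Mdl.Hom.φ f)

end Crest.Agent.Coh
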