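import Crest.Agent.Lib.Coh.Mdl

/-!
# The theory of commuting pairs, and "generators suffice"
-/

set_option autoImplicit false

open CategoryTheory CategoryTheory.Limits Opposite
open Crest.GeometryTopology.Coherator

universe u

namespace Crest.Agent.Coh

/-- Arrows of the commuting theory. -/
@[ext]
structure ComArr {P Q : GlobPsh.{u}} (φ : P ⟶ Q) (S T : Shape) where
  /-- first component -/
  fst : Tup P T → Tup P S
  /-- second component -/
  snd : Tup Q T → Tup Q S
  comm : ∀ τ, fst τ ≫ φ = snd (τ ≫ φ)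

/-- The pretheory of commuting pairs. -/
noncomputable def preCom {P Q : GlobPsh.{u}} (φ : P ⟶ Q) : PreTheory.{u} where
  arr := ComArr φ
  one S := ⟨id, id, fun _ => rfl⟩
  seq f g := ⟨f.fst ∘ g.fst, f.snd ∘ g.snd, fun τ => by
    simp only [Function.comp_apply]
    rw [f.comm, g.comm]⟩
  one_seq _ := rfl
  seq_one _ := rfl
  seq_assoc _ _ _ := rfl
  ofShape f := ⟨Tup.pre f, Tup.pre f, fun τ => (Tup.pre_map f τ φ).symm⟩
  ofShape_id S := ComArr.ext (funext Tup.pre_id) (funext Tup.pre_id)
  ofShape_comp f g := ComArr.ext (funext (Tup.pre_comp f g)) (funext (Tup.pre_comp f g))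

theorem preCom_sums {P Q : GlobPsh.{u}} (φ : P ⟶ Q) : (preCom φ).RespectsSums := by
  intro S b h hb hh
  have w : (preCom φ).incl.map (S.hinge hb) ≫ (preCom φ).incl.map (S.inLeft b h hb hh) =
      (preCom φ).incl.map (Shape.faceMap hh false) ≫ (preCom φ).incl.map (S.inRight b h hb hh) := by
    rw [← Functor.map_comp, ← Functor.map_comp, shape_w]
  have key : ∀ (s : PushoutCocone ((preCom φ).incl.map (S.hinge hb))
      ((preCom φ).incl.map (Shape.faceMap hh false))),
      (∀ τ, fc P hb true (Tup.last (ComArr.fst s.inl τ)) = fc P hh false (tCell (ComArr.fst s.inr τ))) ∧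
      (∀ τ, fc Q hb true (Tup.last (ComArr.snd s.inl τ)) = fc Q hh false (tCell (ComArr.snd s.inr τ))) := by
    intro s
    have hc := s.condition
    constructor
    · intro τ
      have h0 := congrFun (congrArg ComArr.fst hc) τ
      change Tup.pre (S.hinge hb) (ComArr.fst s.inl τ) = Tup.pre (Shape.faceMap hh false) (ComArr.fst s.inr τ) at h0
      rw [Tup.pre_hinge] at h0
      have h2 := pre_face_cellT (P := P) hh false (tCell (ComArr.fst s.inr τ))
      rw [cellT_tCell] at h2
      have := congrArg tCell (h0.trans h2)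
      simpa using this
    · intro τ
      have h0 := congrFun (congrArg ComArr.snd hc) τ
      change Tup.pre (S.hinge hb) (ComArr.snd s.inl τ) = Tup.pre (Shape.faceMap hh false) (ComArr.snd s.inr τ) at h0
      rw [Tup.pre_hinge] at h0
      have h2 := pre_face_cellT (P := Q) hh false (tCell (ComArr.snd s.inr τ))
      rw [cellT_tCell] at h2
      have := congrArg tCell (h0.trans h2)
      simpa using this
  refine IsPushout.of_isColimit (c := PushoutCocone.mk _ _ w) ?_
  refine PushoutCocone.IsColimit.mk _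
    (fun s => ⟨fun τ => Tup.glueT hb hh (ComArr.fst s.inl τ) (tCell (ComArr.fst s.inr τ)) ((key s).1 τ),
      fun τ => Tup.glueT hb hh (ComArr.snd s.inl τ) (tCell (ComArr.snd s.inr τ)) ((key s).2 τ),
      fun τ => ?_⟩) ?_ ?_ ?_
  · refine (Tup.glueT_map φ _ _ _).trans ?_
    have e1 : ComArr.fst s.inl τ ≫ φ = ComArr.snd s.inl (τ ≫ φ) := ComArr.comm _ τ
    have e2 : φ.app _ (tCell (ComArr.fst s.inr τ)) = tCell (ComArr.snd s.inr (τ ≫ φ)) :=
      congrArg tCell (ComArr.comm s.inr τ)
    apply Tup.glue_ext
    · rw [Tup.pre_glueT, Tup.pre_glueT]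
      exact e1
    · have a := Tup.last_glueT (hb := hb) (hh := hh) (ComArr.fst s.inl τ ≫ φ)
        (φ.app _ (tCell (ComArr.fst s.inr τ))) (by
          rw [Tup.last_map, ← fc_nat, ← fc_nat, (key s).1 τ])
      have c := Tup.last_glueT (hb := hb) (hh := hh) (ComArr.snd s.inl (τ ≫ φ))
        (tCell (ComArr.snd s.inr (τ ≫ φ))) ((key s).2 (τ ≫ φ))
      exact a.trans (e2.trans c.symm)
  · intro s
    apply ComArr.ext
    · funext τ
      exact Tup.pre_glueT _ _ ((key s).1 τ)
    · funext τ
      exact Tup.pre_glueT _ _ ((key s).2 τ)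
  · intro s
    apply ComArr.ext
    · funext τ
      have h3 := Tup.last_glueT (hb := hb) (hh := hh) (ComArr.fst s.inl τ) (tCell (ComArr.fst s.inr τ)) ((key s).1 τ)
      exact (Tup.pre_apex _).trans ((congrArg (cellT (n := h)) h3).trans (cellT_tCell _))
    · funext τ
      have h3 := Tup.last_glueT (hb := hb) (hh := hh) (ComArr.snd s.inl τ) (tCell (ComArr.snd s.inr τ)) ((key s).2 τ)
      exact (Tup.pre_apex _).trans ((congrArg (cellT (n := h)) h3).trans (cellT_tCell _))
  · intro s m h1 h2
    apply ComArr.ext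
    · funext τ
      apply Tup.glue_ext
      · rw [Tup.pre_glueT]
        exact congrFun (congrArg ComArr.fst h1) τ
      · have e : Tup.pre (S.inRight b h hb hh) (ComArr.fst m τ) = ComArr.fst s.inr τ :=
          congrFun (congrArg ComArr.fst h2) τ
        exact (congrArg tCell e).trans (Tup.last_glueT _ _ ((key s).1 τ)).symm
    · funext τ
      apply Tup.glue_ext
      · rw [Tup.pre_glueT]
        exact congrFun (congrArg ComArr.snd h1) τ
      · have e : Tup.pre (S.inRight b h hb hh) (ComArr.snd m τ) = ComArr.snd s.inr τ :=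
          congrFun (congrArg ComArr.snd h2) τ
        exact (congrArg tCell e).trans (Tup.last_glueT _ _ ((key s).2 τ)).symm

/-- The theory of commuting pairs. -/
noncomputable def ComT {P Q : GlobPsh.{u}} (φ : P ⟶ Q) : GlobTheory.{u} where
  toPreTheory := preCom φ
  respectsSums := preCom_sums φ

/-- First projection. -/
noncomputable def comFst {P Q : GlobPsh.{u}} (φ : P ⟶ Q) : GlobTheory.TheoryMap (ComT φ) (EndT P) where
  map f := ComArr.fst f
  map_one _ := rfl
  map_seq _ _ := rfl
  map_ofShape _ := rfl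

/-- Second projection. -/
noncomputable def comSnd {P Q : GlobPsh.{u}} (φ : P ⟶ Q) : GlobTheory.TheoryMap (ComT φ) (EndT Q) where
  map f := ComArr.snd f
  map_one _ := rfl
  map_seq _ _ := rfl
  map_ofShape _ := rfl

/-- Commutation of two theory maps with a map of presheaves. -/
def Commutes {D : GlobTheory.{u}} {P Q : GlobPsh.{u}} (A : GlobTheory.TheoryMap D (EndT P))
    (B : GlobTheory.TheoryMap D (EndT Q)) (φ : P ⟶ Q) : Prop :=
  ∀ {S T : Shape} (o : D.arr S T) (τ : Tup P T), A.map o τ ≫ φ = B.map o (τ ≫ φ)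

/-- The map into the commuting theory. -/
noncomputable def comLift {D : GlobTheory.{u}} {P Q : GlobPsh.{u}} {A : GlobTheory.TheoryMap D (EndT P)}
    {B : GlobTheory.TheoryMap D (EndT Q)} {φ : P ⟶ Q} (h : Commutes A B φ) :
    GlobTheory.TheoryMap D (ComT φ) where
  map o := ⟨A.map o, B.map o, h o⟩
  map_one S := ComArr.ext (A.map_one S) (B.map_one S)
  map_seq f g := ComArr.ext (A.map_seq f g) (B.map_seq f g)
  map_ofShape f := ComArr.ext (A.map_ofShape f) (B.map_ofShape f)

/-- Commutation on an initial theory. -/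
theorem comm_initial {D : GlobTheory.{u}} (hD : ∀ E : GlobTheory.{u}, Nonempty (Unique (GlobTheory.TheoryMap D E)))
    {P Q : GlobPsh.{u}} (A : GlobTheory.TheoryMap D (EndT P)) (B : GlobTheory.TheoryMap D (EndT Q))
    (φ : P ⟶ Q) : Commutes A B φ := by
  obtain ⟨uC⟩ := hD (ComT φ)
  obtain ⟨uP⟩ := hD (EndT P)
  obtain ⟨uQ⟩ := hD (EndT Q)
  have e1 : (uC.default).comp (comFst φ) = A := uP.eq_default _ |>.trans (uP.eq_default _).symm
  have e2 : (uC.default).comp (comSnd φ) = B := uQ.eq_default _ |>.trans (uQ.eq_default _).symm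
  intro S T o τ
  have := ComArr.comm (uC.default.map o) τ
  rw [← e1, ← e2]
  exact this

/-- Commutation for a free extension is checked on the old operations and the new generators. -/
theorem comm_free {D D' : GlobTheory.{u}} {F : GlobTheory.TheoryMap D D'} {ι : Type u}
    {prob : ι → D.Admissible}
    {fill : (i : ι) → D'.arr (Shape.globe ((prob i).n + 1)) (prob i).shape}
    (hF : GlobTheory.IsFreeOn F ι prob fill) {P Q : GlobPsh.{u}}
    (A : GlobTheory.TheoryMap D' (EndT P)) (B : GlobTheory.TheoryMap D' (EndT Q)) (φ : P ⟶ Q)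
    (h : Commutes (F.comp A) (F.comp B) φ)
    (hg : ∀ i τ, A.map (fill i) τ ≫ φ = B.map (fill i) (τ ≫ φ)) : Commutes A B φ := by
  let w : (i : ι) → (ComT φ).arr (Shape.globe ((prob i).n + 1)) (prob i).shape :=
    fun i => ⟨A.map (fill i), B.map (fill i), hg i⟩
  have hw : ∀ i, GlobTheory.IsFillerAlong (comLift h) (prob i) (w i) := by
    intro i
    obtain ⟨h1, h2⟩ := hF.1 i
    constructor
    · apply ComArr.ext
      · have := congrArg A.map h1
        rw [A.map_seq, A.map_ofShape] at this
        exact this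
      · have := congrArg B.map h1
        rw [B.map_seq, B.map_ofShape] at this
        exact this
    · apply ComArr.ext
      · have := congrArg A.map h2
        rw [A.map_seq, A.map_ofShape] at this
        exact this
      · have := congrArg B.map h2
        rw [B.map_seq, B.map_ofShape] at this
        exact this
  obtain ⟨H, ⟨hH1, hH2⟩, -⟩ := hF.2 (ComT φ) (comLift h) w hw
  have huniq : ∀ {R : GlobPsh.{u}} (A₁ A₂ : GlobTheory.TheoryMap D' (EndT R)),
      F.comp A₁ = F.comp A₂ → (∀ i, A₁.map (fill i) = A₂.map (fill i)) → A₁ = A₂ := by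
    intro R A₁ A₂ h1 h2
    have hfil : ∀ i, GlobTheory.IsFillerAlong (F.comp A₁) (prob i) (A₁.map (fill i)) := by
      intro i
      obtain ⟨h3, h4⟩ := hF.1 i
      constructor
      · have := congrArg A₁.map h3
        rw [A₁.map_seq, A₁.map_ofShape] at this
        exact this
      · have := congrArg A₁.map h4
        rw [A₁.map_seq, A₁.map_ofShape] at this
        exact this
    exact (hF.2 (EndT R) (F.comp A₁) (fun i => A₁.map (fill i)) hfil).unique
      ⟨rfl, fun _ => rfl⟩ ⟨h1.symm, fun i => (h2 i).symm⟩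
  have e1 : H.comp (comFst φ) = A := by
    apply huniq
    · have : F.comp (H.comp (comFst φ)) = (F.comp H).comp (comFst φ) := rfl
      rw [this, hH1]
      rfl
    · intro i
      change ComArr.fst (H.map (fill i)) = _
      rw [hH2]
  have e2 : H.comp (comSnd φ) = B := by
    apply huniq
    · have : F.comp (H.comp (comSnd φ)) = (F.comp H).comp (comSnd φ) := rfl
      rw [this, hH1]
      rfl
    · intro i
      change ComArr.snd (H.map (fill i)) = _
      rw [hH2]
  intro S T o τ
  have := ComArr.comm (H.map o) τ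
  rw [← e1, ← e2]
  exact this

/-- Commutation for a tower colimit. -/
theorem comm_colim {C : GlobTheory.{u}} (T : C.Tower) {P Q : GlobPsh.{u}}
    (A : GlobTheory.TheoryMap C (EndT P)) (B : GlobTheory.TheoryMap C (EndT Q)) (φ : P ⟶ Q)
    (h : ∀ r, Commutes ((T.toEnd r).comp A) ((T.toEnd r).comp B) φ) : Commutes A B φ := by
  let G : (r : ℕ) → GlobTheory.TheoryMap (T.stage r) (ComT φ) := fun r => comLift (h r)
  have hG : ∀ r, (T.next r).comp (G (r + 1)) = G r := by
    intro r
    apply GlobTheory.TheoryMap.ext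
    funext S S' o
    apply ComArr.ext
    · change A.map ((T.toEnd (r + 1)).map ((T.next r).map o)) = A.map ((T.toEnd r).map o)
      rw [← T.toEnd_comm r]
      rfl
    · change B.map ((T.toEnd (r + 1)).map ((T.next r).map o)) = B.map ((T.toEnd r).map o)
      rw [← T.toEnd_comm r]
      rfl
  obtain ⟨H, hH, -⟩ := T.colim (ComT φ) G hG
  have huniq : ∀ {R : GlobPsh.{u}} (A₁ A₂ : GlobTheory.TheoryMap C (EndT R)),
      (∀ r, (T.toEnd r).comp A₁ = (T.toEnd r).comp A₂) → A₁ = A₂ := by
    intro R A₁ A₂ h12
    have hc : ∀ r, (T.next r).comp ((T.toEnd (r + 1)).comp A₁) = (T.toEnd r).comp A₁ := by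
      intro r
      rw [← T.toEnd_comm r]
      rfl
    exact (T.colim (EndT R) (fun r => (T.toEnd r).comp A₁) hc).unique (fun _ => rfl)
      (fun r => (h12 r).symm)
  have e1 : H.comp (comFst φ) = A := by
    apply huniq
    intro r
    have : (T.toEnd r).comp (H.comp (comFst φ)) = ((T.toEnd r).comp H).comp (comFst φ) := rfl
    rw [this, hH]
    rfl
  have e2 : H.comp (comSnd φ) = B := by
    apply huniq
    intro r
    have : (T.toEnd r).comp (H.comp (comSnd φ)) = ((T.toEnd r).comp H).comp (comSnd φ) := rfl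
    rw [this, hH]
    rfl
  intro S S' o τ
  have := ComArr.comm (H.map o) τ
  rw [← e1, ← e2]
  exact this

/-- Generators suffice: commutation of two theory maps out of `C` is checked on generators. -/
theorem comm_of_gens {C : GlobTheory.{u}} (T : C.Tower) {P Q : GlobPsh.{u}}
    (A : GlobTheory.TheoryMap C (EndT P)) (B : GlobTheory.TheoryMap C (EndT Q)) (φ : P ⟶ Q)
    (hg : ∀ r (g : T.gen r) (τ : Tup P (T.prob r g).shape),
      A.map ((T.toEnd (r + 1)).map (T.fill r g)) τ ≫ φ =
        B.map ((T.toEnd (r + 1)).map (T.fill r g)) (τ ≫ φ)) : Commutes A B φ := by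
  apply comm_colim T
  intro r
  induction r with
  | zero => exact comm_initial T.stage_zero _ _ φ
  | succ r ih =>
    apply comm_free (T.free r)
    · have e1 : (T.next r).comp ((T.toEnd (r + 1)).comp A) = (T.toEnd r).comp A := by
        rw [← T.toEnd_comm r]; rfl
      have e2 : (T.next r).comp ((T.toEnd (r + 1)).comp B) = (T.toEnd r).comp B := by
        rw [← T.toEnd_comm r]; rfl
      rw [e1, e2]
      exact @ih
    · intro g τ
      exact hg r g τ

end Crest.Agent.Coh
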