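import Crest.Agent.Lib.Coh.CombCyl

/-!
# The comb shape

For a shape `S` and a level `m` there is a shape `T` of height at most `max S.dim (m + 1)` and natural
maps `β : Cx m m S ⟶ tupF C T`, `ρ : tupF C T ⟶ Cx m m S` with `ρ ∘ β` the post-composition with `Rm`.
-/

set_option autoImplicit false
set_option linter.unusedVariables false
set_option linter.unusedSectionVars false

open CategoryTheory CategoryTheory.Limits Opposite
open Crest.GeometryTopology.Coherator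

universe u

namespace Crest.Agent.Coh

variable {C : GlobTheory.{u}} [Kit C]

section lastG

variable {P : GlobPsh.{u}} {S : Shape} {b h : ℕ} {hb : b < S.last} {hh : b < h}

/-- The last cell of a tuple of a glued shape, with its evident type. -/
noncomputable def lastG (τ : Tup P (S.glue b h hb hh)) : Cl P h := Tup.last τ

@[simp] theorem lastG_glueT (τ : Tup P S) (c : Cl P h)
    (hm : fc P hb true (Tup.last τ) = fc P hh false c) :
    lastG (Tup.glueT hb hh τ c hm) = c := Tup.last_glueT τ c hm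

theorem lastG_map {Q : GlobPsh.{u}} (τ : Tup P (S.glue b h hb hh)) (φ : P ⟶ Q) :
    lastG (τ ≫ φ) = φ.app _ (lastG τ) := rfl

theorem lastG_match (τ : Tup P (S.glue b h hb hh)) :
    fc P hb true (Tup.last (Tup.pre (S.inLeft b h hb hh) τ)) = fc P hh false (lastG τ) :=
  Tup.glue_match τ

theorem glue_ext' {τ τ' : Tup P (S.glue b h hb hh)}
    (h1 : Tup.pre (S.inLeft b h hb hh) τ = Tup.pre (S.inLeft b h hb hh) τ')
    (h2 : lastG τ = lastG τ') : τ = τ' := Tup.glue_ext h1 h2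

end lastG

section generic

variable {m : ℕ}

/-- The last cell of a cylinder tuple. -/
noncomputable abbrev lastC {M : Mdl C} {S : Shape} (τ : Tup (cyl m (Eab m) M) S) : PCm m M S.last :=
  Tup.last τ

/-- The defining property of a comb. -/
structure IsComb (m : ℕ) (S T : Shape)
    (β : ∀ M : Mdl C, Tup (cyl m (Eab m) M) S → Tup M.G T)
    (ρ : ∀ M : Mdl C, Tup M.G T → Tup (cyl m (Eab m) M) S) : Prop where
  β_nat : ∀ {M M' : Mdl C} (f : M ⟶ M') (τ : Tup (cyl m (Eab m) M) S),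
    β M τ ≫ Mdl.Hom.φ f = β M' (τ ≫ cylMap f)
  ρ_nat : ∀ {M M' : Mdl C} (f : M ⟶ M') (ξ : Tup M.G T),
    ρ M ξ ≫ cylMap f = ρ M' (ξ ≫ Mdl.Hom.φ f)
  ρβ : ∀ (M : Mdl C) (τ : Tup (cyl m (Eab m) M) S), ρ M (β M τ) = τ ≫ Rm m M
  dim : T.dim ≤ max S.dim (m + 1)

/-- The base of the recursion: one globe. -/
theorem comb_base {h : ℕ} {T : Shape}
    (nc : ∀ M : Mdl C, Tup M.G T → Cl (cyl m (Eab m) M) h)
    (ext : ∀ M : Mdl C, Cl (cyl m (Eab m) M) h → Tup M.G T)
    (nc_nat : ∀ {M M' : Mdl C} (f : M ⟶ M') (ξ : Tup M.G T),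
      (cylMap f).app (op (GlobeObj.mk h)) (nc M ξ) = nc M' (ξ ≫ Mdl.Hom.φ f))
    (ext_nat : ∀ {M M' : Mdl C} (f : M ⟶ M') (c : Cl (cyl m (Eab m) M) h),
      ext M c ≫ Mdl.Hom.φ f = ext M' ((cylMap f).app (op (GlobeObj.mk h)) c))
    (nc_ext : ∀ (M : Mdl C) (c : Cl (cyl m (Eab m) M) h),
      nc M (ext M c) = (Rm m M).app (op (GlobeObj.mk h)) c)
    (hdim : T.dim ≤ max h (m + 1)) :
    IsComb (C := C) m (Shape.globe h) T (fun M τ => ext M (tCell τ))
      (fun M ξ => cellT (P := cyl m (Eab m) M) (nc M ξ)) where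
  β_nat f τ := ext_nat f (tCell τ)
  ρ_nat f ξ := by
    rw [cellT_map, nc_nat]
  ρβ M τ := by
    rw [nc_ext]
    conv_rhs => rw [← cellT_tCell τ]
    rw [cellT_map]
  dim := hdim

/-- The recursive step: glue one globe. -/
theorem comb_extend {S T T' : Shape} {β : ∀ M : Mdl C, Tup (cyl m (Eab m) M) S → Tup M.G T}
    {ρ : ∀ M : Mdl C, Tup M.G T → Tup (cyl m (Eab m) M) S} (hc : IsComb m S T β ρ) {b h : ℕ}
    (hb : b < S.last) (hh : b < h)
    (res : ∀ M : Mdl C, Tup M.G T' → Tup M.G T)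
    (nc : ∀ M : Mdl C, Tup M.G T' → Cl (cyl m (Eab m) M) h)
    (ext : ∀ M : Mdl C, (τ : Tup (cyl m (Eab m) M) (S.glue b h hb hh)) → Tup M.G T')
    (res_nat : ∀ {M M' : Mdl C} (f : M ⟶ M') (ξ : Tup M.G T'),
      res M ξ ≫ Mdl.Hom.φ f = res M' (ξ ≫ Mdl.Hom.φ f))
    (nc_nat : ∀ {M M' : Mdl C} (f : M ⟶ M') (ξ : Tup M.G T'),
      (cylMap f).app (op (GlobeObj.mk h)) (nc M ξ) = nc M' (ξ ≫ Mdl.Hom.φ f))
    (ext_nat : ∀ {M M' : Mdl C} (f : M ⟶ M') (τ : Tup (cyl m (Eab m) M) (S.glue b h hb hh)),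
      ext M τ ≫ Mdl.Hom.φ f = ext M' (τ ≫ cylMap f))
    (mt : ∀ (M : Mdl C) (ξ : Tup M.G T'),
      fc (cyl m (Eab m) M) hb true (Tup.last (ρ M (res M ξ))) =
        fc (cyl m (Eab m) M) hh false (nc M ξ))
    (res_ext : ∀ (M : Mdl C) (τ : Tup (cyl m (Eab m) M) (S.glue b h hb hh)),
      res M (ext M τ) = β M (Tup.pre (S.inLeft b h hb hh) τ))
    (nc_ext : ∀ (M : Mdl C) (τ : Tup (cyl m (Eab m) M) (S.glue b h hb hh)),
      nc M (ext M τ) = (Rm m M).app (op (GlobeObj.mk h)) (lastG τ))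
    (hdim : T'.dim ≤ max (max S.dim h) (m + 1)) :
    IsComb m (S.glue b h hb hh) T' ext
      (fun M ξ => Tup.glueT hb hh (ρ M (res M ξ)) (nc M ξ) (mt M ξ)) where
  β_nat f τ := ext_nat f τ
  ρ_nat {M M'} f ξ := by
    rw [Tup.glueT_map]
    apply glue_ext'
    · rw [Tup.pre_glueT, Tup.pre_glueT, hc.ρ_nat, res_nat]
    · rw [lastG_glueT, lastG_glueT]
      exact nc_nat f ξ
  ρβ M τ := by
    apply glue_ext'
    · rw [Tup.pre_glueT, res_ext, hc.ρβ, Tup.pre_map]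
    · rw [lastG_glueT, nc_ext]
      rfl
  dim := hdim

end generic

section cases

variable {m : ℕ} {M : Mdl C}

theorem face_z1 {E : ℕ → Prop} {i j : ℕ} (h : i < j) (s : Bool) (c : PC m E M j) :
    (PC.face h s c).top.z1 = fc M.G h s c.top.z1 := (c.vt.f1 i h s).symm

/-- The interface for gluing below `m`. -/
def ClosedI (m : ℕ) (S T : Shape)
    (β : ∀ M : Mdl C, Tup (cyl m (Eab m) M) S → Tup M.G T)
    (ρ : ∀ M : Mdl C, Tup M.G T → Tup (cyl m (Eab m) M) S) : Prop :=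
  ∀ (b : ℕ) (hb : b < S.last), b < m → ∃ hbT : b < T.last,
    (∀ (M : Mdl C) (τ : Tup (cyl m (Eab m) M) S),
      fc M.G hbT true (Tup.last (β M τ)) = fc M.G hb true (lastC τ).top.z1) ∧
    (∀ (M : Mdl C) (ξ : Tup M.G T),
      fc M.G hb true (lastC (ρ M ξ)).top.z1 = fc M.G hbT true (Tup.last ξ))

/-- The interface of a comb when the last globe of `S` is below `m`. -/
def LowI (m : ℕ) {n : ℕ} (P P0 : Pasting n)
    (β : ∀ M : Mdl C, Tup (cyl m (Eab m) M) (Shape.mk n P) → Tup M.G (Shape.mk n P0))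
    (ρ : ∀ M : Mdl C, Tup M.G (Shape.mk n P0) → Tup (cyl m (Eab m) M) (Shape.mk n P)) : Prop :=
  (∀ (M : Mdl C) (τ : Tup (cyl m (Eab m) M) (Shape.mk n P)),
    Tup.last (β M τ) = (lastC τ).top.z1) ∧
  (∀ (M : Mdl C) (ξ : Tup M.G (Shape.mk n P0)),
    (lastC (ρ M ξ)).top.z1 = Tup.last ξ)

/-- The interface of a comb when the last globe of `S` is at level `m`. -/
def MidI (m : ℕ) (P : Pasting m) (P0 : Pasting (m + 1))
    (β : ∀ M : Mdl C, Tup (cyl m (Eab m) M) (Shape.mk m P) → Tup M.G (Shape.mk (m + 1) P0))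
    (ρ : ∀ M : Mdl C, Tup M.G (Shape.mk (m + 1) P0) → Tup (cyl m (Eab m) M) (Shape.mk m P)) : Prop :=
  (∀ (M : Mdl C) (τ : Tup (cyl m (Eab m) M) (Shape.mk m P)),
    Tup.last (β M τ) = (lastC τ).top.lam) ∧
  (∀ (M : Mdl C) (ξ : Tup M.G (Shape.mk (m + 1) P0)),
    (lastC (ρ M ξ)).top.lam = Tup.last ξ)

/-- The closed comb of an open comb above `m`. -/
abbrev closeT {n : ℕ} (hn : m < n) (P0 : Pasting n) : Shape :=
  (Shape.mk n P0).glue m (m + 1) hn (Nat.lt_succ_self m)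

/-- The interface of a comb when the last globe of `S` is above `m`. -/
structure HighI {n : ℕ} (hn : m < n) (P P0 : Pasting n)
    (β : ∀ M : Mdl C, Tup (cyl m (Eab m) M) (Shape.mk n P) → Tup M.G (closeT hn P0))
    (ρ : ∀ M : Mdl C, Tup M.G (closeT hn P0) → Tup (cyl m (Eab m) M) (Shape.mk n P)) : Prop where
  ha : ∀ (M : Mdl C) (τ : Tup (cyl m (Eab m) M) (Shape.mk n P)),
    (Tup.last (β M τ) : Cl M.G (m + 1)) = ((lastC τ).low m hn true).lam
  hb : ∀ (M : Mdl C) (τ : Tup (cyl m (Eab m) M) (Shape.mk n P)),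
    (Tup.last (Tup.pre (Shape.inLeft _ _ _ _ _) (β M τ)) : Cl M.G n) =
      Wh M hn (invC M ((lastC τ).low m hn false).lam) (lastC τ).top.z1
  hc : ∀ (M : Mdl C) (ξ : Tup M.G (closeT hn P0)),
    ((lastC (ρ M ξ)).low m hn true).lam = (Tup.last ξ : Cl M.G (m + 1))
  hd : ∀ (M : Mdl C) (ξ : Tup M.G (closeT hn P0)),
    (lastC (ρ M ξ)).top.z1 =
      Wh M hn (iiC M ((lastC (ρ M ξ)).low m hn false).lam)
        (Tup.last (Tup.pre (Shape.inLeft _ _ _ _ _) ξ) : Cl M.G n)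
  he : ∀ (M : Mdl C) (ξ : Tup M.G (closeT hn P0)),
    fc M.G (Nat.lt_succ_self m) true ((lastC (ρ M ξ)).low m hn false).lam =
      fc M.G hn false (Tup.last (Tup.pre (Shape.inLeft _ _ _ _ _) ξ) : Cl M.G n)

/-! ### The interface below `m` -/

theorem closed_of_low {n : ℕ} {P P0 : Pasting n}
    {β : ∀ M : Mdl C, Tup (cyl m (Eab m) M) (Shape.mk n P) → Tup M.G (Shape.mk n P0)}
    {ρ : ∀ M : Mdl C, Tup M.G (Shape.mk n P0) → Tup (cyl m (Eab m) M) (Shape.mk n P)}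
    (h : LowI m P P0 β ρ) : ClosedI m (Shape.mk n P) (Shape.mk n P0) β ρ := by
  intro b hb _
  refine ⟨hb, fun M τ => ?_, fun M ξ => ?_⟩
  · rw [h.1]
  · rw [h.2]

theorem closed_of_mid {P : Pasting m} {P0 : Pasting (m + 1)}
    {β : ∀ M : Mdl C, Tup (cyl m (Eab m) M) (Shape.mk m P) → Tup M.G (Shape.mk (m + 1) P0)}
    {ρ : ∀ M : Mdl C, Tup M.G (Shape.mk (m + 1) P0) → Tup (cyl m (Eab m) M) (Shape.mk m P)}
    (h : MidI m P P0 β ρ) : ClosedI m (Shape.mk m P) (Shape.mk (m + 1) P0) β ρ := by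
  intro b hb _
  have hb' : b < m := hb
  refine ⟨hb'.trans (Nat.lt_succ_self m), fun M τ => ?_, fun M ξ => ?_⟩
  · rw [h.1]
    change fc M.G _ true (lastC τ).top.lam = fc M.G hb' true (lastC τ).top.z1
    rw [← pcm_src_mid (lastC τ), fc_fc]
  · rw [← h.2]
    change fc M.G hb' true (lastC (ρ M ξ)).top.z1 = fc M.G _ true (lastC (ρ M ξ)).top.lam
    rw [← pcm_src_mid (lastC (ρ M ξ)), fc_fc]

theorem closed_of_high {n : ℕ} {hn : m < n} {P P0 : Pasting n}
    {β : ∀ M : Mdl C, Tup (cyl m (Eab m) M) (Shape.mk n P) → Tup M.G (closeT hn P0)}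
    {ρ : ∀ M : Mdl C, Tup M.G (closeT hn P0) → Tup (cyl m (Eab m) M) (Shape.mk n P)}
    (h : HighI hn P P0 β ρ) : ClosedI m (Shape.mk n P) (closeT hn P0) β ρ := by
  intro b hb hbm
  have hb' : b < n := hb
  refine ⟨hbm.trans (Nat.lt_succ_self m), fun M τ => ?_, fun M ξ => ?_⟩
  · have e := h.ha M τ
    change fc M.G (hbm.trans (Nat.lt_succ_self m)) true (Tup.last (β M τ) : Cl M.G (m + 1)) = _
    rw [e, ← fc_fc M.G hbm (Nat.lt_succ_self m) true false, pcm_src_high hn (lastC τ) true,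
      fc_fc]
  · have e := h.hc M ξ
    change _ = fc M.G (hbm.trans (Nat.lt_succ_self m)) true (Tup.last ξ : Cl M.G (m + 1))
    rw [← e, ← fc_fc M.G hbm (Nat.lt_succ_self m) true false, pcm_src_high hn (lastC (ρ M ξ)) true,
      fc_fc]

/-- The last cell of a glued cylinder tuple, as a cylinder cell. -/
noncomputable def lastGC {S : Shape} {b h : ℕ} {hb : b < S.last} {hh : b < h}
    (τ : Tup (cyl m (Eab m) M) (S.glue b h hb hh)) : PCm m M h := lastG τ

/-- The gluing match as an equation of cells. -/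
theorem match_cell {S : Shape} {b h : ℕ} {hb : b < S.last} {hh : b < h}
    (τ : Tup (cyl m (Eab m) M) (S.glue b h hb hh)) :
    PC.face hb true (lastC (Tup.pre (S.inLeft b h hb hh) τ)) = PC.face hh false (lastGC τ) :=
  Tup.glue_match τ

/-- The gluing match on end-1 cells. -/
theorem match_z1 {S : Shape} {b h : ℕ} {hb : b < S.last} {hh : b < h}
    (τ : Tup (cyl m (Eab m) M) (S.glue b h hb hh)) :
    fc M.G hb true (lastC (Tup.pre (S.inLeft b h hb hh) τ)).top.z1 =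
      fc M.G hh false (lastGC τ).top.z1 := by
  rw [← face_z1, ← face_z1, match_cell]

/-! ### New globes below and at `m` -/

theorem step_low {S T : Shape} {β : ∀ M : Mdl C, Tup (cyl m (Eab m) M) S → Tup M.G T}
    {ρ : ∀ M : Mdl C, Tup M.G T → Tup (cyl m (Eab m) M) S} (hc : IsComb m S T β ρ)
    (hcl : ClosedI m S T β ρ) {b h : ℕ} (hb : b < S.last) (hh : b < h) (hbm : b < m) (hhm : h < m) :
    ∃ (P0 : Pasting h) (β' : ∀ M : Mdl C, Tup (cyl m (Eab m) M) (S.glue b h hb hh) → Tup M.G (Shape.mk h P0))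
      (ρ' : ∀ M : Mdl C, Tup M.G (Shape.mk h P0) → Tup (cyl m (Eab m) M) (S.glue b h hb hh)),
      IsComb m (S.glue b h hb hh) (Shape.mk h P0) β' ρ' ∧
        LowI m (Pasting.glue S.pasting b h hb hh) P0 β' ρ' := by
  obtain ⟨hbT, h1, h2⟩ := hcl b hb hbm
  have hext : ∀ (M : Mdl C) (τ : Tup (cyl m (Eab m) M) (S.glue b h hb hh)),
      fc M.G hbT true (Tup.last (β M (Tup.pre (S.inLeft b h hb hh) τ))) =
        fc M.G hh false (lastGC τ).top.z1 := fun M τ =>
    (h1 M _).trans (match_z1 τ)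
  have hmt : ∀ (M : Mdl C) (ξ : Tup M.G (T.glue b h hbT hh)),
      fc (cyl m (Eab m) M) hb true (Tup.last (ρ M (Tup.pre (T.inLeft b h hbT hh) ξ))) =
        fc (cyl m (Eab m) M) hh false (lowC m (lastG ξ)) := by
    intro M ξ
    apply pcm_ext_low hbm
    have e1 := h2 M (Tup.pre (T.inLeft b h hbT hh) ξ)
    have e2 := lastG_match ξ
    refine (face_z1 hb true _).trans (e1.trans (e2.trans ?_))
    refine Eq.trans ?_ (face_z1 hh false (lowC m (lastG ξ))).symm
    rw [lowC_z1]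
  refine ⟨_, fun M τ => Tup.glueT hbT hh (β M (Tup.pre (S.inLeft b h hb hh) τ))
      (lastGC τ).top.z1 (hext M τ),
    _, comb_extend hc hb hh (T' := T.glue b h hbT hh)
      (fun M ξ => Tup.pre (T.inLeft b h hbT hh) ξ)
      (fun M ξ => lowC m (lastG ξ)) _ ?_ ?_ ?_ hmt ?_ ?_ ?_, ?_, ?_⟩
  · intro M M' f ξ
    exact (Tup.pre_map _ _ _).symm
  · intro M M' f ξ
    exact cylMap_lowC f hhm _
  · intro M M' f τ
    rw [Tup.glueT_map]
    apply glue_ext'
    · rw [Tup.pre_glueT, Tup.pre_glueT, hc.β_nat, Tup.pre_map]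
    · rw [lastG_glueT, lastG_glueT]
      rfl
  · intro M τ
    exact Tup.pre_glueT _ _ _
  · intro M τ
    rw [lastG_glueT]
    refine (lowC_eta hhm _).trans ?_
    exact (Rcell_le (by omega) _).symm
  · have e1 : (T.glue b h hbT hh).dim = max T.dim h := rfl
    have e2 := hc.dim
    rw [e1]
    omega
  · intro M τ
    exact lastG_glueT _ _ _
  · intro M ξ
    have e := lastG_glueT (hb := hb) (hh := hh) (ρ M (Tup.pre (T.inLeft b h hbT hh) ξ))
      (lowC m (lastG ξ)) (hmt M ξ)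
    exact (congrArg (fun c : PCm m M h => c.top.z1) e).trans (lowC_z1 _)

theorem step_mid {S T : Shape} {β : ∀ M : Mdl C, Tup (cyl m (Eab m) M) S → Tup M.G T}
    {ρ : ∀ M : Mdl C, Tup M.G T → Tup (cyl m (Eab m) M) S} (hc : IsComb m S T β ρ)
    (hcl : ClosedI m S T β ρ) {b : ℕ} (hb : b < S.last) (hbm : b < m) :
    ∃ (P0 : Pasting (m + 1))
      (β' : ∀ M : Mdl C, Tup (cyl m (Eab m) M) (S.glue b m hb hbm) → Tup M.G (Shape.mk (m + 1) P0))
      (ρ' : ∀ M : Mdl C, Tup M.G (Shape.mk (m + 1) P0) → Tup (cyl m (Eab m) M) (S.glue b m hb hbm)),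
      IsComb m (S.glue b m hb hbm) (Shape.mk (m + 1) P0) β' ρ' ∧
        MidI m (Pasting.glue S.pasting b m hb hbm) P0 β' ρ' := by
  obtain ⟨hbT, h1, h2⟩ := hcl b hb hbm
  have hbm' : b < m + 1 := hbm.trans (Nat.lt_succ_self m)
  have hext : ∀ (M : Mdl C) (τ : Tup (cyl m (Eab m) M) (S.glue b m hb hbm)),
      fc M.G hbT true (Tup.last (β M (Tup.pre (S.inLeft b m hb hbm) τ))) =
        fc M.G hbm' false (lastGC τ).top.lam := fun M τ => by
    refine (h1 M _).trans ((match_z1 τ).trans ?_)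
    rw [← pcm_src_mid (lastGC τ), fc_fc]
  have hmt : ∀ (M : Mdl C) (ξ : Tup M.G (T.glue b (m + 1) hbT hbm')),
      fc (cyl m (Eab m) M) hb true (Tup.last (ρ M (Tup.pre (T.inLeft b (m + 1) hbT hbm') ξ))) =
        fc (cyl m (Eab m) M) hbm false (midC (lastG ξ)) := by
    intro M ξ
    apply pcm_ext_low hbm
    have e1 := h2 M (Tup.pre (T.inLeft b (m + 1) hbT hbm') ξ)
    have e2 := lastG_match ξ
    refine (face_z1 hb true _).trans (e1.trans (e2.trans ?_))
    refine Eq.trans ?_ (face_z1 hbm false (midC (lastG ξ))).symm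
    rw [midC_z1, fc_fc]
  refine ⟨_, fun M τ => Tup.glueT hbT hbm' (β M (Tup.pre (S.inLeft b m hb hbm) τ))
      (lastGC τ).top.lam (hext M τ),
    _, comb_extend hc hb hbm (T' := T.glue b (m + 1) hbT hbm')
      (fun M ξ => Tup.pre (T.inLeft b (m + 1) hbT hbm') ξ)
      (fun M ξ => midC (lastG ξ)) _ ?_ ?_ ?_ hmt ?_ ?_ ?_, ?_, ?_⟩
  · intro M M' f ξ
    exact (Tup.pre_map _ _ _).symm
  · intro M M' f ξ
    exact cylMap_midC f _
  · intro M M' f τ
    rw [Tup.glueT_map]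
    apply glue_ext'
    · rw [Tup.pre_glueT, Tup.pre_glueT, hc.β_nat, Tup.pre_map]
    · rw [lastG_glueT, lastG_glueT]
      rfl
  · intro M τ
    exact Tup.pre_glueT _ _ _
  · intro M τ
    rw [lastG_glueT]
    refine (midC_eta _).trans ?_
    exact (Rcell_le (lt_irrefl _) _).symm
  · have e1 : (T.glue b (m + 1) hbT hbm').dim = max T.dim (m + 1) := rfl
    have e2 := hc.dim
    rw [e1]
    omega
  · intro M τ
    exact lastG_glueT _ _ _
  · intro M ξ
    have e := lastG_glueT (hb := hb) (hh := hbm) (ρ M (Tup.pre (T.inLeft b (m + 1) hbT hbm') ξ))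
      (midC (lastG ξ)) (hmt M ξ)
    exact congrArg (fun c : PCm m M m => c.top.lam) e

/-! ### New globes above `m` -/

section high

variable {h : ℕ} (hmh : m < h) (Pu : Pasting (m + 1))

/-- The pasting of the open comb with a new pendant-stack pair. -/
abbrev highP : Pasting h := Pasting.glue Pu m h (Nat.lt_succ_self m) hmh

/-- The closed comb with a new stack cell and pendant. -/
abbrev highT : Shape := closeT hmh (highP hmh Pu)

variable {hmh Pu}

/-- Drop the last pendant. -/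
noncomputable def hOpen (ξ : Tup M.G (highT hmh Pu)) :
    Tup M.G ((Shape.mk (m + 1) Pu).glue m h (Nat.lt_succ_self m) hmh) :=
  Tup.pre (Shape.inLeft (Shape.mk h (highP hmh Pu)) m (m + 1) hmh (Nat.lt_succ_self m)) ξ

/-- The old comb. -/
noncomputable def hU (ξ : Tup M.G (highT hmh Pu)) : Tup M.G (Shape.mk (m + 1) Pu) :=
  Tup.pre (Shape.inLeft (Shape.mk (m + 1) Pu) m h (Nat.lt_succ_self m) hmh) (hOpen ξ)

/-- The first pendant. -/
noncomputable def hp (ξ : Tup M.G (highT hmh Pu)) : Cl M.G (m + 1) := Tup.last (hU ξ)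

/-- The stack cell. -/
noncomputable def he (ξ : Tup M.G (highT hmh Pu)) : Cl M.G h := lastG (hOpen ξ)

/-- The second pendant. -/
noncomputable def hq (ξ : Tup M.G (highT hmh Pu)) : Cl M.G (m + 1) := lastG ξ

theorem hm2 (ξ : Tup M.G (highT hmh Pu)) :
    fc M.G (Nat.lt_succ_self m) true (hp ξ) = fc M.G hmh false (he ξ) :=
  lastG_match (hOpen ξ)

theorem hm3 (ξ : Tup M.G (highT hmh Pu)) :
    fc M.G hmh true (he ξ) = fc M.G (Nat.lt_succ_self m) false (hq ξ) :=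
  lastG_match ξ

/-- Build a tuple of the comb with a new stack cell and pendant. -/
noncomputable def highMk (u : Tup M.G (Shape.mk (m + 1) Pu)) (e : Cl M.G h) (q : Cl M.G (m + 1))
    (h2 : fc M.G (Nat.lt_succ_self m) true (Tup.last u) = fc M.G hmh false e)
    (h3 : fc M.G hmh true e = fc M.G (Nat.lt_succ_self m) false q) : Tup M.G (highT hmh Pu) :=
  Tup.glueT (S := Shape.mk h (highP hmh Pu)) hmh (Nat.lt_succ_self m)
    (Tup.glueT (S := Shape.mk (m + 1) Pu) (Nat.lt_succ_self m) hmh u e h2) q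
    (by
      refine Eq.trans ?_ h3
      exact congrArg (fc M.G hmh true) (lastG_glueT (S := Shape.mk (m + 1) Pu)
        (hb := Nat.lt_succ_self m) (hh := hmh) u e h2))

section

variable (u : Tup M.G (Shape.mk (m + 1) Pu)) (e : Cl M.G h) (q : Cl M.G (m + 1))
  (h2 : fc M.G (Nat.lt_succ_self m) true (Tup.last u) = fc M.G hmh false e)
  (h3 : fc M.G hmh true e = fc M.G (Nat.lt_succ_self m) false q)

@[simp] theorem hOpen_mk : hOpen (highMk u e q h2 h3) =
    Tup.glueT (S := Shape.mk (m + 1) Pu) (Nat.lt_succ_self m) hmh u e h2 :=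
  Tup.pre_glueT (S := Shape.mk h (highP hmh Pu)) _ _ _

@[simp] theorem hU_mk : hU (highMk u e q h2 h3) = u := by
  unfold hU
  rw [hOpen_mk]
  exact Tup.pre_glueT _ _ _

@[simp] theorem hp_mk : hp (highMk u e q h2 h3) = Tup.last u := by
  unfold hp
  rw [hU_mk]

@[simp] theorem he_mk : he (highMk u e q h2 h3) = e := by
  unfold he
  rw [hOpen_mk]
  exact lastG_glueT _ _ _

@[simp] theorem hq_mk : hq (highMk u e q h2 h3) = q :=
  lastG_glueT (S := Shape.mk h (highP hmh Pu)) _ _ _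

end

theorem highMk_ext {ξ ξ' : Tup M.G (highT hmh Pu)} (h1 : hU ξ = hU ξ') (h2 : he ξ = he ξ')
    (h3 : hq ξ = hq ξ') : ξ = ξ' := by
  apply glue_ext' _ h3
  apply glue_ext' h1 h2

theorem hOpen_map {M' : Mdl C} (f : M ⟶ M') (ξ : Tup M.G (highT hmh Pu)) :
    hOpen (ξ ≫ Mdl.Hom.φ f) = hOpen ξ ≫ Mdl.Hom.φ f := Tup.pre_map _ _ _

theorem hU_map {M' : Mdl C} (f : M ⟶ M') (ξ : Tup M.G (highT hmh Pu)) :
    hU (ξ ≫ Mdl.Hom.φ f) = hU ξ ≫ Mdl.Hom.φ f := by
  unfold hU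
  rw [hOpen_map, Tup.pre_map]

theorem hp_map {M' : Mdl C} (f : M ⟶ M') (ξ : Tup M.G (highT hmh Pu)) :
    hp (ξ ≫ Mdl.Hom.φ f) = Mdl.cm f (hp ξ) := by
  unfold hp
  rw [hU_map]
  rfl

theorem he_map {M' : Mdl C} (f : M ⟶ M') (ξ : Tup M.G (highT hmh Pu)) :
    he (ξ ≫ Mdl.Hom.φ f) = Mdl.cm f (he ξ) := by
  unfold he
  rw [hOpen_map]
  rfl

theorem hq_map {M' : Mdl C} (f : M ⟶ M') (ξ : Tup M.G (highT hmh Pu)) :
    hq (ξ ≫ Mdl.Hom.φ f) = Mdl.cm f (hq ξ) := rfl

/-- The new cylinder cell from a tuple of the comb. -/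
noncomputable def highNc (ξ : Tup M.G (highT hmh Pu)) : PCm m M h :=
  liftC hmh (Wh M hmh (iiC M (hp ξ)) (he ξ)) (hp ξ) (hq ξ)
    ((Wh_fc_false ((fc_ii_true _).trans (hm2 ξ))).trans (fc_ii_false _)).symm
    ((hm3 ξ).symm.trans (Wh_fc_true ((fc_ii_true _).trans (hm2 ξ))).symm)

theorem highNc_nat {M' : Mdl C} (f : M ⟶ M') (ξ : Tup M.G (highT hmh Pu)) :
    (cylMap f).app (op (GlobeObj.mk h)) (highNc ξ) = highNc (ξ ≫ Mdl.Hom.φ f) := by
  unfold highNc
  rw [cylMap_liftC]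
  apply pcm_ext_high hmh
  · rw [liftC_z1, liftC_z1, Wh_nat f ((fc_ii_true _).trans (hm2 ξ)), ii_nat, hp_map, he_map]
  · intro s
    cases s
    · rw [liftC_lf, liftC_lf, hp_map]
    · rw [liftC_lt, liftC_lt, hq_map]

theorem inv_src_high (c : PCm m M h) :
    fc M.G (Nat.lt_succ_self m) true (invC M (c.low m hmh false).lam) = fc M.G hmh false c.top.z1 := by
  rw [fc_invC_true, pcm_src_high]

/-- The comb tuple extending `u` by a cell of the cylinder. -/
noncomputable def highExt (u : Tup M.G (Shape.mk (m + 1) Pu)) (c : PCm m M h)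
    (hu : (Tup.last u : Cl M.G (m + 1)) = (c.low m hmh false).lam) : Tup M.G (highT hmh Pu) :=
  highMk u (Wh M hmh (invC M (c.low m hmh false).lam) c.top.z1) (c.low m hmh true).lam
    (by
      rw [Wh_fc_false (inv_src_high c), fc_invC_false, hu])
    (by
      rw [Wh_fc_true (inv_src_high c), pcm_src_high])

theorem highNc_ext (u : Tup M.G (Shape.mk (m + 1) Pu)) (c : PCm m M h)
    (hu : (Tup.last u : Cl M.G (m + 1)) = (c.low m hmh false).lam) :
    highNc (highExt u c hu) = Rcell c := by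
  rw [Rcell_high hmh]
  apply pcm_ext_high hmh
  · unfold highNc highExt
    rw [liftC_z1, liftC_z1, hp_mk, he_mk, hu]
    rfl
  · intro s
    cases s
    · unfold highNc highExt
      rw [liftC_lf, liftC_lf, hp_mk, hu]
    · unfold highNc highExt
      rw [liftC_lt, liftC_lt, hq_mk]

theorem highExt_nat {M' : Mdl C} (f : M ⟶ M') {u : Tup M.G (Shape.mk (m + 1) Pu)}
    {u' : Tup M'.G (Shape.mk (m + 1) Pu)} (hu0 : u ≫ Mdl.Hom.φ f = u') {c : PCm m M h}
    (hu : (Tup.last u : Cl M.G (m + 1)) = (c.low m hmh false).lam) {c' : PCm m M' h}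
    (hc : c' = (cylMap f).app (op (GlobeObj.mk h)) c)
    (hu' : (Tup.last u' : Cl M'.G (m + 1)) = (c'.low m hmh false).lam) :
    highExt u c hu ≫ Mdl.Hom.φ f = highExt u' c' hu' := by
  subst hc hu0
  apply highMk_ext
  · rw [hU_map]
    unfold highExt
    rw [hU_mk, hU_mk]
  · rw [he_map]
    unfold highExt
    rw [he_mk, he_mk, Wh_nat f (inv_src_high c), invC_nat]
    rfl
  · rw [hq_map]
    unfold highExt
    rw [hq_mk, hq_mk]
    rfl

theorem hU_highExt (u : Tup M.G (Shape.mk (m + 1) Pu)) (c : PCm m M h)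
    (hu : (Tup.last u : Cl M.G (m + 1)) = (c.low m hmh false).lam) : hU (highExt u c hu) = u :=
  hU_mk _ _ _ _ _

end high

/-- The interface of a comb ending in a new high globe. -/
theorem high_iface {h : ℕ} (hmh : m < h) {Pu : Pasting (m + 1)} (Q : Pasting h)
    {β : ∀ M : Mdl C, Tup (cyl m (Eab m) M) (Shape.mk h Q) → Tup M.G (highT hmh Pu)}
    {ρ : ∀ M : Mdl C, Tup M.G (highT hmh Pu) → Tup (cyl m (Eab m) M) (Shape.mk h Q)}
    (h1 : ∀ M τ, ∃ u hu, β M τ = highExt (hmh := hmh) (Pu := Pu) u (lastC τ) hu)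
    (h2 : ∀ M ξ, lastC (ρ M ξ) = highNc ξ) :
    HighI hmh Q (highP hmh Pu) β ρ where
  ha M τ := by
    obtain ⟨u, hu, e⟩ := h1 M τ
    rw [e]
    exact hq_mk _ _ _ _ _
  hb M τ := by
    obtain ⟨u, hu, e⟩ := h1 M τ
    rw [e]
    exact he_mk _ _ _ _ _
  hc M ξ := by
    rw [h2]
    exact liftC_lt _ _ _ _ _ _
  hd M ξ := by
    rw [h2]
    refine (liftC_z1 _ _ _ _ _ _).trans ?_
    have e : ((highNc ξ).low m hmh false).lam = hp ξ := liftC_lf _ _ _ _ _ _
    rw [e]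
    rfl
  he M ξ := by
    rw [h2]
    have e : ((highNc ξ).low m hmh false).lam = hp ξ := liftC_lf _ _ _ _ _ _
    rw [e]
    exact hm2 ξ

theorem step_high {S T : Shape} {β : ∀ M : Mdl C, Tup (cyl m (Eab m) M) S → Tup M.G T}
    {ρ : ∀ M : Mdl C, Tup M.G T → Tup (cyl m (Eab m) M) S} (hc : IsComb m S T β ρ)
    (hcl : ClosedI m S T β ρ) {b h : ℕ} (hb : b < S.last) (hh : b < h) (hbm : b < m) (hmh : m < h) :
    ∃ (P0 : Pasting h)
      (β' : ∀ M : Mdl C, Tup (cyl m (Eab m) M) (S.glue b h hb hh) → Tup M.G (closeT hmh P0))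
      (ρ' : ∀ M : Mdl C, Tup M.G (closeT hmh P0) → Tup (cyl m (Eab m) M) (S.glue b h hb hh)),
      IsComb m (S.glue b h hb hh) (closeT hmh P0) β' ρ' ∧
        HighI hmh (Pasting.glue S.pasting b h hb hh) P0 β' ρ' := by
  obtain ⟨hbT, h1, h2⟩ := hcl b hb hbm
  have hbm' : b < m + 1 := hbm.trans (Nat.lt_succ_self m)
  let Pu : Pasting (m + 1) := Pasting.glue T.pasting b (m + 1) hbT hbm'
  have hcell : ∀ (M : Mdl C) (τ : Tup (cyl m (Eab m) M) (S.glue b h hb hh)),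
      fc M.G hbT true (Tup.last (β M (Tup.pre (S.inLeft b h hb hh) τ))) =
        fc M.G hbm' false ((lastGC τ).low m hmh false).lam := fun M τ => by
    refine (h1 M _).trans ((match_z1 τ).trans ?_)
    have := pcm_src_high hmh (lastGC τ) false
    rw [← fc_fc M.G hbm (Nat.lt_succ_self m) false false, this, fc_fc]
  let u : ∀ (M : Mdl C) (τ : Tup (cyl m (Eab m) M) (S.glue b h hb hh)),
      Tup M.G (Shape.mk (m + 1) Pu) := fun M τ =>
    Tup.glueT (S := T) hbT hbm' (β M (Tup.pre (S.inLeft b h hb hh) τ))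
      ((lastGC τ).low m hmh false).lam (hcell M τ)
  have hu : ∀ (M : Mdl C) (τ : Tup (cyl m (Eab m) M) (S.glue b h hb hh)),
      (Tup.last (u M τ) : Cl M.G (m + 1)) = ((lastGC τ).low m hmh false).lam := fun M τ =>
    lastG_glueT (S := T) _ _ _
  have hmt : ∀ (M : Mdl C) (ξ : Tup M.G (highT hmh Pu)),
      fc (cyl m (Eab m) M) hb true
          (Tup.last (ρ M (Tup.pre (T.inLeft b (m + 1) hbT hbm') (hU ξ)))) =
        fc (cyl m (Eab m) M) hh false (highNc ξ) := by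
    intro M ξ
    apply pcm_ext_low hbm
    have e1 := h2 M (Tup.pre (T.inLeft b (m + 1) hbT hbm') (hU ξ))
    have e2 := lastG_match (S := T) (hU ξ)
    refine (face_z1 hb true _).trans (e1.trans (e2.trans ?_))
    refine Eq.trans ?_ (face_z1 hh false (highNc ξ)).symm
    have e3 : (highNc ξ).top.z1 = Wh M hmh (iiC M (hp ξ)) (he ξ) := liftC_z1 _ _ _ _ _ _
    rw [e3, Wh_fc_low ((fc_ii_true _).trans (hm2 ξ)) hbm false, ← fc_fc M.G hbm hmh false false,
      ← hm2 ξ, fc_fc]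
    rfl
  refine ⟨_, fun M τ => highExt (u M τ) (lastGC τ) (hu M τ),
    _, comb_extend hc hb hh (T' := highT hmh Pu)
      (fun M ξ => Tup.pre (T.inLeft b (m + 1) hbT hbm') (hU ξ))
      (fun M ξ => highNc ξ) _ ?_ ?_ ?_ hmt ?_ ?_ ?_, ?_⟩
  · intro M M' f ξ
    rw [hU_map]
    exact (Tup.pre_map _ _ _).symm
  · intro M M' f ξ
    exact highNc_nat f ξ
  · intro M M' f τ
    refine highExt_nat f ?_ (hu M τ) rfl (hu M' (τ ≫ cylMap f))
    change Tup.glueT (S := T) hbT hbm' _ _ _ ≫ _ = Tup.glueT (S := T) hbT hbm' _ _ _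
    rw [Tup.glueT_map]
    apply glue_ext'
    · rw [Tup.pre_glueT, Tup.pre_glueT, hc.β_nat, Tup.pre_map]
    · rw [lastG_glueT, lastG_glueT]
      rfl
  · intro M τ
    rw [hU_highExt]
    exact Tup.pre_glueT _ _ _
  · intro M τ
    exact highNc_ext _ _ _
  · have e1 : (highT hmh Pu).dim = max (max (max T.dim (m + 1)) h) (m + 1) := rfl
    have e2 := hc.dim
    rw [e1]
    omega
  · exact high_iface hmh _ (fun M τ => ⟨_, _, rfl⟩) (fun M ξ => lastG_glueT _ _ _)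

/-- Gluing at level `m`. -/
theorem step_eq {n : ℕ} {hn : m < n} {P P0 : Pasting n}
    {β : ∀ M : Mdl C, Tup (cyl m (Eab m) M) (Shape.mk n P) → Tup M.G (closeT hn P0)}
    {ρ : ∀ M : Mdl C, Tup M.G (closeT hn P0) → Tup (cyl m (Eab m) M) (Shape.mk n P)}
    (hc : IsComb m (Shape.mk n P) (closeT hn P0) β ρ) (hi : HighI hn P P0 β ρ) {h : ℕ} (hmh : m < h) :
    ∃ (Q0 : Pasting h)
      (β' : ∀ M : Mdl C, Tup (cyl m (Eab m) M) ((Shape.mk n P).glue m h hn hmh) →
        Tup M.G (closeT hmh Q0))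
      (ρ' : ∀ M : Mdl C, Tup M.G (closeT hmh Q0) → Tup (cyl m (Eab m) M)
        ((Shape.mk n P).glue m h hn hmh)),
      IsComb m ((Shape.mk n P).glue m h hn hmh) (closeT hmh Q0) β' ρ' ∧
        HighI hmh (Pasting.glue P m h hn hmh) Q0 β' ρ' := by
  let Pu : Pasting (m + 1) := Pasting.glue P0 m (m + 1) hn (Nat.lt_succ_self m)
  have hu : ∀ (M : Mdl C) (τ : Tup (cyl m (Eab m) M) ((Shape.mk n P).glue m h hn hmh)),
      (Tup.last (β M (Tup.pre ((Shape.mk n P).inLeft m h hn hmh) τ)) : Cl M.G (m + 1)) =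
        ((lastGC τ).low m hmh false).lam := fun M τ => by
    refine (hi.ha M _).trans ?_
    exact congrArg (fun c : PCm m M m => c.top.lam) (match_cell τ)
  have hmt : ∀ (M : Mdl C) (ξ : Tup M.G (highT hmh Pu)),
      fc (cyl m (Eab m) M) hn true (Tup.last (ρ M (hU ξ))) =
        fc (cyl m (Eab m) M) hmh false (highNc ξ) := by
    intro M ξ
    apply pcm_ext_mid
    refine (hi.hc M (hU ξ)).trans ?_
    exact (liftC_lf hmh _ _ _ _ _).symm
  refine ⟨_, fun M τ => highExt (Pu := Pu) (β M (Tup.pre ((Shape.mk n P).inLeft m h hn hmh) τ))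
      (lastGC τ) (hu M τ),
    _, comb_extend hc hn hmh (T' := highT hmh Pu)
      (fun M ξ => hU ξ)
      (fun M ξ => highNc ξ) _ ?_ ?_ ?_ hmt ?_ ?_ ?_, ?_⟩
  · intro M M' f ξ
    exact (hU_map f ξ).symm
  · intro M M' f ξ
    exact highNc_nat f ξ
  · intro M M' f τ
    refine highExt_nat f ?_ (hu M τ) rfl (hu M' (τ ≫ cylMap f))
    exact (hc.β_nat f _).trans (congrArg _ (Tup.pre_map _ _ _).symm)
  · intro M τ
    exact hU_highExt _ _ _
  · intro M τ
    exact highNc_ext _ _ _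
  · have e1 : (highT hmh Pu).dim = max (max (closeT hn P0).dim h) (m + 1) := rfl
    have e2 := hc.dim
    rw [e1]
    omega
  · exact high_iface hmh _ (fun M τ => ⟨_, _, rfl⟩) (fun M ξ => lastG_glueT _ _ _)

/-! ### Gluing above `m` -/

section above

variable {n h b : ℕ} {hn : m < n} (hbm : m < b) (hb : b < n) (hh : b < h) {P0 : Pasting n}

/-- The new open pasting. -/
abbrev aP1 (hb : b < n) (hh : b < h) (P0 : Pasting n) : Pasting h := Pasting.glue P0 b h hb hh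

variable {hmh : m < h}

variable {hb hh}

/-- Drop the last pendant. -/
noncomputable def aOpen (ξ : Tup M.G (closeT hmh (aP1 hb hh P0))) :
    Tup M.G ((Shape.mk n P0).glue b h hb hh) :=
  Tup.pre (Shape.inLeft (Shape.mk h (aP1 hb hh P0)) m (m + 1) hmh (Nat.lt_succ_self m)) ξ

/-- The old open comb. -/
noncomputable def aO0 (ξ : Tup M.G (closeT hmh (aP1 hb hh P0))) : Tup M.G (Shape.mk n P0) :=
  Tup.pre (Shape.inLeft (Shape.mk n P0) b h hb hh) (aOpen ξ)

/-- The new stack cell. -/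
noncomputable def ae (ξ : Tup M.G (closeT hmh (aP1 hb hh P0))) : Cl M.G h := lastG (aOpen ξ)

/-- The last pendant. -/
noncomputable def aq (ξ : Tup M.G (closeT hmh (aP1 hb hh P0))) : Cl M.G (m + 1) := lastG ξ

theorem a_m1 (ξ : Tup M.G (closeT hmh (aP1 hb hh P0))) :
    fc M.G hb true (Tup.last (aO0 ξ) : Cl M.G n) = fc M.G hh false (ae ξ) :=
  lastG_match (aOpen ξ)

theorem a_m2 (ξ : Tup M.G (closeT hmh (aP1 hb hh P0))) :
    fc M.G hmh true (ae ξ) = fc M.G (Nat.lt_succ_self m) false (aq ξ) :=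
  lastG_match ξ

theorem a_m3 (hbm : m < b) (ξ : Tup M.G (closeT hmh (aP1 hb hh P0))) :
    fc M.G hn true (Tup.last (aO0 ξ) : Cl M.G n) = fc M.G (Nat.lt_succ_self m) false (aq ξ) := by
  rw [← a_m2 ξ, ← fc_fc M.G hbm hb true true, a_m1 ξ, fc_fc]

theorem a_m4 (hbm : m < b) (ξ : Tup M.G (closeT hmh (aP1 hb hh P0))) :
    fc M.G hn false (Tup.last (aO0 ξ) : Cl M.G n) = fc M.G hmh false (ae ξ) := by
  rw [← fc_fc M.G hbm hb false true, a_m1 ξ, fc_fc]

/-- The old closed comb. -/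
noncomputable def aRes (hn : m < n) (hbm : m < b) (ξ : Tup M.G (closeT hmh (aP1 hb hh P0))) :
    Tup M.G (closeT hn P0) :=
  Tup.glueT (S := Shape.mk n P0) hn (Nat.lt_succ_self m) (aO0 ξ) (aq ξ) (a_m3 hbm ξ)

theorem pre_aRes (hn : m < n) (hbm : m < b) (ξ : Tup M.G (closeT hmh (aP1 hb hh P0))) :
    Tup.pre (Shape.inLeft (Shape.mk n P0) m (m + 1) hn (Nat.lt_succ_self m)) (aRes hn hbm ξ) = aO0 ξ :=
  Tup.pre_glueT _ _ _

theorem last_aRes (hn : m < n) (hbm : m < b) (ξ : Tup M.G (closeT hmh (aP1 hb hh P0))) :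
    (Tup.last (aRes hn hbm ξ) : Cl M.G (m + 1)) = aq ξ :=
  lastG_glueT (S := Shape.mk n P0) (hb := hn) (hh := Nat.lt_succ_self m) _ _ _

theorem aOpen_map {M' : Mdl C} (f : M ⟶ M') (ξ : Tup M.G (closeT hmh (aP1 hb hh P0))) :
    aOpen (ξ ≫ Mdl.Hom.φ f) = aOpen ξ ≫ Mdl.Hom.φ f := Tup.pre_map _ _ _

theorem aO0_map {M' : Mdl C} (f : M ⟶ M') (ξ : Tup M.G (closeT hmh (aP1 hb hh P0))) :
    aO0 (ξ ≫ Mdl.Hom.φ f) = aO0 ξ ≫ Mdl.Hom.φ f := by
  unfold aO0
  rw [aOpen_map, Tup.pre_map]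

theorem ae_map {M' : Mdl C} (f : M ⟶ M') (ξ : Tup M.G (closeT hmh (aP1 hb hh P0))) :
    ae (ξ ≫ Mdl.Hom.φ f) = Mdl.cm f (ae ξ) := by
  unfold ae
  rw [aOpen_map]
  rfl

theorem aq_map {M' : Mdl C} (f : M ⟶ M') (ξ : Tup M.G (closeT hmh (aP1 hb hh P0))) :
    aq (ξ ≫ Mdl.Hom.φ f) = Mdl.cm f (aq ξ) := rfl

theorem aRes_map (hn : m < n) (hbm : m < b) {M' : Mdl C} (f : M ⟶ M')
    (ξ : Tup M.G (closeT hmh (aP1 hb hh P0))) :
    aRes hn hbm ξ ≫ Mdl.Hom.φ f = aRes hn hbm (ξ ≫ Mdl.Hom.φ f) := by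
  unfold aRes
  rw [Tup.glueT_map]
  apply glue_ext'
  · rw [Tup.pre_glueT, Tup.pre_glueT, aO0_map]
  · rw [lastG_glueT, lastG_glueT]
    rfl

/-- Build a tuple of the new closed comb. -/
noncomputable def aMk (x0 : Tup M.G (Shape.mk n P0)) (e : Cl M.G h) (q : Cl M.G (m + 1))
    (h1 : fc M.G hb true (Tup.last x0 : Cl M.G n) = fc M.G hh false e)
    (h2 : fc M.G hmh true e = fc M.G (Nat.lt_succ_self m) false q) :
    Tup M.G (closeT hmh (aP1 hb hh P0)) :=
  Tup.glueT (S := Shape.mk h (aP1 hb hh P0)) hmh (Nat.lt_succ_self m)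
    (Tup.glueT (S := Shape.mk n P0) hb hh x0 e h1) q
    (by
      refine Eq.trans ?_ h2
      exact congrArg (fc M.G hmh true) (lastG_glueT (S := Shape.mk n P0) (hb := hb) (hh := hh) x0 e h1))

section

variable (x0 : Tup M.G (Shape.mk n P0)) (e : Cl M.G h) (q : Cl M.G (m + 1))
  (h1 : fc M.G hb true (Tup.last x0 : Cl M.G n) = fc M.G hh false e)
  (h2 : fc M.G hmh true e = fc M.G (Nat.lt_succ_self m) false q)

theorem aOpen_mk : aOpen (aMk x0 e q h1 h2) =
    Tup.glueT (S := Shape.mk n P0) hb hh x0 e h1 :=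
  Tup.pre_glueT (S := Shape.mk h (aP1 hb hh P0)) _ _ _

theorem aO0_mk : aO0 (aMk x0 e q h1 h2) = x0 := by
  unfold aO0
  rw [aOpen_mk]
  exact Tup.pre_glueT _ _ _

theorem ae_mk : ae (aMk x0 e q h1 h2) = e := by
  unfold ae
  rw [aOpen_mk]
  exact lastG_glueT _ _ _

theorem aq_mk : aq (aMk x0 e q h1 h2) = q :=
  lastG_glueT (S := Shape.mk h (aP1 hb hh P0)) _ _ _

end

theorem a_ext {ξ ξ' : Tup M.G (closeT hmh (aP1 hb hh P0))} (h1 : aO0 ξ = aO0 ξ') (h2 : ae ξ = ae ξ')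
    (h3 : aq ξ = aq ξ') : ξ = ξ' := by
  apply glue_ext' _ h3
  apply glue_ext' h1 h2

end above

/-- Gluing above level `m`. -/
theorem step_above {n : ℕ} {hn : m < n} {P P0 : Pasting n}
    {β : ∀ M : Mdl C, Tup (cyl m (Eab m) M) (Shape.mk n P) → Tup M.G (closeT hn P0)}
    {ρ : ∀ M : Mdl C, Tup M.G (closeT hn P0) → Tup (cyl m (Eab m) M) (Shape.mk n P)}
    (hc : IsComb m (Shape.mk n P) (closeT hn P0) β ρ) (hi : HighI hn P P0 β ρ) {b h : ℕ}
    (hbm : m < b) (hb : b < n) (hh : b < h) (hmh : m < h) :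
    ∃ (Q0 : Pasting h)
      (β' : ∀ M : Mdl C, Tup (cyl m (Eab m) M) ((Shape.mk n P).glue b h hb hh) →
        Tup M.G (closeT hmh Q0))
      (ρ' : ∀ M : Mdl C, Tup M.G (closeT hmh Q0) → Tup (cyl m (Eab m) M)
        ((Shape.mk n P).glue b h hb hh)),
      IsComb m ((Shape.mk n P).glue b h hb hh) (closeT hmh Q0) β' ρ' ∧
        HighI hmh (Pasting.glue P b h hb hh) Q0 β' ρ' := by
  -- the pendant on the source of the new stack cell
  let Pd : ∀ (M : Mdl C), Tup M.G (closeT hmh (aP1 hb hh P0)) → Cl M.G (m + 1) := fun M ξ =>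
    ((lastC (ρ M (aRes hn hbm ξ))).low m hn false).lam
  have hP : ∀ (M : Mdl C) (ξ : Tup M.G (closeT hmh (aP1 hb hh P0))),
      fc M.G (Nat.lt_succ_self m) true (Pd M ξ) = fc M.G hmh false (ae ξ) := by
    intro M ξ
    refine (hi.he M (aRes hn hbm ξ)).trans ?_
    rw [pre_aRes]
    exact a_m4 hbm ξ
  have hP' : ∀ (M : Mdl C) (ξ : Tup M.G (closeT hmh (aP1 hb hh P0))),
      fc M.G (Nat.lt_succ_self m) true (iiC M (Pd M ξ)) = fc M.G hmh false (ae ξ) := fun M ξ =>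
    (fc_ii_true _).trans (hP M ξ)
  let NC : ∀ (M : Mdl C), Tup M.G (closeT hmh (aP1 hb hh P0)) → PCm m M h := fun M ξ =>
    liftC hmh (Wh M hmh (iiC M (Pd M ξ)) (ae ξ)) (Pd M ξ) (aq ξ)
      ((Wh_fc_false (hP' M ξ)).trans (fc_ii_false _)).symm
      ((a_m2 ξ).symm.trans (Wh_fc_true (hP' M ξ)).symm)
  have hNC1 : ∀ M ξ, (NC M ξ).top.z1 = Wh M hmh (iiC M (Pd M ξ)) (ae ξ) := fun M ξ =>
    liftC_z1 _ _ _ _ _ _
  have hNC2 : ∀ M ξ, ((NC M ξ).low m hmh false).lam = Pd M ξ := fun M ξ => liftC_lf _ _ _ _ _ _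
  have hNC3 : ∀ M ξ, ((NC M ξ).low m hmh true).lam = aq ξ := fun M ξ => liftC_lt _ _ _ _ _ _
  -- the data coming from a cylinder tuple
  have low_eq : ∀ (M : Mdl C) (τ : Tup (cyl m (Eab m) M) ((Shape.mk n P).glue b h hb hh)) (s : Bool),
      ((lastC (Tup.pre ((Shape.mk n P).inLeft b h hb hh) τ)).low m hn s).lam =
        ((lastGC τ).low m hmh s).lam := fun M τ s =>
    congrArg (fun x : PCm m M b => (x.low m hbm s).lam) (match_cell τ)
  have m1 : ∀ (M : Mdl C) (τ : Tup (cyl m (Eab m) M) ((Shape.mk n P).glue b h hb hh)),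
      fc M.G hb true (Tup.last (Tup.pre (Shape.inLeft (Shape.mk n P0) m (m + 1) hn
        (Nat.lt_succ_self m)) (β M (Tup.pre ((Shape.mk n P).inLeft b h hb hh) τ))) : Cl M.G n) =
      fc M.G hh false (Wh M hmh (invC M ((lastGC τ).low m hmh false).lam) (lastGC τ).top.z1) := by
    intro M τ
    rw [hi.hb M, Wh_fc_high (inv_src_high (hmh := hn) _) hbm hb true,
      Wh_fc_high (inv_src_high (hmh := hmh) _) hbm hh false, low_eq]
    exact congrArg _ (match_z1 τ)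
  have m2 : ∀ (M : Mdl C) (τ : Tup (cyl m (Eab m) M) ((Shape.mk n P).glue b h hb hh)),
      fc M.G hmh true (Wh M hmh (invC M ((lastGC τ).low m hmh false).lam) (lastGC τ).top.z1) =
        fc M.G (Nat.lt_succ_self m) false ((lastGC τ).low m hmh true).lam := by
    intro M τ
    rw [Wh_fc_true (inv_src_high _), pcm_src_high]
  let EXT : ∀ (M : Mdl C), Tup (cyl m (Eab m) M) ((Shape.mk n P).glue b h hb hh) →
      Tup M.G (closeT hmh (aP1 hb hh P0)) := fun M τ =>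
    aMk (Tup.pre (Shape.inLeft (Shape.mk n P0) m (m + 1) hn (Nat.lt_succ_self m))
        (β M (Tup.pre ((Shape.mk n P).inLeft b h hb hh) τ)))
      (Wh M hmh (invC M ((lastGC τ).low m hmh false).lam) (lastGC τ).top.z1)
      ((lastGC τ).low m hmh true).lam (m1 M τ) (m2 M τ)
  have hres : ∀ (M : Mdl C) (τ : Tup (cyl m (Eab m) M) ((Shape.mk n P).glue b h hb hh)),
      aRes hn hbm (EXT M τ) = β M (Tup.pre ((Shape.mk n P).inLeft b h hb hh) τ) := by
    intro M τ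
    apply glue_ext'
    · rw [pre_aRes]
      exact aO0_mk _ _ _ _ _
    · refine (last_aRes hn hbm _).trans ?_
      refine (aq_mk _ _ _ _ _).trans ?_
      rw [← low_eq]
      exact (hi.ha M _).symm
  have hmt : ∀ (M : Mdl C) (ξ : Tup M.G (closeT hmh (aP1 hb hh P0))),
      fc (cyl m (Eab m) M) hb true (Tup.last (ρ M (aRes hn hbm ξ))) =
        fc (cyl m (Eab m) M) hh false (NC M ξ) := by
    intro M ξ
    apply pcm_ext_high hbm
    · refine (face_z1 hb true _).trans ?_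
      refine Eq.trans ?_ (face_z1 hh false (NC M ξ)).symm
      rw [hNC1]
      have e1 := hi.hd M (aRes hn hbm ξ)
      rw [pre_aRes] at e1
      refine (congrArg (fc M.G hb true) e1).trans ?_
      have hz : fc M.G (Nat.lt_succ_self m) true
          ((lastC (ρ M (aRes hn hbm ξ))).low m hn false).lam =
          fc M.G hn false (Tup.last (aO0 ξ) : Cl M.G n) := by
        have := hi.he M (aRes hn hbm ξ)
        rwa [pre_aRes] at this
      rw [Wh_fc_high ((fc_ii_true _).trans hz) hbm hb true, Wh_fc_high (hP' M ξ) hbm hh false, a_m1 ξ]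
    · intro s
      cases s
      · exact (hNC2 M ξ).symm
      · refine (hi.hc M (aRes hn hbm ξ)).trans ?_
        exact (last_aRes hn hbm ξ).trans (hNC3 M ξ).symm
  have hPd_ext : ∀ (M : Mdl C) (τ : Tup (cyl m (Eab m) M) ((Shape.mk n P).glue b h hb hh)),
      Pd M (EXT M τ) = ((lastGC τ).low m hmh false).lam := by
    intro M τ
    change ((lastC (ρ M (aRes hn hbm (EXT M τ)))).low m hn false).lam = _
    rw [hres, hc.ρβ, ← low_eq]
    change ((Rcell (lastC (Tup.pre ((Shape.mk n P).inLeft b h hb hh) τ))).low m hn false).lam = _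
    rw [Rcell_high hn]
    exact liftC_lf _ _ _ _ _ _
  refine ⟨aP1 hb hh P0, EXT, _, comb_extend hc hb hh (T' := closeT hmh (aP1 hb hh P0))
      (fun M ξ => aRes hn hbm ξ) NC EXT ?_ ?_ ?_ hmt hres ?_ ?_, ?_⟩
  · intro M M' f ξ
    exact aRes_map hn hbm f ξ
  · intro M M' f ξ
    have hPd : Pd M' (ξ ≫ Mdl.Hom.φ f) = Mdl.cm f (Pd M ξ) := by
      change ((lastC (ρ M' (aRes hn hbm (ξ ≫ Mdl.Hom.φ f)))).low m hn false).lam = _
      rw [← aRes_map, ← hc.ρ_nat]
      rfl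
    apply pcm_ext_high hmh
    · refine Eq.trans (congrArg (Mdl.cm f) (hNC1 M ξ)) ?_
      rw [hNC1, Wh_nat f (hP' M ξ), ii_nat, hPd, ae_map]
    · intro s
      cases s
      · refine Eq.trans (congrArg (Mdl.cm f) (hNC2 M ξ)) ?_
        rw [hNC2, hPd]
      · refine Eq.trans (congrArg (Mdl.cm f) (hNC3 M ξ)) ?_
        rw [hNC3, aq_map]
  · intro M M' f τ
    apply a_ext
    · rw [aO0_map, aO0_mk, aO0_mk, ← Tup.pre_map, hc.β_nat, Tup.pre_map]
    · rw [ae_map, ae_mk, ae_mk, Wh_nat f (inv_src_high _), invC_nat]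
      rfl
    · rw [aq_map, aq_mk, aq_mk]
      rfl
  · intro M τ
    change (NC M (EXT M τ) : PCm m M h) = Rcell (lastGC τ)
    rw [Rcell_high hmh]
    apply pcm_ext_high hmh
    · rw [hNC1, hPd_ext, liftC_z1]
      congr 1
      exact ae_mk _ _ _ _ _
    · intro s
      cases s
      · rw [hNC2, hPd_ext, liftC_lf]
      · rw [hNC3, liftC_lt]
        exact aq_mk _ _ _ _ _
  · have e1 : (closeT hmh (aP1 hb hh P0)).dim = max (max P0.dim h) (m + 1) := rfl
    have e2 : (closeT hn P0).dim = max P0.dim (m + 1) := rfl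
    have e3 := hc.dim
    have e4 : ((Shape.mk n P).glue b h hb hh).dim = max P.dim h := rfl
    have e5 : (Shape.mk n P).dim = P.dim := rfl
    rw [e2, e5] at e3
    rw [e1]
    omega
  · have hlast : ∀ M ξ, lastC (Tup.glueT (S := Shape.mk n P) hb hh (ρ M (aRes hn hbm ξ)) (NC M ξ)
        (hmt M ξ)) = NC M ξ := fun M ξ => lastG_glueT _ _ _
    refine ⟨fun M τ => aq_mk _ _ _ _ _, fun M τ => ae_mk _ _ _ _ _, fun M ξ => ?_, fun M ξ => ?_,
      fun M ξ => ?_⟩
    · have h0 := hlast M ξ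
      change ((lastC (Tup.glueT (S := Shape.mk n P) hb hh (ρ M (aRes hn hbm ξ)) (NC M ξ)
        (hmt M ξ))).low m hmh true).lam = _
      rw [h0]
      exact hNC3 M ξ
    · have h0 := hlast M ξ
      change (lastC (Tup.glueT (S := Shape.mk n P) hb hh (ρ M (aRes hn hbm ξ)) (NC M ξ)
        (hmt M ξ))).top.z1 = Wh M hmh (iiC M ((lastC (Tup.glueT (S := Shape.mk n P) hb hh
          (ρ M (aRes hn hbm ξ)) (NC M ξ) (hmt M ξ))).low m hmh false).lam) (ae ξ)
      rw [h0, hNC1, hNC2]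
    · have h0 := hlast M ξ
      change fc M.G _ true ((lastC (Tup.glueT (S := Shape.mk n P) hb hh (ρ M (aRes hn hbm ξ)) (NC M ξ)
        (hmt M ξ))).low m hmh false).lam = fc M.G hmh false (ae ξ)
      rw [h0, hNC2]
      exact hP M ξ

/-! ### Base cases -/

theorem last_globe {P : GlobPsh.{u}} {h : ℕ} (τ : Tup P (Shape.globe h)) :
    (Tup.last τ : Cl P h) = tCell τ := by
  change tCell (Tup.pre (𝟙 _) τ) = tCell τ
  rw [Tup.pre_id]

theorem base_low {h : ℕ} (hhm : h < m) :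
    ∃ (P0 : Pasting h) (β : ∀ M : Mdl C, Tup (cyl m (Eab m) M) (Shape.mk h (.single h)) →
        Tup M.G (Shape.mk h P0))
      (ρ : ∀ M : Mdl C, Tup M.G (Shape.mk h P0) → Tup (cyl m (Eab m) M) (Shape.mk h (.single h))),
      IsComb m (Shape.mk h (.single h)) (Shape.mk h P0) β ρ ∧ LowI m (.single h) P0 β ρ := by
  refine ⟨.single h, fun M τ => cellT (tCell τ : PCm m M h).top.z1,
    fun M ξ => cellT (P := cyl m (Eab m) M) (lowC m (tCell ξ)),
    comb_base (T := Shape.globe h) (fun M ξ => lowC m (tCell ξ))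
      (fun M (c : PCm m M h) => cellT c.top.z1) ?_ ?_ ?_ (le_max_left _ _), ?_, ?_⟩
  · intro M M' f ξ
    exact cylMap_lowC f hhm _
  · intro M M' f c
    exact cellT_map _ _
  · intro M (c : PCm m M h)
    change lowC m (tCell (cellT c.top.z1)) = Rcell c
    rw [tCell_cellT, lowC_eta hhm, Rcell_le (by omega)]
  · intro M τ
    exact last_cellT _
  · intro M (ξ : Tup M.G (Shape.globe h))
    have e := last_cellT (P := cyl m (Eab m) M) (n := h) (lowC m (tCell ξ))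
    exact (congrArg (fun c : PCm m M h => c.top.z1) e).trans ((lowC_z1 _).trans (last_globe ξ).symm)

theorem base_mid :
    ∃ (P0 : Pasting (m + 1)) (β : ∀ M : Mdl C, Tup (cyl m (Eab m) M) (Shape.mk m (.single m)) →
        Tup M.G (Shape.mk (m + 1) P0))
      (ρ : ∀ M : Mdl C, Tup M.G (Shape.mk (m + 1) P0) → Tup (cyl m (Eab m) M) (Shape.mk m (.single m))),
      IsComb m (Shape.mk m (.single m)) (Shape.mk (m + 1) P0) β ρ ∧ MidI m (.single m) P0 β ρ := by
  refine ⟨.single (m + 1), fun M τ => cellT (tCell τ : PCm m M m).top.lam,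
    fun M ξ => cellT (P := cyl m (Eab m) M) (midC (tCell ξ)),
    comb_base (T := Shape.globe (m + 1)) (fun M ξ => midC (tCell ξ))
      (fun M (c : PCm m M m) => cellT c.top.lam) ?_ ?_ ?_ (le_max_right _ _), ?_, ?_⟩
  · intro M M' f ξ
    exact cylMap_midC f _
  · intro M M' f c
    exact cellT_map _ _
  · intro M (c : PCm m M m)
    change midC (tCell (cellT c.top.lam)) = Rcell c
    rw [tCell_cellT, midC_eta, Rcell_le (lt_irrefl _)]
  · intro M τ
    exact last_cellT _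
  · intro M (ξ : Tup M.G (Shape.globe (m + 1)))
    have e := last_cellT (P := cyl m (Eab m) M) (n := m) (midC (tCell ξ))
    exact (congrArg (fun c : PCm m M m => c.top.lam) e).trans (last_globe ξ).symm

theorem base_high {h : ℕ} (hmh : m < h) :
    ∃ (P0 : Pasting h) (β : ∀ M : Mdl C, Tup (cyl m (Eab m) M) (Shape.mk h (.single h)) →
        Tup M.G (closeT hmh P0))
      (ρ : ∀ M : Mdl C, Tup M.G (closeT hmh P0) → Tup (cyl m (Eab m) M) (Shape.mk h (.single h))),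
      IsComb m (Shape.mk h (.single h)) (closeT hmh P0) β ρ ∧ HighI hmh (.single h) P0 β ρ := by
  have hu : ∀ (M : Mdl C) (c : PCm m M h),
      (Tup.last (cellT (c.low m hmh false).lam) : Cl M.G (m + 1)) = (c.low m hmh false).lam :=
    fun M c => last_cellT _
  refine ⟨highP hmh (.single (m + 1)), _, _,
    comb_base (T := highT hmh (.single (m + 1))) (fun M ξ => highNc ξ)
      (fun M (c : PCm m M h) => highExt (cellT (c.low m hmh false).lam) c (hu M c)) ?_ ?_ ?_ ?_, ?_⟩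
  · intro M M' f ξ
    exact highNc_nat f ξ
  · intro M M' f c
    refine highExt_nat f ?_ (hu M c) rfl (hu M' _)
    exact cellT_map _ _
  · intro M c
    exact highNc_ext _ _ _
  · have e1 : (highT hmh (.single (m + 1))).dim = max (max (m + 1) h) (m + 1) := rfl
    rw [e1]
    omega
  · apply high_iface hmh
    · intro M τ
      exact ⟨_, _, rfl⟩
    · intro M ξ
      exact last_cellT _

/-! ### The induction -/

theorem comb_aux (m : ℕ) : ∀ {n : ℕ} (P : Pasting n),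
    (n < m → ∃ (P0 : Pasting n)
      (β : ∀ M : Mdl C, Tup (cyl m (Eab m) M) (Shape.mk n P) → Tup M.G (Shape.mk n P0))
      (ρ : ∀ M : Mdl C, Tup M.G (Shape.mk n P0) → Tup (cyl m (Eab m) M) (Shape.mk n P)),
      IsComb m (Shape.mk n P) (Shape.mk n P0) β ρ ∧ LowI m P P0 β ρ) ∧
    (∀ hn : n = m, ∃ (P0 : Pasting (m + 1))
      (β : ∀ M : Mdl C, Tup (cyl m (Eab m) M) (Shape.mk m (hn ▸ P)) → Tup M.G (Shape.mk (m + 1) P0))
      (ρ : ∀ M : Mdl C, Tup M.G (Shape.mk (m + 1) P0) → Tup (cyl m (Eab m) M) (Shape.mk m (hn ▸ P))),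
      IsComb m (Shape.mk m (hn ▸ P)) (Shape.mk (m + 1) P0) β ρ ∧ MidI m (hn ▸ P) P0 β ρ) ∧
    (∀ hn : m < n, ∃ (P0 : Pasting n)
      (β : ∀ M : Mdl C, Tup (cyl m (Eab m) M) (Shape.mk n P) → Tup M.G (closeT hn P0))
      (ρ : ∀ M : Mdl C, Tup M.G (closeT hn P0) → Tup (cyl m (Eab m) M) (Shape.mk n P)),
      IsComb m (Shape.mk n P) (closeT hn P0) β ρ ∧ HighI hn P P0 β ρ) := by
  intro n P
  induction P with
  | single h =>
    refine ⟨fun hlt => base_low hlt, fun hn => ?_, fun hn => base_high hn⟩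
    subst hn
    exact base_mid
  | @glue last P b h hb hh ih =>
    obtain ⟨ih1, ih2, ih3⟩ := ih
    have hclosed : b < m → ∃ (T : Shape)
        (β : ∀ M : Mdl C, Tup (cyl m (Eab m) M) (Shape.mk last P) → Tup M.G T)
        (ρ : ∀ M : Mdl C, Tup M.G T → Tup (cyl m (Eab m) M) (Shape.mk last P)),
        IsComb m (Shape.mk last P) T β ρ ∧ ClosedI m (Shape.mk last P) T β ρ := by
      intro hbm
      rcases lt_trichotomy last m with hl | hl | hl
      · obtain ⟨P0, β, ρ, h1, h2⟩ := ih1 hl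
        exact ⟨_, β, ρ, h1, closed_of_low h2⟩
      · subst hl
        obtain ⟨P0, β, ρ, h1, h2⟩ := ih2 rfl
        exact ⟨_, β, ρ, h1, closed_of_mid h2⟩
      · obtain ⟨P0, β, ρ, h1, h2⟩ := ih3 hl
        exact ⟨_, β, ρ, h1, closed_of_high h2⟩
    refine ⟨fun hhm => ?_, fun hn => ?_, fun hmh => ?_⟩
    · have hbm : b < m := hh.trans hhm
      obtain ⟨T, β, ρ, h1, h2⟩ := hclosed hbm
      exact step_low h1 h2 hb hh hbm hhm
    · subst hn
      obtain ⟨T, β, ρ, h1, h2⟩ := hclosed hh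
      exact step_mid h1 h2 hb hh
    · rcases lt_trichotomy b m with hbm | hbm | hbm
      · obtain ⟨T, β, ρ, h1, h2⟩ := hclosed hbm
        exact step_high h1 h2 hb hh hbm hmh
      · subst hbm
        obtain ⟨P0, β, ρ, h1, h2⟩ := ih3 hb
        exact step_eq h1 h2 hmh
      · obtain ⟨P0, β, ρ, h1, h2⟩ := ih3 (hbm.trans hb)
        exact step_above h1 h2 hbm hb hh hmh

/-- **The comb shape.** -/
theorem comb_shape (m : ℕ) (S : Shape) : ∃ (T : Shape)
    (β : ∀ M : Mdl C, Tup (cyl m (Eab m) M) S → Tup M.G T)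
    (ρ : ∀ M : Mdl C, Tup M.G T → Tup (cyl m (Eab m) M) S), IsComb m S T β ρ := by
  obtain ⟨n, P⟩ := S
  obtain ⟨h1, h2, h3⟩ := comb_aux (C := C) m P
  rcases lt_trichotomy n m with hl | hl | hl
  · obtain ⟨P0, β, ρ, h⟩ := h1 hl
    exact ⟨_, β, ρ, h.1⟩
  · subst hl
    obtain ⟨P0, β, ρ, h⟩ := h2 rfl
    exact ⟨_, β, ρ, h.1⟩
  · obtain ⟨P0, β, ρ, h⟩ := h3 hl
    exact ⟨_, β, ρ, h.1⟩

end cases

end Crest.Agent.Coh
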