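import Crest.Agent.Lib.Coh.CylApi

/-!
# The cylinder with data only at level `m` (`cyl m (Eab m) M`)

A cell at level `j > m` is determined by its end-1 cell `z` and the two pendants `λf, λt` at level
`m + 1` on the `m`-faces of `z`; a cell at level `m` by its pendant; a cell at level `j < m` by its
end-1 cell. Whiskers `Wh` and the self-map `R` of the cylinder (`z ↦ Wh b (Wh (inv b) z)`).
-/

set_option autoImplicit false
set_option linter.unusedVariables false

open CategoryTheory CategoryTheory.Limits Opposite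
open Crest.GeometryTopology.Coherator

universe u

namespace Crest.Agent.Coh

variable {C : GlobTheory.{u}} [Kit C]

/-! ### Whiskers -/

section whisker

variable (M : Mdl C) {m j : ℕ} (hj : m < j)

/-- The whisker of a cell `z` (`m < j`) by a level `m + 1` cell `b` on its `m`-source. -/
noncomputable def Wh (b : Cl M.G (m + 1)) (z : Cl M.G j) : Cl M.G j :=
  comp3 M b z (unitC M (fc M.G hj true z))

variable {M hj} {b : Cl M.G (m + 1)} {z : Cl M.G j}

theorem Wh_match (hb : fc M.G (Nat.lt_succ_self m) true b = fc M.G hj false z) :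
    fc M.G (Nat.lt_succ_self m) true b = fc M.G hj false z ∧
      fc M.G hj true z = fc M.G (Nat.lt_succ_self m) false (unitC M (fc M.G hj true z)) :=
  ⟨hb, (fc_unitC M _ false).symm⟩

theorem Wh_fc_false (hb : fc M.G (Nat.lt_succ_self m) true b = fc M.G hj false z) :
    fc M.G hj false (Wh M hj b z) = fc M.G (Nat.lt_succ_self m) false b :=
  (comp3_fc_base M hj hb (fc_unitC M _ false).symm).1

theorem Wh_fc_true (hb : fc M.G (Nat.lt_succ_self m) true b = fc M.G hj false z) :
    fc M.G hj true (Wh M hj b z) = fc M.G hj true z := by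
  have := (comp3_fc_base M hj hb (fc_unitC M _ false).symm).2
  rwa [fc_unitC] at this

theorem Wh_fc_high (hb : fc M.G (Nat.lt_succ_self m) true b = fc M.G hj false z) {i : ℕ}
    (hi : m < i) (hij : i < j) (s : Bool) :
    fc M.G hij s (Wh M hj b z) = Wh M hi b (fc M.G hij s z) := by
  unfold Wh
  rw [comp3_fc_high M hj hi hij hb (fc_unitC M _ false).symm s, fc_fc]

theorem Wh_fc_low (hb : fc M.G (Nat.lt_succ_self m) true b = fc M.G hj false z) {i : ℕ}
    (hi : i < m) (s : Bool) :
    fc M.G (hi.trans hj) s (Wh M hj b z) = fc M.G (hi.trans hj) s z :=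
  comp3_fc_low M hj hi hb (fc_unitC M _ false).symm s

theorem Wh_nat {M' : Mdl C} (f : M ⟶ M')
    (hb : fc M.G (Nat.lt_succ_self m) true b = fc M.G hj false z) :
    Mdl.cm f (Wh M hj b z) = Wh M' hj (Mdl.cm f b) (Mdl.cm f z) := by
  unfold Wh
  rw [comp3_nat f hj hb (fc_unitC M _ false).symm, unitC_nat]
  congr 2
  exact fc_nat _ _ _ _

end whisker

/-! ### Cells of `cyl m (Eab m) M` -/

section cells

variable {m : ℕ} {M : Mdl C}

/-- Abbreviation for cells of the level-`m` cylinder. -/
abbrev PCm (m : ℕ) (M : Mdl C) (j : ℕ) : Type u := PC m (Eab m) M j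

/-- Extensionality of cells of the level-`m` cylinder. -/
theorem pcm_ext_aux : ∀ (j : ℕ) (c c' : PCm m M j), c.top.z1 = c'.top.z1 →
    (∀ (h : m < j) (s : Bool), (c.low m h s).lam = (c'.low m h s).lam) →
    (j = m → c.top.lam = c'.top.lam) → c = c' := by
  intro j
  induction j using Nat.strong_induction_on with
  | _ j ih =>
    intro c c' h1 h2 h3
    have hlow : c.low = c'.low := by
      funext i hi s
      have := ih i hi (PC.face hi s c) (PC.face hi s c') ?_ ?_ ?_
      · exact congrArg PC.top this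
      · change (c.low i hi s).z1 = (c'.low i hi s).z1
        rw [← c.vt.f1 i hi s, ← c'.vt.f1 i hi s, h1]
      · intro h s'
        exact h2 (h.trans hi) s'
      · intro hm
        subst hm
        exact h2 hi s
    apply PC.ext hlow
    by_cases hjm : j = m
    · subst hjm
      have hl := h3 rfl
      apply Tr.ext h1 ?_ hl
      rw [← c.vt.tgt, ← c'.vt.tgt, hl]
    · have hc : ∀ c₀ : PCm m M j, c₀.top = normTr m c₀.low c₀.top.z1 := fun c₀ =>
        PC.top_eq_norm c₀ (by
          by_cases hlt : j < m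
          · exact Or.inl hlt
          · exact Or.inr (show m < j by omega))
      rw [hc c, hc c', hlow, h1]

theorem pcm_ext_high {j : ℕ} (hj : m < j) {c c' : PCm m M j} (h1 : c.top.z1 = c'.top.z1)
    (h2 : ∀ s : Bool, (c.low m hj s).lam = (c'.low m hj s).lam) : c = c' :=
  pcm_ext_aux j c c' h1 (fun _ s => h2 s) (fun h => by omega)

theorem pcm_ext_low {j : ℕ} (hj : j < m) {c c' : PCm m M j} (h1 : c.top.z1 = c'.top.z1) : c = c' :=
  pcm_ext_aux j c c' h1 (fun h => by omega) (fun h => by omega)

/-- The end-1 cell of a cell at level `m` is the source of its pendant. -/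
theorem pcm_src_mid (c : PCm m M m) :
    fc M.G (Nat.lt_succ_self m) false c.top.lam = c.top.z1 := by
  rw [c.vt.src, conj_of_le m _ _ le_rfl]

theorem pcm_ext_mid {c c' : PCm m M m} (h : c.top.lam = c'.top.lam) : c = c' :=
  pcm_ext_aux m c c' (by rw [← pcm_src_mid c, ← pcm_src_mid c', h]) (fun h => by omega)
    (fun _ => h)

/-- The pendant of a cell at level `j > m` starts at the `m`-face of its end-1 cell. -/
theorem pcm_src_high {j : ℕ} (hj : m < j) (c : PCm m M j) (s : Bool) :
    fc M.G (Nat.lt_succ_self m) false (c.low m hj s).lam = fc M.G hj s c.top.z1 :=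
  (pcm_src_mid (PC.face hj s c)).trans (c.vt.f1 m hj s).symm

/-- At levels below `m` the two ends of a cell agree. -/
theorem pcm_z0_low {j : ℕ} (hj : j < m) (c : PCm m M j) : c.top.z0 = c.top.z1 := by
  rw [(c.vt.nm (Or.inl hj)).1, conj_of_le m _ _ hj.le]

/-- The lower cell given by the normal section. -/
noncomputable def lowC (m : ℕ) {j : ℕ} (z : Cl M.G j) : PCm m M j :=
  cellOfTop (Q := M.G) (Ltop m M) (Ltop_valid m (Eab m) M) z

@[simp] theorem lowC_z1 {j : ℕ} (z : Cl M.G j) : (lowC m z).top.z1 = z := by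
  change (Ltop m M j z).z1 = z
  rw [Ltop_eq]
  rfl

theorem lowC_eta {j : ℕ} (hj : j < m) (c : PCm m M j) : lowC m c.top.z1 = c :=
  pcm_ext_low hj (lowC_z1 _)

theorem face_lowC {i j : ℕ} (h : i < j) (hj : j < m) (s : Bool) (z : Cl M.G j) :
    PC.face h s (lowC m z) = lowC m (fc M.G h s z) := by
  apply pcm_ext_low (h.trans hj)
  rw [lowC_z1]
  exact ((lowC m z).vt.f1 i h s).symm.trans (congrArg _ (lowC_z1 z))

/-- The cell at level `m` given by a pendant. -/
noncomputable def midC (lam : Cl M.G (m + 1)) : PCm m M m where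
  low := (lowC m (fc M.G (Nat.lt_succ_self m) false lam)).low
  top := ⟨fc M.G (Nat.lt_succ_self m) false lam, fc M.G (Nat.lt_succ_self m) true lam, lam⟩
  vl := (lowC m (fc M.G (Nat.lt_succ_self m) false lam)).vl
  vt :=
    { f1 := fun i h b => by
        have := (lowC m (fc M.G (Nat.lt_succ_self m) false lam)).vt.f1 i h b
        rwa [lowC_z1] at this
      f0 := fun i h b => by
        have h1 := (lowC m (fc M.G (Nat.lt_succ_self m) false lam)).vt.f1 i h b
        rw [lowC_z1] at h1
        have h2 := pcm_z0_low h (PC.face h b (lowC m (fc M.G (Nat.lt_succ_self m) false lam)))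
        change ((lowC m _).low i h b).z0 = ((lowC m _).low i h b).z1 at h2
        change fc M.G h b (fc M.G (Nat.lt_succ_self m) true lam) = _
        rw [h2, ← h1, fc_fc, fc_fc]
      src := by
        rw [conj_of_le m _ _ le_rfl]
      tgt := rfl
      nm := fun hn => by
        exfalso
        rcases hn with hn | hn
        · exact lt_irrefl _ hn
        · exact lt_irrefl _ hn }

@[simp] theorem midC_lam (lam : Cl M.G (m + 1)) : (midC lam).top.lam = lam := rfl

@[simp] theorem midC_z1 (lam : Cl M.G (m + 1)) :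
    (midC lam).top.z1 = fc M.G (Nat.lt_succ_self m) false lam := rfl

@[simp] theorem midC_z0 (lam : Cl M.G (m + 1)) :
    (midC lam).top.z0 = fc M.G (Nat.lt_succ_self m) true lam := rfl

theorem midC_eta (c : PCm m M m) : midC c.top.lam = c := pcm_ext_mid rfl

theorem face_midC {i : ℕ} (h : i < m) (s : Bool) (lam : Cl M.G (m + 1)) :
    PC.face h s (midC lam) = lowC m (fc M.G (h.trans (Nat.lt_succ_self m)) s lam) := by
  apply pcm_ext_low h
  rw [lowC_z1]
  refine ((midC lam).vt.f1 i h s).symm.trans ?_
  exact fc_fc _ _ _ _ _ _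

/-- Lower data of two cells with the same boundary agree. -/
theorem pcm_low_eq {j : ℕ} (c c' : PCm m M j)
    (h1 : ∀ i (h : i < j) (b : Bool), fc M.G h b c.top.z1 = fc M.G h b c'.top.z1)
    (h2 : ∀ (h : m < j) (s : Bool), (c.low m h s).lam = (c'.low m h s).lam) : c.low = c'.low := by
  funext i hi s
  have := pcm_ext_aux i (PC.face hi s c) (PC.face hi s c') ?_ ?_ ?_
  · exact congrArg PC.top this
  · change (c.low i hi s).z1 = (c'.low i hi s).z1
    rw [← c.vt.f1 i hi s, ← c'.vt.f1 i hi s, h1]
  · intro h s'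
    exact h2 (h.trans hi) s'
  · intro hm
    subst hm
    exact h2 hi s

/-- Existence of the cell with given end-1 cell and pendants. -/
theorem lift_exists {j : ℕ} (hj : m < j) : ∀ (z : Cl M.G j) (lf lt : Cl M.G (m + 1))
    (hf : fc M.G (Nat.lt_succ_self m) false lf = fc M.G hj false z)
    (ht : fc M.G (Nat.lt_succ_self m) false lt = fc M.G hj true z),
    ∃ c : PCm m M j, c.top.z1 = z ∧ (c.low m hj false).lam = lf ∧ (c.low m hj true).lam = lt := by
  induction j, hj using Nat.le_induction with
  | base =>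
    intro z lf lt hf ht
    have hp : (midC lf).low = (midC lt).low := by
      apply pcm_low_eq
      · intro i h b
        rw [midC_z1, midC_z1, hf, ht, fc_fc, fc_fc]
      · intro h
        exact absurd h (lt_irrefl _)
    have hz : ∀ i (h : i < m + 1) (b : Bool), fc M.G h b z = (low2 (midC lf) (midC lt) i h b).z1 := by
      intro i h b
      by_cases hi : i < m
      · rw [low2_lt _ _ h b hi]
        have := (midC lf).vt.f1 i hi b
        rw [← this, midC_z1, hf, fc_fc]
      · have him : i = m := by omega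
        subst him
        rw [low2_eq]
        cases b
        · exact hf.symm
        · exact ht.symm
    refine ⟨PC.mk2 (midC lf) (midC lt) hp (normTr m _ z) (normTr_valid (low2_vl _ _ hp) z hz),
      rfl, ?_, ?_⟩
    · change (low2 (midC lf) (midC lt) m (Nat.lt_succ_self m) false).lam = lf
      rw [low2_eq]
      rfl
    · change (low2 (midC lf) (midC lt) m (Nat.lt_succ_self m) true).lam = lt
      rw [low2_eq]
      rfl
  | succ j hj ih =>
    intro z lf lt hf ht
    have hj' : m < j := hj
    obtain ⟨s, hs1, hs2, hs3⟩ := ih (fc M.G (Nat.lt_succ_self j) false z) lf lt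
      (by rw [fc_fc]; exact hf) (by rw [fc_fc]; exact ht)
    obtain ⟨t, ht1, ht2, ht3⟩ := ih (fc M.G (Nat.lt_succ_self j) true z) lf lt
      (by rw [fc_fc]; exact hf) (by rw [fc_fc]; exact ht)
    have hp : s.low = t.low := by
      apply pcm_low_eq
      · intro i h b
        rw [hs1, ht1, fc_fc, fc_fc]
      · intro h b
        cases b
        · rw [hs2, ht2]
        · rw [hs3, ht3]
    have hz : ∀ i (h : i < j + 1) (b : Bool), fc M.G h b z = (low2 s t i h b).z1 := by
      intro i h b
      by_cases hi : i < j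
      · rw [low2_lt _ _ h b hi, ← s.vt.f1 i hi b, hs1, fc_fc]
      · have him : i = j := by omega
        subst him
        rw [low2_eq]
        cases b
        · exact hs1.symm
        · exact ht1.symm
    refine ⟨PC.mk2 s t hp (normTr m _ z) (normTr_valid (low2_vl _ _ hp) z hz), rfl, ?_, ?_⟩
    · change (low2 s t m (hj'.trans (Nat.lt_succ_self j)) false).lam = lf
      rw [low2_lt _ _ _ _ hj', hs2]
    · change (low2 s t m (hj'.trans (Nat.lt_succ_self j)) true).lam = lt
      rw [low2_lt _ _ _ _ hj', hs3]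

/-- The cell with given end-1 cell and pendants. -/
noncomputable def liftC {j : ℕ} (hj : m < j) (z : Cl M.G j) (lf lt : Cl M.G (m + 1))
    (hf : fc M.G (Nat.lt_succ_self m) false lf = fc M.G hj false z)
    (ht : fc M.G (Nat.lt_succ_self m) false lt = fc M.G hj true z) : PCm m M j :=
  Classical.choose (lift_exists hj z lf lt hf ht)

section liftC

variable {j : ℕ} (hj : m < j) (z : Cl M.G j) (lf lt : Cl M.G (m + 1))
  (hf : fc M.G (Nat.lt_succ_self m) false lf = fc M.G hj false z)
  (ht : fc M.G (Nat.lt_succ_self m) false lt = fc M.G hj true z)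

@[simp] theorem liftC_z1 : (liftC hj z lf lt hf ht).top.z1 = z :=
  (Classical.choose_spec (lift_exists hj z lf lt hf ht)).1

@[simp] theorem liftC_lf : ((liftC hj z lf lt hf ht).low m hj false).lam = lf :=
  (Classical.choose_spec (lift_exists hj z lf lt hf ht)).2.1

@[simp] theorem liftC_lt : ((liftC hj z lf lt hf ht).low m hj true).lam = lt :=
  (Classical.choose_spec (lift_exists hj z lf lt hf ht)).2.2

theorem liftC_eta (c : PCm m M j) :
    liftC hj c.top.z1 (c.low m hj false).lam (c.low m hj true).lam (pcm_src_high hj c false)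
      (pcm_src_high hj c true) = c := by
  apply pcm_ext_high hj
  · simp
  · intro s
    cases s <;> simp

theorem face_liftC_high {i : ℕ} (hi : m < i) (hij : i < j) (s : Bool) :
    PC.face hij s (liftC hj z lf lt hf ht) =
      liftC hi (fc M.G hij s z) lf lt (by rw [fc_fc]; exact hf) (by rw [fc_fc]; exact ht) := by
  apply pcm_ext_high hi
  · rw [liftC_z1]
    refine ((liftC hj z lf lt hf ht).vt.f1 i hij s).symm.trans ?_
    rw [liftC_z1]
  · intro s'
    cases s'
    · rw [liftC_lf]
      exact liftC_lf hj z lf lt hf ht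
    · rw [liftC_lt]
      exact liftC_lt hj z lf lt hf ht

theorem face_liftC_mid (s : Bool) :
    PC.face hj s (liftC hj z lf lt hf ht) = midC (if s then lt else lf) := by
  apply pcm_ext_mid
  rw [midC_lam]
  cases s
  · exact liftC_lf hj z lf lt hf ht
  · exact liftC_lt hj z lf lt hf ht

theorem face_liftC_low {i : ℕ} (hi : i < m) (s : Bool) :
    PC.face (hi.trans hj) s (liftC hj z lf lt hf ht) = lowC m (fc M.G (hi.trans hj) s z) := by
  apply pcm_ext_low hi
  rw [lowC_z1]
  refine ((liftC hj z lf lt hf ht).vt.f1 i (hi.trans hj) s).symm.trans ?_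
  rw [liftC_z1]

end liftC

/-- Functoriality of the constructors. -/
theorem cylMap_lowC {M' : Mdl C} (f : M ⟶ M') {j : ℕ} (hj : j < m) (z : Cl M.G j) :
    (cylMap f).app (op (GlobeObj.mk j)) (lowC m z) = lowC m (Mdl.cm f z) := by
  apply pcm_ext_low hj
  rw [lowC_z1, cylMap_top]
  exact congrArg _ (lowC_z1 z)

theorem cylMap_midC {M' : Mdl C} (f : M ⟶ M') (lam : Cl M.G (m + 1)) :
    (cylMap f).app (op (GlobeObj.mk m)) (midC lam) = midC (Mdl.cm f lam) := by
  apply pcm_ext_mid
  rfl

theorem cylMap_liftC {M' : Mdl C} (f : M ⟶ M') {j : ℕ} (hj : m < j) (z : Cl M.G j)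
    (lf lt : Cl M.G (m + 1))
    (hf : fc M.G (Nat.lt_succ_self m) false lf = fc M.G hj false z)
    (ht : fc M.G (Nat.lt_succ_self m) false lt = fc M.G hj true z) :
    (cylMap f).app (op (GlobeObj.mk j)) (liftC hj z lf lt hf ht) =
      liftC hj (Mdl.cm f z) (Mdl.cm f lf) (Mdl.cm f lt)
        (by rw [← fc_nat, ← fc_nat, hf]) (by rw [← fc_nat, ← fc_nat, ht]) := by
  apply pcm_ext_high hj
  · rw [liftC_z1, cylMap_top]
    exact congrArg _ (liftC_z1 hj z lf lt hf ht)
  · intro s
    cases s
    · rw [liftC_lf, cylMap_low]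
      exact congrArg _ (liftC_lf hj z lf lt hf ht)
    · rw [liftC_lt, cylMap_low]
      exact congrArg _ (liftC_lt hj z lf lt hf ht)

end cells

/-! ### The self-map `R` -/

section R

variable {m j : ℕ} {M : Mdl C}

/-- The double inverse. -/
noncomputable abbrev iiC (M : Mdl C) (b : Cl M.G (m + 1)) : Cl M.G (m + 1) := invC M (invC M b)

theorem fc_ii_false (b : Cl M.G (m + 1)) :
    fc M.G (Nat.lt_succ_self m) false (iiC M b) = fc M.G (Nat.lt_succ_self m) false b := by
  rw [fc_invC_false, fc_invC_true]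

theorem fc_ii_true (b : Cl M.G (m + 1)) :
    fc M.G (Nat.lt_succ_self m) true (iiC M b) = fc M.G (Nat.lt_succ_self m) true b := by
  rw [fc_invC_true, fc_invC_false]

theorem ii_nat {M' : Mdl C} (f : M ⟶ M') (b : Cl M.G (m + 1)) :
    Mdl.cm f (iiC M b) = iiC M' (Mdl.cm f b) := by
  rw [invC_nat, invC_nat]

/-- The double whisker: `Wh (invC (invC b)) (Wh (invC b) z)`, the variable being `e = invC b`. -/
noncomputable def RZ (hj : m < j) (b : Cl M.G (m + 1)) (z : Cl M.G j) : Cl M.G j :=
  Wh M hj (iiC M b) (Wh M hj (invC M b) z)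

section

variable {hj : m < j} {b : Cl M.G (m + 1)} {z : Cl M.G j}

theorem RZ_match0 (hb : fc M.G (Nat.lt_succ_self m) false b = fc M.G hj false z) :
    fc M.G (Nat.lt_succ_self m) true (invC M b) = fc M.G hj false z := by
  rw [fc_invC_true, hb]

theorem RZ_match1 (hb : fc M.G (Nat.lt_succ_self m) false b = fc M.G hj false z) :
    fc M.G (Nat.lt_succ_self m) true (iiC M b) = fc M.G hj false (Wh M hj (invC M b) z) := by
  rw [Wh_fc_false (RZ_match0 hb), fc_invC_true]

theorem RZ_fc_false (hb : fc M.G (Nat.lt_succ_self m) false b = fc M.G hj false z) :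
    fc M.G hj false (RZ hj b z) = fc M.G (Nat.lt_succ_self m) false b :=
  (Wh_fc_false (RZ_match1 hb)).trans (fc_ii_false b)

theorem RZ_fc_true (hb : fc M.G (Nat.lt_succ_self m) false b = fc M.G hj false z) :
    fc M.G hj true (RZ hj b z) = fc M.G hj true z := by
  unfold RZ
  rw [Wh_fc_true (RZ_match1 hb), Wh_fc_true (RZ_match0 hb)]

theorem RZ_fc_high (hb : fc M.G (Nat.lt_succ_self m) false b = fc M.G hj false z) {i : ℕ}
    (hi : m < i) (hij : i < j) (s : Bool) :
    fc M.G hij s (RZ hj b z) = RZ hi b (fc M.G hij s z) := by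
  unfold RZ
  rw [Wh_fc_high (RZ_match1 hb) hi hij s, Wh_fc_high (RZ_match0 hb) hi hij s]

theorem RZ_fc_low (hb : fc M.G (Nat.lt_succ_self m) false b = fc M.G hj false z) {i : ℕ}
    (hi : i < m) (s : Bool) :
    fc M.G (hi.trans hj) s (RZ hj b z) = fc M.G (hi.trans hj) s z := by
  unfold RZ
  rw [Wh_fc_low (RZ_match1 hb) hi s, Wh_fc_low (RZ_match0 hb) hi s]

theorem RZ_nat {M' : Mdl C} (f : M ⟶ M')
    (hb : fc M.G (Nat.lt_succ_self m) false b = fc M.G hj false z) :
    Mdl.cm f (RZ hj b z) = RZ hj (Mdl.cm f b) (Mdl.cm f z) := by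
  unfold RZ
  rw [Wh_nat f (RZ_match1 hb), Wh_nat f (RZ_match0 hb), invC_nat, invC_nat]

end

open Classical in
/-- The self-map of the cylinder on cells. -/
noncomputable def Rcell (c : PCm m M j) : PCm m M j :=
  if hj : m < j then
    liftC hj (RZ hj (c.low m hj false).lam c.top.z1) (c.low m hj false).lam (c.low m hj true).lam
      (RZ_fc_false (pcm_src_high hj c false)).symm
      ((pcm_src_high hj c true).trans (RZ_fc_true (pcm_src_high hj c false)).symm)
  else c

theorem Rcell_high (hj : m < j) (c : PCm m M j) :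
    Rcell c = liftC hj (RZ hj (c.low m hj false).lam c.top.z1) (c.low m hj false).lam
      (c.low m hj true).lam (RZ_fc_false (pcm_src_high hj c false)).symm
      ((pcm_src_high hj c true).trans (RZ_fc_true (pcm_src_high hj c false)).symm) :=
  dif_pos hj

theorem Rcell_le (hj : ¬ m < j) (c : PCm m M j) : Rcell c = c := dif_neg hj

theorem Rcell_face {i : ℕ} (h : i < j) (s : Bool) (c : PCm m M j) :
    Rcell (PC.face h s c) = PC.face h s (Rcell c) := by
  by_cases hj : m < j
  · rw [Rcell_high hj c]
    by_cases hi : m < i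
    · rw [face_liftC_high hj _ _ _ _ _ hi h s, Rcell_high hi]
      apply pcm_ext_high hi
      · rw [liftC_z1, liftC_z1]
        have hz : (PC.face h s c).top.z1 = fc M.G h s c.top.z1 := (c.vt.f1 i h s).symm
        rw [hz, RZ_fc_high (pcm_src_high hj c false) hi h s]
        rfl
      · intro s'
        cases s' <;> simp only [liftC_lf, liftC_lt] <;> rfl
    · by_cases him : i = m
      · subst him
        rw [Rcell_le (lt_irrefl _), face_liftC_mid]
        apply pcm_ext_mid
        rw [midC_lam]
        cases s <;> rfl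
      · have hlt : i < m := by omega
        rw [Rcell_le hi, face_liftC_low hj _ _ _ _ _ hlt s]
        apply pcm_ext_low hlt
        rw [lowC_z1, RZ_fc_low (pcm_src_high hj c false) hlt s]
        exact (c.vt.f1 i h s).symm
  · have hi : ¬ m < i := by omega
    rw [Rcell_le hj, Rcell_le hi]

/-- The self-map `R` of the cylinder. -/
noncomputable def Rm (m : ℕ) (M : Mdl C) : cyl m (Eab m) M ⟶ cyl m (Eab m) M :=
  mkHom (P := cyl m (Eab m) M) (Q := cyl m (Eab m) M) (fun j (c : PCm m M j) => Rcell c)
    (fun h b x => Rcell_face h b x)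

@[simp] theorem Rm_app (c : PCm m M j) : (Rm m M).app (op (GlobeObj.mk j)) c = Rcell c := rfl

theorem Rm_nat {M' : Mdl C} (f : M ⟶ M') : cylMap f ≫ Rm m M' = Rm m M ≫ cylMap f := by
  apply hom_ext'
  intro n (x : PCm m M n)
  change Rcell ((cylMap (m := m) (E := Eab m) f).app (op (GlobeObj.mk n)) x) =
    (cylMap (m := m) (E := Eab m) f).app (op (GlobeObj.mk n)) (Rcell x)
  generalize hy : (cylMap (m := m) (E := Eab m) f).app (op (GlobeObj.mk n)) x = y
  change PCm m M' n at y
  by_cases hn : m < n
  · have hz : y.top.z1 = Mdl.cm f x.top.z1 := by rw [← hy]; rfl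
    have hl : ∀ s, (y.low m hn s).lam = Mdl.cm f (x.low m hn s).lam := fun _ => by rw [← hy]; rfl
    rw [Rcell_high hn y, Rcell_high hn x, cylMap_liftC]
    apply pcm_ext_high hn
    · rw [liftC_z1, liftC_z1, hz, hl, RZ_nat f (pcm_src_high hn x false)]
    · intro s
      cases s <;> simp only [liftC_lf, liftC_lt, hl]
  · rw [Rcell_le hn y, Rcell_le hn x, hy]

end R

end Crest.Agent.Coh
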