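import Crest.Agent.Lib.Coh.CombXi

/-!
# The endomorphism `combR` of the level-`m` cylinder and the homotopy `Ψ₀`

`combR m M : cyl m (Eab m) M ⟶ cyl m (Eab m) M` keeps the triples at levels `≤ m`, and above `m`
it replaces a normal cell on `z` by the normal cell on `Aa e z`, with `e = invC b`, `b` the connecting
cell of the `m`-source triple of the cell (`pend`). `psi0 D M` is a natural homotopy, with values in
the truncated cylinder model, from the identity to `combR`. This reduces the comb step to the
existence of a shape and natural maps `u`, `ρ` with `ρ ∘ u = combR` (`comb_of_shape`).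
-/

set_option autoImplicit false

open CategoryTheory CategoryTheory.Limits Opposite
open Crest.GeometryTopology.Coherator

universe u

namespace Crest.Agent.Coh

variable {C : GlobTheory.{u}} [Kit C]

section R

variable {m : ℕ} {M : Mdl C}

/-- The pendant: the inverse of the connecting cell of the `m`-source triple of a cell. -/
noncomputable def pend {E : ℕ → Prop} {j : ℕ} (hj : m < j) (c : PC m E M j) : Cl M.G (m + 1) :=
  invC M (c.low m hj false).lam

theorem pend_match {E : ℕ → Prop} {j : ℕ} (hj : m < j) (c : PC m E M j) :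
    fc M.G (Nat.lt_succ_self m) true (pend hj c) = fc M.G hj false c.top.z1 := by
  unfold pend
  rw [fc_invC_true, (c.vl m hj false).src, conj_of_le m _ _ le_rfl, c.vt.f1]

theorem pend_face {E : ℕ → Prop} {i j : ℕ} (hj : m < j) (hi : m < i) (h : i < j) (b : Bool)
    (c : PC m E M j) : pend hi (PC.face h b c) = pend hj c := rfl

theorem pend_nat {E : ℕ → Prop} {M' : Mdl C} (f : M ⟶ M') {j : ℕ} (hj : m < j) (c : PC m E M j) :
    pend hj ((cylMap f).app (op (GlobeObj.mk j)) c) = Mdl.cm f (pend hj c) :=
  (invC_nat f _).symm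

end R

/-- The top function of `combR`. -/
noncomputable def combTopR (m : ℕ) (M : Mdl C) : (j : ℕ) → PC m (Eab m) M j → Tr M j
  | j, c =>
    if hj : m < j then
      normTr m (fun i (h : i < j) b => combTopR m M i (PC.face h b c))
        (Aa M hj (pend hj c) c.top.z1)
    else c.top
termination_by j => j

section Rlemmas

variable {m : ℕ} {M : Mdl C}

theorem combTopR_lo {j : ℕ} (c : PC m (Eab m) M j) (hj : ¬ m < j) : combTopR m M j c = c.top := by
  rw [combTopR]
  exact dif_neg hj

theorem combTopR_hi {j : ℕ} (c : PC m (Eab m) M j) (hj : m < j) :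
    combTopR m M j c = normTr m (lowOf (Q := cyl m (Eab m) M) (combTopR m M) c)
      (Aa M hj (pend hj c) c.top.z1) := by
  rw [combTopR]
  exact dif_pos hj

theorem lowOf_combTopR_lo {j : ℕ} (c : PC m (Eab m) M j) (hj : ¬ m < j) :
    lowOf (Q := cyl m (Eab m) M) (combTopR m M) c = c.low := by
  funext i h b
  exact combTopR_lo (PC.face h b c) (by omega)

theorem combTopR_z1_hi {j i : ℕ} (c : PC m (Eab m) M j) (h : i < j) (b : Bool) (hj : m < j)
    (hi : m < i) : (combTopR m M i (PC.face h b c)).z1 = Aa M hi (pend hj c) (fc M.G h b c.top.z1) := by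
  rw [combTopR_hi _ hi]
  change Aa M hi (pend hj c) (c.low i h b).z1 = _
  rw [c.vt.f1]

theorem combTopR_hz {j : ℕ} (c : PC m (Eab m) M j) (hj : m < j) (i : ℕ) (h : i < j) (b : Bool) :
    fc M.G h b (Aa M hj (pend hj c) c.top.z1) =
      (lowOf (Q := cyl m (Eab m) M) (combTopR m M) c i h b).z1 := by
  by_cases hi : m < i
  · change _ = (combTopR m M i (PC.face h b c)).z1
    rw [combTopR_z1_hi c h b hj hi]
    exact Aa_high hj (pend_match hj c) hi h b
  · change _ = (combTopR m M i (PC.face h b c)).z1
    rw [combTopR_lo _ hi, Aa_low hj (pend_match hj c) h hi b]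
    exact c.vt.f1 i h b

theorem combTopR_valid (m : ℕ) (M : Mdl C) (j : ℕ) (c : PC m (Eab m) M j) :
    VT m (Eab m) (lowOf (Q := cyl m (Eab m) M) (combTopR m M) c) j le_rfl (combTopR m M j c) := by
  induction j using Nat.strong_induction_on with
  | _ j ih =>
    by_cases hj : m < j
    · rw [combTopR_hi c hj]
      apply normTr_valid
      · intro i h b
        exact (ih i h (PC.face h b c)).restrict h.le (fun i' h' b' => rfl)
      · exact combTopR_hz c hj
    · rw [combTopR_lo c hj, lowOf_combTopR_lo c hj]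
      exact c.vt

theorem combTopR_vl {j : ℕ} (c : PC m (Eab m) M j) :
    VLow m (Eab m) (lowOf (Q := cyl m (Eab m) M) (combTopR m M) c) := by
  intro i h b
  exact (combTopR_valid m M i (PC.face h b c)).restrict h.le (fun i' h' b' => rfl)

end Rlemmas

/-- The endomorphism `R` of the level-`m` cylinder. -/
noncomputable def combR (m : ℕ) (M : Mdl C) : cyl m (Eab m) M ⟶ cyl m (Eab m) M :=
  mapTop (combTopR m M) (combTopR_valid m M)

theorem combR_top {m : ℕ} {M : Mdl C} {j : ℕ} (c : PC m (Eab m) M j) :
    PC.top ((combR m M).app (op (GlobeObj.mk j)) c) = combTopR m M j c := rfl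

theorem combR_low {m : ℕ} {M : Mdl C} {j : ℕ} (c : PC m (Eab m) M j) (i : ℕ) (h : i < j) (b : Bool) :
    PC.low ((combR m M).app (op (GlobeObj.mk j)) c) i h b = combTopR m M i (PC.face h b c) := rfl

section Psi

variable {m k : ℕ} (D : WData C (m + 1) k)

/-- The tuple of a cell above `m`. -/
noncomputable def cellQ {M : Mdl C} {j : ℕ} (hj : m < j) (c : PC m (Eab m) M j) :
    Tup M.G (QS m j hj) :=
  qT hj (pend hj c) c.top.z1 (pend_match hj c)

/-- The `W`-cell above `m` of `Ψ₀`. -/
noncomputable def psiZ {M : Mdl C} {j : ℕ} (hj : m < j) (c : PC m (Eab m) M j) :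
    Cl (wM D M).G j :=
  etaC k (xiCell (cellQ hj c))

/-- The top function of `Ψ₀`. -/
noncomputable def psiTop (M : Mdl C) : (j : ℕ) → PC m (Eab m) M j → Tr (wM D M) j
  | j, c =>
    if hj : m < j then
      normTr m (fun i (h : i < j) b => psiTop M i (PC.face h b c)) (psiZ D hj c)
    else
      ⟨(iota (m + 1) k M).app _ c.top.z1, (iota (m + 1) k M).app _ c.top.z0,
        (iota (m + 1) k M).app _ c.top.lam⟩
termination_by j => j

theorem psiTop_lo {M : Mdl C} {j : ℕ} (c : PC m (Eab m) M j) (hj : ¬ m < j) :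
    psiTop D M j c = ⟨(iota (m + 1) k M).app _ c.top.z1, (iota (m + 1) k M).app _ c.top.z0,
        (iota (m + 1) k M).app _ c.top.lam⟩ := by
  rw [psiTop]
  exact dif_neg hj

theorem psiTop_hi {M : Mdl C} {j : ℕ} (c : PC m (Eab m) M j) (hj : m < j) :
    psiTop D M j c = normTr m (lowOf (Q := cyl m (Eab m) M) (psiTop D M) c) (psiZ D hj c) := by
  rw [psiTop]
  exact dif_pos hj

theorem fc_psiZ {M : Mdl C} {j i : ℕ} (hj : m < j) (c : PC m (Eab m) M j) (h : i < j) (b : Bool) :
    fc (wM D M).G h b (psiZ D hj c) = etaC k (PC.face h b (xiCell (cellQ hj c))) :=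
  (fc_nat (eta k (cylI (m + 1) M)) h b (xiCell (cellQ hj c))).symm

theorem psi_hz {M : Mdl C} {j : ℕ} (c : PC m (Eab m) M j) (hj : m < j) (i : ℕ) (h : i < j)
    (b : Bool) : fc (wM D M).G h b (psiZ D hj c) =
      (lowOf (Q := cyl m (Eab m) M) (psiTop D M) c i h b).z1 := by
  rw [fc_psiZ]
  change _ = (psiTop D M i (PC.face h b c)).z1
  by_cases hi : m < i
  · rw [psiTop_hi D _ hi, xiCell_face _ hi h b]
    change etaC k _ = psiZ D hi (PC.face h b c)
    unfold psiZ
    congr 2
    apply q_ext
    · rw [qE_lowerQ]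
      unfold cellQ
      rw [qE_qT, qE_qT]
      rfl
    · rw [qZ_lowerQ]
      unfold cellQ
      rw [qZ_qT, qZ_qT]
      exact c.vt.f1 i h b
  · rw [psiTop_lo D _ hi, xiCell_face_lo _ hi h b]
    change _ = (iota (m + 1) k M).app _ (c.low i h b).z1
    rw [← c.vt.f1 i h b]
    unfold cellQ
    rw [qZ_qT]
    rfl

theorem psiTop_valid (hmk : m ≤ k) (M : Mdl C) (j : ℕ) (c : PC m (Eab m) M j) :
    VT m (Eab m) (lowOf (Q := cyl m (Eab m) M) (psiTop D M) c) j le_rfl (psiTop D M j c) := by
  induction j using Nat.strong_induction_on with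
  | _ j ih =>
    by_cases hj : m < j
    · rw [psiTop_hi D c hj]
      apply normTr_valid
      · intro i h b
        exact (ih i h (PC.face h b c)).restrict h.le (fun i' h' b' => rfl)
      · exact psi_hz D c hj
    · rw [psiTop_lo D c hj]
      have hlo : ∀ i (h : i < j) (b : Bool), lowOf (Q := cyl m (Eab m) M) (psiTop D M) c i h b =
          ⟨(iota (m + 1) k M).app _ (c.low i h b).z1, (iota (m + 1) k M).app _ (c.low i h b).z0,
            (iota (m + 1) k M).app _ (c.low i h b).lam⟩ := fun i h b =>
        psiTop_lo D (PC.face h b c) (by omega)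
      have hcW : ∀ y : Cl (wM D M).G j, conj m (lowOf (Q := cyl m (Eab m) M) (psiTop D M) c) j y = y :=
        fun y => conj_of_le m _ y (by omega)
      have hcM : ∀ y : Cl M.G j, conj m c.low j y = y := fun y => conj_of_le m _ y (by omega)
      refine ⟨fun i h b => ?_, fun i h b => ?_, ?_, ?_, fun hn => ?_⟩
      · rw [hlo]
        change fc (wM D M).G h b ((iota (m + 1) k M).app _ c.top.z1) = _
        rw [← iota_fc D, c.vt.f1]
      · rw [hlo]
        change fc (wM D M).G h b ((iota (m + 1) k M).app _ c.top.z0) = _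
        rw [← iota_fc D, c.vt.f0]
      · change fc (wM D M).G _ false ((iota (m + 1) k M).app _ c.top.lam) = conj m _ j _
        rw [← iota_fc D, c.vt.src, hcM, hcW]
      · change fc (wM D M).G _ true ((iota (m + 1) k M).app _ c.top.lam) = _
        rw [← iota_fc D, c.vt.tgt]
      · rcases hn with hn | hn
        · obtain ⟨h1, h2⟩ := c.vt.nm (Or.inl hn)
          rw [hcM] at h1 h2
          constructor
          · change (iota (m + 1) k M).app _ c.top.z0 = conj (M := wM D M) m _ j _
            rw [hcW, h1]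
          · change (iota (m + 1) k M).app _ c.top.lam = unitC (wM D M) (conj (M := wM D M) m _ j _)
            rw [hcW, h2, iota_unit D M (by omega) (by omega)]
        · exact absurd hn hj

theorem psiTop_vl (hmk : m ≤ k) {M : Mdl C} {j : ℕ} (c : PC m (Eab m) M j) :
    VLow m (Eab m) (lowOf (Q := cyl m (Eab m) M) (psiTop D M) c) := by
  intro i h b
  exact (psiTop_valid D hmk M i (PC.face h b c)).restrict h.le (fun i' h' b' => rfl)

/-- The homotopy from the identity to `combR`. -/
noncomputable def psi0 (hmk : m ≤ k) (M : Mdl C) : cyl m (Eab m) M ⟶ cyl m (Eab m) (wM D M) :=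
  mapTop (psiTop D M) (psiTop_valid D hmk M)

theorem psi0_top (hmk : m ≤ k) {M : Mdl C} {j : ℕ} (c : PC m (Eab m) M j) :
    PC.top ((psi0 D hmk M).app (op (GlobeObj.mk j)) c) = psiTop D M j c := rfl

theorem psiZ_e1 {M : Mdl C} {j : ℕ} (hj : m < j) (c : PC m (Eab m) M j) :
    Mdl.cm (wE1 D M) (psiZ D hj c) = etaC k c.top.z1 := by
  refine (coskMap_etaC k (e1G (m + 1) Einf M) _).trans ?_
  congr 1
  exact qZ_qT _ _ _ _

theorem psiZ_e0 {M : Mdl C} {j : ℕ} (hj : m < j) (c : PC m (Eab m) M j) :
    Mdl.cm (wE0 D M) (psiZ D hj c) = etaC k (Aa M hj (pend hj c) c.top.z1) := by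
  refine (coskMap_etaC k (e0G (m + 1) Einf M) _).trans ?_
  congr 1
  change Aa M hj (qE (cellQ hj c)) (qZ (cellQ hj c)) = _
  unfold cellQ
  rw [qE_qT, qZ_qT]

theorem psi0_e1 (hmk : m ≤ k) (M : Mdl C) :
    psi0 D hmk M ≫ cylMap (wE1 D M) = cylMap (etaM k M) := by
  apply hom_ext'
  intro n
  induction n using Nat.strong_induction_on with
  | _ n ih =>
    intro c
    change PC m (Eab m) M n at c
    have hlow : (fun i h b => mapTr (wE1 D M) (lowOf (Q := cyl m (Eab m) M) (psiTop D M) c i h b)) =
        fun i h b => mapTr (etaM k M) (c.low i h b) := by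
      funext i h b
      exact congrArg PC.top (ih i h (PC.face h b c))
    apply PC.ext
    · exact hlow
    · change mapTr (wE1 D M) (psiTop D M n c) = mapTr (etaM k M) c.top
      by_cases hn : m < n
      · rw [psiTop_hi D c hn, mapTr_normTr (wE1 D M) (psiTop_vl D hmk c) _ (psi_hz D c hn),
          PC.top_eq_norm c (Or.inr hn), mapTr_normTr (etaM k M) c.vl _ c.vt.f1, hlow, psiZ_e1]
        rfl
      · rw [psiTop_lo D c hn]
        apply Tr.ext
        · exact iota_e1 D M _
        · exact iota_e1 D M _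
        · exact iota_e1 D M _

theorem psi0_e0 (hmk : m ≤ k) (M : Mdl C) :
    psi0 D hmk M ≫ cylMap (wE0 D M) = combR m M ≫ cylMap (etaM k M) := by
  apply hom_ext'
  intro n
  induction n using Nat.strong_induction_on with
  | _ n ih =>
    intro c
    change PC m (Eab m) M n at c
    have hlow : (fun i h b => mapTr (wE0 D M) (lowOf (Q := cyl m (Eab m) M) (psiTop D M) c i h b)) =
        fun i h b => mapTr (etaM k M) (lowOf (Q := cyl m (Eab m) M) (combTopR m M) c i h b) := by
      funext i h b
      exact congrArg PC.top (ih i h (PC.face h b c))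
    apply PC.ext
    · exact hlow
    · change mapTr (wE0 D M) (psiTop D M n c) = mapTr (etaM k M) (combTopR m M n c)
      by_cases hn : m < n
      · rw [psiTop_hi D c hn, mapTr_normTr (wE0 D M) (psiTop_vl D hmk c) _ (psi_hz D c hn),
          combTopR_hi c hn, mapTr_normTr (etaM k M) (combTopR_vl c) _ (combTopR_hz c hn), hlow,
          psiZ_e0]
        rfl
      · rw [psiTop_lo D c hn, combTopR_lo c hn]
        apply Tr.ext
        · exact iota_e0 D M (by omega) _
        · exact iota_e0 D M (by omega) _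
        · exact iota_e0 D M (by omega) _

theorem psi0_nat (hmk : m ≤ k) {M M' : Mdl C} (f : M ⟶ M') :
    cylMap f ≫ psi0 D hmk M' = psi0 D hmk M ≫ cylMap (wMap D f) := by
  apply hom_ext'
  intro n
  induction n using Nat.strong_induction_on with
  | _ n ih =>
    intro c
    change PC m (Eab m) M n at c
    have hlow : lowOf (Q := cyl m (Eab m) M') (psiTop D M') ((cylMap f).app (op (GlobeObj.mk n)) c) =
        fun i h b => mapTr (wMap D f) (lowOf (Q := cyl m (Eab m) M) (psiTop D M) c i h b) := by
      funext i h b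
      exact congrArg PC.top (ih i h (PC.face h b c))
    apply PC.ext
    · exact hlow
    · change psiTop D M' n ((cylMap f).app (op (GlobeObj.mk n)) c) =
        mapTr (wMap D f) (psiTop D M n c)
      by_cases hn : m < n
      · rw [psiTop_hi D c hn, psiTop_hi D _ hn,
          mapTr_normTr (wMap D f) (psiTop_vl D hmk c) _ (psi_hz D c hn), hlow]
        congr 1
        refine Eq.trans ?_ (coskMap_etaC k (cylMap f) _).symm
        unfold psiZ
        rw [xiCell_nat]
        congr 2
        unfold cellQ
        rw [qT_map]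
        apply q_ext
        · rw [qE_qT, qE_qT, pend_nat]
        · rw [qZ_qT, qZ_qT]
          rfl
      · rw [psiTop_lo D c hn, psiTop_lo D _ hn]
        apply Tr.ext
        · exact (iota_nat D f _).symm
        · exact (iota_nat D f _).symm
        · exact (iota_nat D f _).symm

end Psi

/-- The comb step, given a shape-like complex `H` with natural maps whose composite is `combR`. -/
theorem comb_of_shape {m k : ℕ} (hmk : m ≤ k) (hFill : FillHyp C (m + 1) k) {S : Shape}
    {H : Mdl C ⥤ Type u} (hH : Fill H k) (u : Cx (C := C) m m S ⟶ H) (ρ : H ⟶ Cx (C := C) m m S)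
    (hρu : ∀ (M : Mdl C) (τ : Tup (cyl m (Eab m) M) S), ρ.app M (u.app M τ) = τ ≫ combR m M) :
    Fill (Cx (C := C) m m S) k := by
  obtain ⟨D⟩ := exists_WData hFill
  refine lemmaT D hFill hH u ρ (fun M (τ : Tup (cyl m (Eab m) M) S) => τ ≫ psi0 D hmk M) ?_ ?_ ?_
  · intro M M' f (τ : Tup (cyl m (Eab m) M) S)
    change (τ ≫ cylMap f) ≫ psi0 D hmk M' = (τ ≫ psi0 D hmk M) ≫ cylMap (wMap D f)
    rw [Category.assoc, psi0_nat, Category.assoc]
  · intro M (τ : Tup (cyl m (Eab m) M) S)
    change (τ ≫ psi0 D hmk M) ≫ cylMap (wE1 D M) = τ ≫ cylMap (etaM k M)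
    rw [Category.assoc, psi0_e1]
  · intro M (τ : Tup (cyl m (Eab m) M) S)
    rw [hρu]
    change (τ ≫ psi0 D hmk M) ≫ cylMap (wE0 D M) = (τ ≫ combR m M) ≫ cylMap (etaM k M)
    rw [Category.assoc, psi0_e0, Category.assoc]

end Crest.Agent.Coh
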