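import Crest.Agent.Lib.Coh.LemmaT

/-!
# The main induction

`Claim C m k`: for `S.dim ≤ k + 1` and `m ≤ ℓ ≤ k`, there are natural fillers at level `k` over
`S`-tuples in the cylinder with data on levels `m..ℓ`. The induction is on `k` ascending and `m`
descending. The two inductive steps (`comb`, `transfer`) are given as hypotheses here.
-/

set_option autoImplicit false

open CategoryTheory CategoryTheory.Limits Opposite
open Crest.GeometryTopology.Coherator

universe u

namespace Crest.Agent.Coh

variable {C : GlobTheory.{u}} [Kit C]

/-- The main claim. -/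
def Claim (C : GlobTheory.{u}) [Kit C] (m k : ℕ) : Prop :=
  ∀ ℓ, m ≤ ℓ → ℓ ≤ k → ∀ S : Shape, S.dim ≤ k + 1 → Fill (Cx (C := C) m ℓ S) k

/-- The statement of the transfer step. -/
def TransferStep (C : GlobTheory.{u}) [Kit C] : Prop :=
  ∀ {m ℓ k : ℕ}, m < ℓ → ℓ ≤ k → FillHyp C ℓ k → ∀ {S : Shape},
    Fill (Cx (C := C) m (ℓ - 1) S) k → Fill (Cx (C := C) m ℓ S) k

/-- The statement of the comb step. -/
def CombStep (C : GlobTheory.{u}) [Kit C] : Prop :=
  ∀ {m k : ℕ}, m ≤ k → FillHyp C (m + 1) k → ∀ {S : Shape}, S.dim ≤ k + 1 →
    Fill (Cx (C := C) m m S) k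

theorem claim_all (hT : TransferStep C) (hC : CombStep C) : ∀ k m, Claim C m k := by
  intro k
  induction k using Nat.strong_induction_on with
  | _ k ihk =>
    have key : ∀ t m, k < m + t → Claim C m k := by
      intro t
      induction t with
      | zero =>
        intro m hm ℓ h1 h2
        omega
      | succ t iht =>
        intro m hm
        have hH : ∀ m', m < m' → FillHyp C m' k := by
          intro m' hm' j hj1 hj2 S hS
          by_cases hjk : j < k
          · exact ihk j hjk m' j hj1 le_rfl S (by omega)
          · have hj : j = k := by omega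
            subst hj
            exact iht m' (by omega) j hj1 le_rfl S (by omega)
        intro ℓ hmℓ hℓk S hS
        induction ℓ, hmℓ using Nat.le_induction with
        | base => exact hC hℓk (hH (m + 1) (by omega)) hS
        | succ ℓ hmℓ ih =>
          exact hT (by omega) hℓk (hH (ℓ + 1) (by omega)) (ih (by omega))
    intro m
    exact key (k + 1) m (by omega)

/-- All filling hypotheses hold. -/
theorem fillHyp_all (hT : TransferStep C) (hC : CombStep C) (m k : ℕ) : FillHyp C m k := by
  intro j hj1 hj2 S hS
  exact claim_all hT hC j m j hj1 le_rfl S (by omega)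

end Crest.Agent.Coh
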