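import Crest.Agent.Lib.Coh.Comb
import Crest.Agent.Lib.Coh.CombPsi
import Crest.Agent.Lib.Coh.MainInd

/-!
# The comb step
-/

set_option autoImplicit false

open CategoryTheory CategoryTheory.Limits Opposite
open Crest.GeometryTopology.Coherator

universe u

namespace Crest.Agent.Coh

variable {C : GlobTheory.{u}} [Kit C]

theorem Rm_eq_combR (m : ℕ) (M : Mdl C) : Rm m M = combR m M := by
  apply hom_ext'
  intro n c
  change PCm m M n at c
  change Rcell c = (combR m M).app (op (GlobeObj.mk n)) c
  by_cases hn : m < n
  · rw [Rcell_high hn c]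
    apply pcm_ext_high hn
    · rw [liftC_z1, combR_top, combTopR_hi c hn]
      rfl
    · intro s
      cases s
      · rw [liftC_lf, combR_low, combTopR_lo _ (lt_irrefl m)]
        rfl
      · rw [liftC_lt, combR_low, combTopR_lo _ (lt_irrefl m)]
        rfl
  · rw [Rcell_le hn]
    apply PC.ext
    · exact (lowOf_combTopR_lo c hn).symm
    · exact (combTopR_lo c hn).symm

/-- The comb step. -/
theorem combStep : CombStep C := by
  intro m k hmk hFill S hS
  obtain ⟨T, β, ρ, hc⟩ := comb_shape (C := C) m S
  have hT : T.dim ≤ k + 1 := by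
    have := hc.dim
    omega
  let u : Cx (C := C) m m S ⟶ tupF C T :=
    { app := fun M => ↾(β M)
      naturality := fun M M' f => by
        ext τ
        exact (hc.β_nat f τ).symm }
  let r : tupF C T ⟶ Cx (C := C) m m S :=
    { app := fun M => ↾(ρ M)
      naturality := fun M M' f => by
        ext τ
        exact (hc.ρ_nat f τ).symm }
  refine comb_of_shape hmk hFill (fillTup Kit.hC T k hT) u r (fun M τ => ?_)
  rw [← Rm_eq_combR]
  exact hc.ρβ M τ

end Crest.Agent.Coh
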