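import Crest.Agent.Lib.Coh.Iota
import Crest.Agent.Lib.Coh.CombCyl

/-!
# The chain shape `QS m i = D_{m+1} ∨_m D_i`, whiskering, and the universal homotopy `Ξ`

`Aa e z := Wh (invC e) (Wh e z)` is parallel to `z`; `xiCell` is a natural cell of the cylinder
`PC (m+1) Einf M i` with ends `z` and `Aa e z`, built by recursion on `i` using fillers over `QS`.
-/

set_option autoImplicit false

open CategoryTheory CategoryTheory.Limits Opposite
open Crest.GeometryTopology.Coherator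

universe u

namespace Crest.Agent.Coh

variable {C : GlobTheory.{u}} [Kit C]

/-- The chain shape `D_{m+1} ∨_m D_i`. -/
def QS (m i : ℕ) (h : m < i) : Shape :=
  (Shape.globe (m + 1)).glue m i (Nat.lt_succ_self m) h

theorem dim_QS (m i : ℕ) (h : m < i) : (QS m i h).dim = i := by
  simp only [QS, Shape.dim_glue', Shape.dim_globe']
  omega

section qT

variable {P : GlobPsh.{u}} {m i : ℕ}

/-- A tuple of shape `QS`. -/
noncomputable def qT (h : m < i) (e : Cl P (m + 1)) (z : Cl P i)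
    (he : fc P (Nat.lt_succ_self m) true e = fc P h false z) : Tup P (QS m i h) :=
  Tup.glueT (Nat.lt_succ_self m) h (cellT e) z (by rw [last_cellT]; exact he)

/-- First component. -/
noncomputable def qE {h : m < i} (τ : Tup P (QS m i h)) : Cl P (m + 1) :=
  tCell (Tup.pre (Shape.inLeft _ _ _ _ _) τ)

/-- Second component. -/
noncomputable def qZ {h : m < i} (τ : Tup P (QS m i h)) : Cl P i := Tup.last τ

theorem q_match {h : m < i} (τ : Tup P (QS m i h)) :
    fc P (Nat.lt_succ_self m) true (qE τ) = fc P h false (qZ τ) := by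
  have := Tup.glue_match τ
  have e : ∀ σ : Tup P (Shape.globe (m + 1)), Tup.last σ = tCell σ := fun σ => by
    change tCell (Tup.pre (𝟙 _) σ) = tCell σ
    rw [Tup.pre_id]
  rwa [e] at this

@[simp] theorem qE_qT (h : m < i) (e : Cl P (m + 1)) (z : Cl P i)
    (he : fc P (Nat.lt_succ_self m) true e = fc P h false z) : qE (qT h e z he) = e := by
  unfold qE qT
  rw [Tup.pre_glueT, tCell_cellT]

@[simp] theorem qZ_qT (h : m < i) (e : Cl P (m + 1)) (z : Cl P i)
    (he : fc P (Nat.lt_succ_self m) true e = fc P h false z) : qZ (qT h e z he) = z :=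
  Tup.last_glueT _ _ _

theorem q_ext {h : m < i} {τ τ' : Tup P (QS m i h)} (h1 : qE τ = qE τ') (h2 : qZ τ = qZ τ') :
    τ = τ' := by
  apply Tup.glue_ext
  · have : ∀ σ : Tup P (QS m i h), Tup.pre (Shape.inLeft _ _ _ _ _) σ = cellT (qE σ) :=
      fun σ => (cellT_tCell _).symm
    rw [this, this, h1]
  · exact h2

theorem qE_map {Q : GlobPsh.{u}} {h : m < i} (τ : Tup P (QS m i h)) (φ : P ⟶ Q) :
    qE (τ ≫ φ) = φ.app _ (qE τ) := rfl

theorem qZ_map {Q : GlobPsh.{u}} {h : m < i} (τ : Tup P (QS m i h)) (φ : P ⟶ Q) :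
    qZ (τ ≫ φ) = φ.app _ (qZ τ) := rfl

theorem qT_map {Q : GlobPsh.{u}} (φ : P ⟶ Q) (h : m < i) (e : Cl P (m + 1)) (z : Cl P i)
    (he : fc P (Nat.lt_succ_self m) true e = fc P h false z) :
    qT h e z he ≫ φ = qT h (φ.app _ e) (φ.app _ z) (by rw [← fc_nat, ← fc_nat, he]) := by
  apply q_ext
  · rw [qE_map, qE_qT, qE_qT]
  · rw [qZ_map, qZ_qT, qZ_qT]

/-- Lowering the top cell of a `QS`-tuple. -/
noncomputable def lowerQ {h : m < i} {i' : ℕ} (h' : m < i') (hi : i' < i) (s : Bool)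
    (τ : Tup P (QS m i h)) : Tup P (QS m i' h') :=
  qT h' (qE τ) (fc P hi s (qZ τ)) (by rw [q_match, fc_fc])

@[simp] theorem qE_lowerQ {h : m < i} {i' : ℕ} (h' : m < i') (hi : i' < i) (s : Bool)
    (τ : Tup P (QS m i h)) : qE (lowerQ h' hi s τ) = qE τ := qE_qT _ _ _ _

@[simp] theorem qZ_lowerQ {h : m < i} {i' : ℕ} (h' : m < i') (hi : i' < i) (s : Bool)
    (τ : Tup P (QS m i h)) : qZ (lowerQ h' hi s τ) = fc P hi s (qZ τ) := qZ_qT _ _ _ _

theorem lowerQ_lowerQ {h : m < i} {i' i'' : ℕ} (h' : m < i') (hi : i' < i) (s : Bool)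
    (h'' : m < i'') (hi' : i'' < i') (s' : Bool) (τ : Tup P (QS m i h)) :
    lowerQ h'' hi' s' (lowerQ h' hi s τ) = lowerQ h'' (hi'.trans hi) s' τ := by
  apply q_ext
  · simp only [qE_lowerQ]
  · simp only [qZ_lowerQ, fc_fc]

theorem lowerQ_map {Q : GlobPsh.{u}} {h : m < i} {i' : ℕ} (h' : m < i') (hi : i' < i) (s : Bool)
    (τ : Tup P (QS m i h)) (φ : P ⟶ Q) :
    lowerQ h' hi s (τ ≫ φ) = lowerQ h' hi s τ ≫ φ := by
  apply q_ext
  · rw [qE_lowerQ, qE_map, qE_map, qE_lowerQ]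
  · rw [qZ_lowerQ, qZ_map, qZ_map, qZ_lowerQ, fc_nat]

end qT

theorem Wh_src {M : Mdl C} {m j : ℕ} (hm : m < j) {e : Cl M.G (m + 1)} {z : Cl M.G j}
    (he : fc M.G (Nat.lt_succ_self m) true e = fc M.G hm false z) :
    fc M.G hm false (Wh M hm e z) = fc M.G (Nat.lt_succ_self m) false e :=
  Wh_fc_false he

theorem Wh_tgt {M : Mdl C} {m j : ℕ} (hm : m < j) {e : Cl M.G (m + 1)} {z : Cl M.G j}
    (he : fc M.G (Nat.lt_succ_self m) true e = fc M.G hm false z) :
    fc M.G hm true (Wh M hm e z) = fc M.G hm true z :=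
  Wh_fc_true he

theorem Wh_high {M : Mdl C} {m j i₁ : ℕ} (hm : m < j) {e : Cl M.G (m + 1)} {z : Cl M.G j}
    (he : fc M.G (Nat.lt_succ_self m) true e = fc M.G hm false z) (hi : m < i₁) (hj : i₁ < j)
    (b : Bool) : fc M.G hj b (Wh M hm e z) = Wh M hi e (fc M.G hj b z) :=
  Wh_fc_high he hi hj b

theorem Wh_low {M : Mdl C} {m j i' : ℕ} (hm : m < j) {e : Cl M.G (m + 1)} {z : Cl M.G j}
    (he : fc M.G (Nat.lt_succ_self m) true e = fc M.G hm false z) (hi : i' < m) (b : Bool) :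
    fc M.G (hi.trans hm) b (Wh M hm e z) = fc M.G (hi.trans hm) b z :=
  Wh_fc_low he hi b

theorem Wh_nat' {M M' : Mdl C} (f : M ⟶ M') {m j : ℕ} (hm : m < j) {e : Cl M.G (m + 1)}
    {z : Cl M.G j} (he : fc M.G (Nat.lt_succ_self m) true e = fc M.G hm false z) :
    Mdl.cm f (Wh M hm e z) = Wh M' hm (Mdl.cm f e) (Mdl.cm f z) :=
  Wh_nat f he

/-- The operation `R`: conjugate-whisker a cell `z` by `e` and back. -/
noncomputable def Aa (M : Mdl C) {m j : ℕ} (hm : m < j) (e : Cl M.G (m + 1)) (z : Cl M.G j) :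
    Cl M.G j :=
  Wh M hm (invC M e) (Wh M hm e z)

theorem Aa_he {M : Mdl C} {m j : ℕ} (hm : m < j) {e : Cl M.G (m + 1)} {z : Cl M.G j}
    (he : fc M.G (Nat.lt_succ_self m) true e = fc M.G hm false z) :
    fc M.G (Nat.lt_succ_self m) true (invC M e) = fc M.G hm false (Wh M hm e z) := by
  rw [fc_invC_true, Wh_src hm he]

theorem Aa_src {M : Mdl C} {m j : ℕ} (hm : m < j) {e : Cl M.G (m + 1)} {z : Cl M.G j}
    (he : fc M.G (Nat.lt_succ_self m) true e = fc M.G hm false z) :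
    fc M.G hm false (Aa M hm e z) = fc M.G hm false z := by
  unfold Aa
  rw [Wh_src hm (Aa_he hm he), fc_invC_false, he]

theorem Aa_tgt {M : Mdl C} {m j : ℕ} (hm : m < j) {e : Cl M.G (m + 1)} {z : Cl M.G j}
    (he : fc M.G (Nat.lt_succ_self m) true e = fc M.G hm false z) :
    fc M.G hm true (Aa M hm e z) = fc M.G hm true z := by
  unfold Aa
  rw [Wh_tgt hm (Aa_he hm he), Wh_tgt hm he]

theorem Aa_high {M : Mdl C} {m j i₁ : ℕ} (hm : m < j) {e : Cl M.G (m + 1)} {z : Cl M.G j}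
    (he : fc M.G (Nat.lt_succ_self m) true e = fc M.G hm false z) (hi : m < i₁) (hj : i₁ < j)
    (b : Bool) : fc M.G hj b (Aa M hm e z) = Aa M hi e (fc M.G hj b z) := by
  unfold Aa
  rw [Wh_high hm (Aa_he hm he) hi hj b, Wh_high hm he hi hj b]

theorem Aa_low {M : Mdl C} {m j i' : ℕ} (hm : m < j) {e : Cl M.G (m + 1)} {z : Cl M.G j}
    (he : fc M.G (Nat.lt_succ_self m) true e = fc M.G hm false z) (hi : i' < j) (hm' : ¬ m < i')
    (b : Bool) : fc M.G hi b (Aa M hm e z) = fc M.G hi b z := by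
  by_cases hlt : i' < m
  · unfold Aa
    rw [Wh_low hm (Aa_he hm he) hlt b, Wh_low hm he hlt b]
  · have hin : i' = m := by omega
    subst hin
    cases b
    · exact Aa_src hm he
    · exact Aa_tgt hm he

theorem Aa_nat {M M' : Mdl C} (f : M ⟶ M') {m j : ℕ} (hm : m < j) {e : Cl M.G (m + 1)}
    {z : Cl M.G j} (he : fc M.G (Nat.lt_succ_self m) true e = fc M.G hm false z) :
    Mdl.cm f (Aa M hm e z) = Aa M' hm (Mdl.cm f e) (Mdl.cm f z) := by
  unfold Aa
  rw [Wh_nat' f hm (Aa_he hm he), Wh_nat' f hm he, invC_nat]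

/-- `Aa` on a tuple. -/
noncomputable def AqT {M : Mdl C} {m i : ℕ} {h : m < i} (τ : Tup M.G (QS m i h)) : Cl M.G i :=
  Aa M h (qE τ) (qZ τ)

theorem AqT_nat {M M' : Mdl C} (f : M ⟶ M') {m i : ℕ} {h : m < i} (τ : Tup M.G (QS m i h)) :
    Mdl.cm f (AqT τ) = AqT (τ ≫ Mdl.Hom.φ f) :=
  Aa_nat f h (q_match τ)

/-- The lower data of `Ξ`, as a function of the recursively given connecting cells. -/
noncomputable def lowXiOf {M : Mdl C} {m i : ℕ} {h : m < i}
    (R : ∀ i', (h' : m < i') → i' < i → Tup M.G (QS m i' h') → Cl M.G (i' + 1))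
    (τ : Tup M.G (QS m i h)) : Low M i := fun i' hi s =>
  if h' : m < i' then
    ⟨fc M.G hi s (qZ τ), AqT (lowerQ h' hi s τ), R i' h' hi (lowerQ h' hi s τ)⟩
  else
    ⟨fc M.G hi s (qZ τ), fc M.G hi s (qZ τ), unitC M (fc M.G hi s (qZ τ))⟩

open Classical in
/-- The connecting cells of `Ξ`. Total: junk if fillers don't exist (they do). -/
noncomputable def xiLam (m : ℕ) : (i : ℕ) → (h : m < i) → ∀ M : Mdl C, Tup M.G (QS m i h) →
    Cl M.G (i + 1)
  | i => fun h M τ =>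
    if hF : ∃ F : tupF C (QS m i h) ⟶ cellF C (i + 1), ∀ (M' : Mdl C) (τ' : Tup M'.G (QS m i h)),
        fc M'.G (Nat.lt_succ_self i) false (F.app M' τ') =
          conj (m + 1) (lowXiOf (fun i' h' (_ : i' < i) => xiLam m i' h' M') τ') i (qZ τ') ∧
        fc M'.G (Nat.lt_succ_self i) true (F.app M' τ') = AqT τ'
    then (Classical.choose hF).app M τ
    else unitC M (qZ τ)
termination_by i => i

/-- The lower data of `Ξ`. -/
noncomputable def lowXi {M : Mdl C} {m i : ℕ} {h : m < i} (τ : Tup M.G (QS m i h)) : Low M i :=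
  lowXiOf (fun i' h' (_ : i' < i) => xiLam m i' h' M) τ

/-- The top triple of `Ξ`. -/
noncomputable def topXi {M : Mdl C} {m i : ℕ} {h : m < i} (τ : Tup M.G (QS m i h)) : Tr M i :=
  ⟨qZ τ, AqT τ, xiLam m i h M τ⟩

/-- The statement that `Ξ` works at level `i`. -/
structure XiGood (C : GlobTheory.{u}) [Kit C] (m i : ℕ) : Prop where
  vt : ∀ (h : m < i) (M : Mdl C) (τ : Tup M.G (QS m i h)),
    VT (m + 1) Einf (lowXi τ) i le_rfl (topXi τ)
  nat : ∀ (h : m < i) {M M' : Mdl C} (f : M ⟶ M') (τ : Tup M.G (QS m i h)),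
    Mdl.cm f (xiLam m i h M τ) = xiLam m i h M' (τ ≫ Mdl.Hom.φ f)

theorem lowXi_hi {M : Mdl C} {m i i' : ℕ} {h : m < i} (τ : Tup M.G (QS m i h)) (hi : i' < i)
    (s : Bool) (h' : m < i') : lowXi τ i' hi s = topXi (lowerQ h' hi s τ) := by
  unfold lowXi lowXiOf topXi
  rw [dif_pos h', qZ_lowerQ]

theorem lowXi_lo {M : Mdl C} {m i i' : ℕ} {h : m < i} (τ : Tup M.G (QS m i h)) (hi : i' < i)
    (s : Bool) (h' : ¬ m < i') : lowXi τ i' hi s =
      ⟨fc M.G hi s (qZ τ), fc M.G hi s (qZ τ), unitC M (fc M.G hi s (qZ τ))⟩ := by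
  unfold lowXi lowXiOf
  rw [dif_neg h']

theorem lowXi_z1 {M : Mdl C} {m i i' : ℕ} {h : m < i} (τ : Tup M.G (QS m i h)) (hi : i' < i)
    (s : Bool) : (lowXi τ i' hi s).z1 = fc M.G hi s (qZ τ) := by
  by_cases h' : m < i'
  · rw [lowXi_hi τ hi s h']
    exact qZ_lowerQ _ _ _ _
  · rw [lowXi_lo τ hi s h']

theorem lowXi_z0 {M : Mdl C} {m i i' : ℕ} {h : m < i} (τ : Tup M.G (QS m i h)) (hi : i' < i)
    (s : Bool) : (lowXi τ i' hi s).z0 = fc M.G hi s (AqT τ) := by
  by_cases h' : m < i'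
  · rw [lowXi_hi τ hi s h']
    change Aa M h' (qE (lowerQ h' hi s τ)) (qZ (lowerQ h' hi s τ)) = _
    rw [qE_lowerQ, qZ_lowerQ]
    exact (Aa_high h (q_match τ) h' hi s).symm
  · rw [lowXi_lo τ hi s h']
    exact (Aa_low h (q_match τ) hi h' s).symm

theorem lowXi_face {M : Mdl C} {m i i' i'' : ℕ} {h : m < i} (τ : Tup M.G (QS m i h)) (hi : i' < i)
    (s : Bool) (h' : m < i') (hi' : i'' < i') (s' : Bool) :
    lowXi (lowerQ h' hi s τ) i'' hi' s' = lowXi τ i'' (hi'.trans hi) s' := by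
  by_cases h'' : m < i''
  · rw [lowXi_hi _ hi' s' h'', lowXi_hi _ (hi'.trans hi) s' h'', lowerQ_lowerQ]
  · rw [lowXi_lo _ hi' s' h'', lowXi_lo _ (hi'.trans hi) s' h'', qZ_lowerQ, fc_fc]

/-- A normal triple below `ℓ` at level at most `ℓ`: conj is trivial. -/
theorem VT_lo {M : Mdl C} {m j i' : ℕ} {E : ℕ → Prop} {l : Low M j} (hi : i' ≤ j) (hm : i' ≤ m)
    (y : Cl M.G i') (h1 : ∀ i'' (h : i'' < i') (b : Bool),
      fc M.G h b y = (l i'' (lt_of_lt_of_le h hi) b).z1)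
    (h0 : ∀ i'' (h : i'' < i') (b : Bool),
      fc M.G h b y = (l i'' (lt_of_lt_of_le h hi) b).z0) :
    VT (m + 1) E l i' hi ⟨y, y, unitC M y⟩ := by
  have hc : conj (m + 1) l i' y = y := conj_of_le _ _ _ (by omega)
  refine ⟨h1, h0, ?_, fc_unitC M y true, fun _ => ⟨hc.symm, ?_⟩⟩
  · change fc M.G _ false (unitC M y) = conj (m + 1) l i' y
    rw [hc, fc_unitC]
  · change unitC M y = unitC M (conj (m + 1) l i' y)
    rw [hc]

theorem lowXi_vl {m i : ℕ} (hlow : ∀ i', i' < i → XiGood C m i') {h : m < i} {M : Mdl C}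
    (τ : Tup M.G (QS m i h)) : VLow (m + 1) Einf (lowXi τ) := by
  intro i' hi s
  by_cases h' : m < i'
  · rw [lowXi_hi τ hi s h']
    exact ((hlow i' hi).vt h' M (lowerQ h' hi s τ)).restrict hi.le
      (fun i'' h'' s' => lowXi_face τ hi s h' h'' s')
  · rw [lowXi_lo τ hi s h']
    refine VT_lo hi.le (by omega) _ (fun i'' h'' b => ?_) (fun i'' h'' b => ?_)
    · rw [lowXi_z1, fc_fc]
    · rw [lowXi_lo τ _ b (by omega), fc_fc]

theorem lowXi_nat {m i : ℕ} (hlow : ∀ i', i' < i → XiGood C m i') {h : m < i} {M M' : Mdl C}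
    (f : M ⟶ M') (τ : Tup M.G (QS m i h)) :
    (fun i' hi s => mapTr f (lowXi τ i' hi s)) = lowXi (τ ≫ Mdl.Hom.φ f) := by
  funext i' hi s
  by_cases h' : m < i'
  · rw [lowXi_hi τ hi s h', lowXi_hi _ hi s h', lowerQ_map]
    apply Tr.ext
    · rfl
    · exact AqT_nat f _
    · exact (hlow i' hi).nat h' f _
  · rw [lowXi_lo τ hi s h', lowXi_lo _ hi s h']
    apply Tr.ext
    · exact fc_nat _ _ _ _
    · exact fc_nat _ _ _ _
    · change Mdl.cm f (unitC M _) = unitC M' _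
      rw [unitC_nat]
      congr 1
      exact fc_nat _ _ _ _

/-- `Ξ` works at all levels. -/
theorem xi_good (m : ℕ) : ∀ i, XiGood C m i := by
  intro i
  induction i using Nat.strong_induction_on with
  | _ i ih =>
    have hG : ∀ h : m < i, ∃ F : tupF C (QS m i h) ⟶ cellF C (i + 1),
        ∀ (M' : Mdl C) (τ' : Tup M'.G (QS m i h)),
        fc M'.G (Nat.lt_succ_self i) false (F.app M' τ') =
          conj (m + 1) (lowXiOf (fun i' h' (_ : i' < i) => xiLam m i' h' M') τ') i (qZ τ') ∧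
        fc M'.G (Nat.lt_succ_self i) true (F.app M' τ') = AqT τ' := by
      intro h
      have hZ : ∀ {M : Mdl C} (τ : Tup M.G (QS m i h)) (i' : ℕ) (hi : i' < i) (s : Bool),
          fc M.G hi s (qZ τ) = (lowXi τ i' hi s).z1 := fun τ i' hi s => (lowXi_z1 τ hi s).symm
      refine fillTup Kit.hC (QS m i h) i (by rw [dim_QS]; omega)
        (natOp (fun M (τ : Tup M.G (QS m i h)) => conj (m + 1) (lowXi τ) i (qZ τ)) ?_)
        (natOp (fun M (τ : Tup M.G (QS m i h)) => AqT τ) ?_) ?_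
      · intro M M' f (τ : Tup M.G (QS m i h))
        rw [conj_nat f (lowXi_vl ih τ) (qZ τ) i le_rfl le_rfl (hZ τ), lowXi_nat ih]
        rfl
      · intro M M' f τ
        exact AqT_nat f τ
      · intro M (τ : Tup M.G (QS m i h)) i' hi s
        change fc M.G hi s (conj (m + 1) (lowXi τ) i (qZ τ)) = fc M.G hi s (AqT τ)
        rw [(conj_spec (lowXi_vl ih τ) (qZ τ) i le_rfl le_rfl (hZ τ)).1 i' hi s, lowXi_z0]
    have hval : ∀ (h : m < i) (M : Mdl C) (τ : Tup M.G (QS m i h)),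
        xiLam m i h M τ = (Classical.choose (hG h)).app M τ := by
      intro h M τ
      rw [xiLam]
      exact dif_pos (hG h)
    constructor
    · intro h M τ
      have hs := Classical.choose_spec (hG h) M τ
      refine ⟨fun i' hi s => (lowXi_z1 τ hi s).symm, fun i' hi s => (lowXi_z0 τ hi s).symm, ?_, ?_,
        fun hn => ?_⟩
      · change fc M.G _ false (xiLam m i h M τ) = _
        rw [hval]
        exact hs.1
      · change fc M.G _ true (xiLam m i h M τ) = _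
        rw [hval]
        exact hs.2
      · rcases hn with hn | hn
        · omega
        · exact absurd hn (not_einf _)
    · intro h M M' f τ
      rw [hval, hval, nat_apply]
      rfl

/-- The universal homotopy from `z` to `Aa e z`. -/
noncomputable def xiCell {M : Mdl C} {m i : ℕ} {h : m < i} (τ : Tup M.G (QS m i h)) :
    PC (m + 1) Einf M i where
  low := lowXi τ
  top := topXi τ
  vl := lowXi_vl (fun i' _ => xi_good m i') τ
  vt := (xi_good m i).vt h M τ

@[simp] theorem xiCell_z1 {M : Mdl C} {m i : ℕ} {h : m < i} (τ : Tup M.G (QS m i h)) :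
    (xiCell τ).top.z1 = qZ τ := rfl

@[simp] theorem xiCell_z0 {M : Mdl C} {m i : ℕ} {h : m < i} (τ : Tup M.G (QS m i h)) :
    (xiCell τ).top.z0 = AqT τ := rfl

/-- Faces of `Ξ` above `m`. -/
theorem xiCell_face {M : Mdl C} {m i i' : ℕ} {h : m < i} (τ : Tup M.G (QS m i h)) (h' : m < i')
    (hi : i' < i) (s : Bool) : PC.face hi s (xiCell τ) = xiCell (lowerQ h' hi s τ) := by
  apply PC.ext
  · funext i'' hi'' s'
    exact (lowXi_face τ hi s h' hi'' s').symm
  · exact lowXi_hi τ hi s h'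

/-- Faces of `Ξ` at levels at most `m` are the normal cells. -/
theorem xiCell_face_lo {M : Mdl C} {m i i' : ℕ} {h : m < i} (τ : Tup M.G (QS m i h)) (h' : ¬ m < i')
    (hi : i' < i) (s : Bool) :
    PC.face hi s (xiCell τ) = (secL (m + 1) Einf M).app (op (GlobeObj.mk i')) (fc M.G hi s (qZ τ)) := by
  apply PC_eq_of_z1 (by omega)
  rw [secL_z1]
  exact lowXi_z1 τ hi s

/-- Naturality of `Ξ`. -/
theorem xiCell_nat {M M' : Mdl C} (f : M ⟶ M') {m i : ℕ} {h : m < i} (τ : Tup M.G (QS m i h)) :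
    (cylMap f).app (op (GlobeObj.mk i)) (xiCell τ) = xiCell (τ ≫ Mdl.Hom.φ f) := by
  apply PC.ext
  · exact lowXi_nat (fun i' _ => xi_good m i') f τ
  · apply Tr.ext
    · rfl
    · exact AqT_nat f τ
    · exact (xi_good m i).nat h f τ

end Crest.Agent.Coh
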