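import Crest.Agent.Lib.Coh.Mdl

/-!
# From `GlobModel` to `Mdl` and back
-/

set_option autoImplicit false

open CategoryTheory CategoryTheory.Limits Opposite
open Crest.GeometryTopology.Coherator

universe u

namespace Crest.Agent.Coh

variable {C : GlobTheory.{u}}

/-- The globular presheaf of a `GlobModel`. -/
noncomputable abbrev zPsh (Z : C.GlobModel) : GlobPsh.{u} := C.globes.op ⋙ Z.functor

/-- An element of a shape's presheaf as a map of shapes from a globe. -/
noncomputable def shapeOf {S : Shape} {n : ℕ} (u : S.psh.obj (op (GlobeObj.mk n))) :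
    Shape.globe n ⟶ S :=
  (yonedaEquiv.symm u : yoneda.obj (GlobeObj.mk n) ⟶ S.psh)

theorem shapeOf_map {S : Shape} {a b : ℕ} (f : GlobeObj.mk b ⟶ GlobeObj.mk a)
    (u : S.psh.obj (op (GlobeObj.mk a))) :
    shapeOf (S.psh.map f.op u) =
      (GlobTheory.globeShapes.map f : Shape.globe b ⟶ Shape.globe a) ≫ shapeOf u :=
  (yonedaEquiv_symm_naturality_left f S.psh u).symm

/-- The tuple in the cell presheaf of a model given by an element of the model at a shape. -/
noncomputable def tupOf (Z : C.GlobModel) {S : Shape}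
    (x : Z.functor.obj (op (⟨S⟩ : C.Ob))) : Tup (zPsh Z) S where
  app a := ↾(fun u => Z.functor.map (C.incl.map (shapeOf (n := a.unop.dim) u.down)).op x)
  naturality := by
    rintro ⟨⟨a⟩⟩ ⟨⟨b⟩⟩ ⟨f⟩
    ext ⟨u⟩
    change GlobeObj.mk b ⟶ GlobeObj.mk a at f
    change Z.functor.map (C.incl.map (shapeOf (S.psh.map f.op u))).op x =
      Z.functor.map (C.incl.map (GlobTheory.globeShapes.map f)).op
        (Z.functor.map (C.incl.map (shapeOf u)).op x)
    have e : C.incl.map (shapeOf (S.psh.map f.op u)) =
        C.incl.map (GlobTheory.globeShapes.map f) ≫ C.incl.map (shapeOf u) := by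
      rw [shapeOf_map]; exact C.incl.map_comp _ _
    rw [e]
    exact types_congr_hom (Z.functor.map_comp (C.incl.map (shapeOf u)).op
      (C.incl.map (GlobTheory.globeShapes.map f)).op) x

theorem tupOf_app (Z : C.GlobModel) {S : Shape} (x : Z.functor.obj (op (⟨S⟩ : C.Ob))) {n : ℕ}
    (u : S.psh.obj (op (GlobeObj.mk n))) :
    (tupOf Z x).app (op (GlobeObj.mk n)) (ULift.up u) =
      Z.functor.map (C.incl.map (shapeOf u)).op x := rfl

/-- Restriction along shape maps. -/
theorem pre_tupOf (Z : C.GlobModel) {S T : Shape} (f : S ⟶ T)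
    (x : Z.functor.obj (op (⟨T⟩ : C.Ob))) :
    Tup.pre f (tupOf Z x) = tupOf Z (Z.functor.map (C.incl.map f).op x) := by
  ext ⟨⟨n⟩⟩ ⟨u⟩
  change Z.functor.map (C.incl.map (shapeOf ((show S.psh ⟶ T.psh from f).app _ u))).op x =
    Z.functor.map (C.incl.map (shapeOf u)).op (Z.functor.map (C.incl.map f).op x)
  have e : shapeOf ((show S.psh ⟶ T.psh from f).app _ u) = shapeOf u ≫ f :=
    (yonedaEquiv_symm_naturality_right _ _ u).symm
  rw [e, C.incl.map_comp, op_comp, Z.functor.map_comp]
  rfl

theorem shapeOf_id (n : ℕ) : shapeOf (S := Shape.globe n) (n := n) (𝟙 (GlobeObj.mk n)) = 𝟙 _ := by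
  change yonedaEquiv.symm (𝟙 (GlobeObj.mk n)) = 𝟙 (yoneda.obj (GlobeObj.mk n))
  rw [Equiv.symm_apply_eq, yonedaEquiv_apply]
  rfl

theorem tCell_tupOf (Z : C.GlobModel) {n : ℕ}
    (x : Z.functor.obj (op (⟨Shape.globe n⟩ : C.Ob))) : tCell (tupOf Z x) = x := by
  change Z.functor.map (C.incl.map (shapeOf (S := Shape.globe n) (n := n) (𝟙 (GlobeObj.mk n)))).op x = x
  rw [shapeOf_id, C.incl.map_id, op_id, Z.functor.map_id]
  rfl

/-- The tuple of an element is compatible with the gluing squares. -/
theorem last_tupOf (Z : C.GlobModel) {S : Shape} (x : Z.functor.obj (op (⟨S⟩ : C.Ob))) :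
    Tup.last (tupOf Z x) = Z.functor.map (C.incl.map (show Shape.globe S.last ⟶ S from S.apex)).op x := by
  unfold Tup.last
  rw [pre_tupOf, tCell_tupOf]

theorem tupOf_bijective (Z : C.GlobModel) (S : Shape) :
    Function.Bijective (tupOf Z (S := S)) := by
  induction S using Shape.ind' with
  | single n =>
    constructor
    · intro x y h
      have := congrArg tCell h
      exact (tCell_tupOf Z x).symm.trans (this.trans (tCell_tupOf Z y))
    · intro τ
      exact ⟨tCell τ, by
        have : tCell (tupOf Z (tCell τ)) = tCell τ := tCell_tupOf Z _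
        have h2 := congrArg cellT this
        simpa using h2⟩
  | glue S b h hb hh ih =>
    have hs := (Types.isPullback_iff _ _ _ _).1 (Z.sums S b h hb hh)
    obtain ⟨hw, hinj, hex⟩ := hs
    constructor
    · intro x y hxy
      apply hinj
      constructor
      · apply ih.1
        have := congrArg (Tup.pre (S.inLeft b h hb hh)) hxy
        rw [pre_tupOf, pre_tupOf] at this
        exact this
      · have := congrArg (Tup.pre (S.inRight b h hb hh)) hxy
        rw [pre_tupOf, pre_tupOf] at this
        have h2 := congrArg tCell this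
        rw [tCell_tupOf, tCell_tupOf] at h2
        exact h2
    · intro τ
      obtain ⟨xL, hL⟩ := ih.2 (Tup.pre (S.inLeft b h hb hh) τ)
      let xR : Z.functor.obj (op (⟨Shape.globe h⟩ : C.Ob)) :=
        tCell (Tup.pre (S.inRight b h hb hh) τ)
      have hR : tupOf Z xR = Tup.pre (S.inRight b h hb hh) τ := by
        have : tCell (tupOf Z xR) = xR := tCell_tupOf Z _
        have h2 := congrArg cellT this
        rw [cellT_tCell] at h2
        exact h2.trans (cellT_tCell _)
      have hm : Z.functor.map (C.incl.map (S.hinge hb)).op xL =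
          Z.functor.map (C.incl.map (Shape.faceMap hh false)).op xR := by
        have h1 := congrArg tCell (pre_tupOf Z (S.hinge hb) xL)
        have h2 := congrArg tCell (pre_tupOf Z (Shape.faceMap hh false) xR)
        rw [tCell_tupOf] at h1 h2
        rw [← h1, ← h2, hL, hR]
        congr 1
        have hw2 := (glue_isPushout.{u} S b h hb hh).w
        have := congrArg (fun f => f ≫ τ) hw2
        simpa [Tup.pre, Category.assoc] using this
      obtain ⟨x, hx1, hx2⟩ := hex xL xR hm
      refine ⟨x, ?_⟩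
      apply Tup.glue_ext
      · rw [pre_tupOf, ← hL, ← hx1]
      · have e := Tup.pre_apex (tupOf Z x)
        have e' : Tup.last (tupOf Z x) = xR := by
          rw [last_tupOf]
          exact hx2
        exact e'

/-- Elements of a model at a shape are tuples of its cells. -/
noncomputable def tupEq (Z : C.GlobModel) (S : Shape) :
    Z.functor.obj (op (⟨S⟩ : C.Ob)) ≃ Tup (zPsh Z) S :=
  Equiv.ofBijective _ (tupOf_bijective Z S)

@[simp] theorem tupEq_apply (Z : C.GlobModel) (S : Shape) (x : Z.functor.obj (op (⟨S⟩ : C.Ob))) :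
    tupEq Z S x = tupOf Z x := rfl

@[simp] theorem tupOf_symm (Z : C.GlobModel) (S : Shape) (τ : Tup (zPsh Z) S) :
    tupOf Z ((tupEq Z S).symm τ) = τ := (tupEq Z S).apply_symm_apply τ

@[simp] theorem symm_tupOf (Z : C.GlobModel) (S : Shape) (x : Z.functor.obj (op (⟨S⟩ : C.Ob))) :
    (tupEq Z S).symm (tupOf Z x) = x := (tupEq Z S).symm_apply_apply x

/-- The theory map of a `GlobModel`. -/
noncomputable def phiOf (Z : C.GlobModel) : GlobTheory.TheoryMap C (EndT (zPsh Z)) where
  map {S T} o := fun τ => tupOf Z (Z.act o ((tupEq Z T).symm τ))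
  map_one S := by
    funext τ
    have : Z.act (C.one S) ((tupEq Z S).symm τ) = (tupEq Z S).symm τ := by
      unfold GlobTheory.GlobModel.act
      have := Z.functor.map_id (op (⟨S⟩ : C.Ob))
      exact types_congr_hom this _
    rw [this, tupOf_symm]
    rfl
  map_seq {R S T} f g := by
    funext τ
    change tupOf Z (Z.act (C.seq f g) ((tupEq Z T).symm τ)) =
      tupOf Z (Z.act f ((tupEq Z S).symm (tupOf Z (Z.act g ((tupEq Z T).symm τ)))))
    rw [symm_tupOf]
    congr 1
    unfold GlobTheory.GlobModel.act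
    have := Z.functor.map_comp (Quiver.Hom.op (X := (⟨S⟩ : C.Ob)) (Y := (⟨T⟩ : C.Ob)) g)
      (Quiver.Hom.op (X := (⟨R⟩ : C.Ob)) (Y := (⟨S⟩ : C.Ob)) f)
    exact types_congr_hom this _
  map_ofShape {S T} f := by
    funext τ
    change tupOf Z (Z.functor.map (C.incl.map f).op ((tupEq Z T).symm τ)) = Tup.pre f τ
    rw [← pre_tupOf, tupOf_symm]

/-- A `GlobModel` as a `Mdl`. -/
noncomputable def toMdl (Z : C.GlobModel) : Mdl C := ⟨zPsh Z, phiOf Z⟩

theorem tupOf_nat {Z Z' : C.GlobModel} (f : Z ⟶ Z') {S : Shape}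
    (x : Z.functor.obj (op (⟨S⟩ : C.Ob))) :
    tupOf Z x ≫ (Functor.whiskerLeft C.globes.op f) =
      tupOf Z' ((show Z.functor ⟶ Z'.functor from f).app _ x) := by
  ext ⟨⟨n⟩⟩ ⟨u⟩
  exact (types_congr_hom ((show Z.functor ⟶ Z'.functor from f).naturality
    (C.incl.map (shapeOf u)).op) x)

/-- A map of `GlobModel`s as a map of `Mdl`s. -/
noncomputable def toMdlMap {Z Z' : C.GlobModel} (f : Z ⟶ Z') : toMdl Z ⟶ toMdl Z' where
  φ := Functor.whiskerLeft C.globes.op f
  comm {S T} o τ := by
    obtain ⟨x, rfl⟩ := (tupOf_bijective Z T).2 τ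
    change tupOf Z (Z.act o ((tupEq Z T).symm (tupOf Z x))) ≫ _ =
      tupOf Z' (Z'.act o ((tupEq Z' T).symm (tupOf Z x ≫ _)))
    rw [symm_tupOf, tupOf_nat, tupOf_nat, symm_tupOf]
    congr 1
    exact (types_congr_hom ((show Z.functor ⟶ Z'.functor from f).naturality
      (Quiver.Hom.op (X := (⟨S⟩ : C.Ob)) (Y := (⟨T⟩ : C.Ob)) o)) x)

/-- `tupOf` of an action. -/
theorem tupOf_act (Z : C.GlobModel) {S T : Shape} (o : C.arr S T)
    (x : Z.functor.obj (op (⟨T⟩ : C.Ob))) :
    tupOf Z (Z.act o x) = (toMdl Z).act o (tupOf Z x) := by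
  change tupOf Z (Z.act o x) = tupOf Z (Z.act o ((tupEq Z T).symm (tupOf Z x)))
  rw [symm_tupOf]

/-- A `Mdl` as a `GlobModel`. -/
noncomputable def ofMdl (M : Mdl C) : C.GlobModel where
  functor :=
    { obj := fun X => Tup M.G X.unop.shape
      map := fun {X Y} f => ↾(M.act (S := Y.unop.shape) (T := X.unop.shape) f.unop)
      map_id := fun X => by
        ext τ a x
        exact congrFun (congrArg (fun g => g.app a) (congrArg (fun h => h) (M.act_one τ))) x |> fun e => by
          exact congrArg (fun σ : Tup M.G X.unop.shape => σ.app a x) (M.act_one τ)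
      map_comp := fun {X Y Z'} f g => by
        ext τ a x
        exact congrArg (fun σ : Tup M.G Z'.unop.shape => σ.app a x) (M.act_seq g.unop f.unop τ) }
  sums S b h hb hh := by
    rw [Types.isPullback_iff]
    refine ⟨?_, ?_, ?_⟩
    · ext τ a x
      have e1 : M.act (C.ofShape (S.hinge hb)) (M.act (C.ofShape (S.inLeft b h hb hh)) τ) =
          M.act (C.ofShape (Shape.faceMap hh false)) (M.act (C.ofShape (S.inRight b h hb hh)) τ) := by
        rw [← M.act_seq, ← M.act_seq, ← C.ofShape_comp, ← C.ofShape_comp, shape_w]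
      exact congrArg (fun σ : Tup M.G (Shape.globe b) => σ.app a x) e1
    · rintro τ τ' ⟨h1, h2⟩
      change M.act (C.ofShape (S.inLeft b h hb hh)) τ = M.act (C.ofShape (S.inLeft b h hb hh)) τ' at h1
      change M.act (C.ofShape (S.inRight b h hb hh)) τ = M.act (C.ofShape (S.inRight b h hb hh)) τ' at h2
      rw [M.act_ofShape, M.act_ofShape] at h1 h2
      exact Tup.glue_ext h1 (congrArg tCell h2)
    · intro τ c hm
      change M.act (C.ofShape (S.hinge hb)) τ = M.act (C.ofShape (Shape.faceMap hh false)) c at hm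
      rw [M.act_ofShape, M.act_ofShape, Tup.pre_hinge] at hm
      have hm' : fc M.G hb true (Tup.last τ) = fc M.G hh false (tCell c) := by
        have h2 := pre_face_cellT (P := M.G) hh false (tCell c)
        rw [cellT_tCell] at h2
        have := congrArg tCell (hm.trans h2)
        simpa using this
      refine ⟨Tup.glueT hb hh τ (tCell c) hm', ?_, ?_⟩
      · change M.act (C.ofShape (S.inLeft b h hb hh)) _ = τ
        rw [M.act_ofShape, Tup.pre_glueT]
      · change M.act (C.ofShape (S.inRight b h hb hh)) _ = c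
        rw [M.act_ofShape]
        have e := Tup.pre_apex (Tup.glueT hb hh τ (tCell c) hm')
        refine e.trans ?_
        exact (congrArg (cellT (n := h)) (Tup.last_glueT _ _ _)).trans (cellT_tCell c)

/-- A map of `Mdl`s as a map of `GlobModel`s. -/
noncomputable def ofMdlMap {M M' : Mdl C} (f : M ⟶ M') : ofMdl M ⟶ ofMdl M' :=
  (show (ofMdl M).functor ⟶ (ofMdl M').functor from
    { app := fun X => ↾(fun τ => τ ≫ Mdl.Hom.φ f)
      naturality := fun {X Y} g => by
        ext τ
        exact congrArg (fun σ : Tup M'.G Y.unop.shape => σ)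
          (Mdl.Hom.comm f (S := Y.unop.shape) (T := X.unop.shape) g.unop τ) })

end Crest.Agent.Coh
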