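import Mathlib
import Crest.Prelude.Def_GlobularCoherator

/-!
# The formal part of S0382: retraction + compression gives a weak equivalence

* `isWeakEquiv_of_retraction_compress`: if `i : X ⟶ Y` has a retraction and every cell of `Y` whose
  boundary is in `X` is joined by one higher cell to a cell of `X` with the same boundary,
  then `i` is a weak equivalence.
* `diskCell`, `diskHom`: maps out of a disk model are cells.
* `pushoutRetraction`: the retraction of the pushout `i : X ⟶ Y`, sending the new cell to `unit a`.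
-/

set_option autoImplicit false

open CategoryTheory CategoryTheory.Limits Opposite
open Crest.GeometryTopology.Coherator

universe u

namespace Crest.Agent.Coh

open GlobTheory GlobTheory.GlobModel

variable {C : GlobTheory.{u}}

theorem cellsMap_comp_app {X Y Z : GlobModel C} (f : X ⟶ Y) (g : Y ⟶ Z) (n : ℕ)
    (x : X.cells.cell n) :
    (cellsMap g).app n ((cellsMap f).app n x) = (cellsMap (f ≫ g)).app n x := rfl

theorem cellsMap_id_app {X : GlobModel C} (n : ℕ) (x : X.cells.cell n) :
    (cellsMap (𝟙 X)).app n x = x := rfl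

theorem retr_app {X Y : GlobModel C} {i : X ⟶ Y} {r : Y ⟶ X} (hr : i ≫ r = 𝟙 X) (n : ℕ)
    (x : X.cells.cell n) : (cellsMap r).app n ((cellsMap i).app n x) = x := by
  rw [cellsMap_comp_app, hr, cellsMap_id_app]

/-- Units and base points are preserved by maps of models. -/
theorem cellsMap_basePoint (e : C.UnitChoice) {X Y : GlobModel C} (f : X ⟶ Y) (x : X.cells.cell 0)
    (k : ℕ) : (cellsMap f).app k (X.basePoint e x k) = Y.basePoint e ((cellsMap f).app 0 x) k := by
  induction k with
  | zero => rfl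
  | succ k ih =>
    have h := types_congr_hom (f.naturality (Quiver.Hom.op
      (X := (⟨Shape.globe (k + 1)⟩ : C.Ob)) (Y := (⟨Shape.globe k⟩ : C.Ob)) (e.unit k)))
      (X.basePoint e x k)
    change (cellsMap f).app (k + 1) (X.unitCell e k (X.basePoint e x k)) =
      Y.unitCell e k ((cellsMap f).app k (X.basePoint e x k)) at h
    rw [ih] at h
    exact h

private theorem classes_inj (e : C.UnitChoice) {X : GlobModel C} {x x' : X.cells.cell 0}
    (hx : x' = x) (n : ℕ)
    (F : X.HomotopyClasses e x n → X.HomotopyClasses e x' n)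
    (hF : ∀ z : X.LoopsAt e x n, ∃ z' : X.LoopsAt e x' n,
      F (Quot.mk _ z) = Quot.mk _ z' ∧ z'.1 = z.1) : Function.Injective F := by
  subst hx
  have : F = id := by
    funext q
    induction q using Quot.ind with
    | mk z =>
      obtain ⟨z', h1, h2⟩ := hF z
      rw [h1]
      change Quot.mk _ z' = Quot.mk _ z
      congr 1
      exact Subtype.ext h2
  rw [this]
  exact Function.injective_id

/-- Retraction and compression give a weak equivalence. -/
theorem isWeakEquiv_of_retraction_compress (e : C.UnitChoice) {X Y : GlobModel C} (i : X ⟶ Y)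
    (r : Y ⟶ X) (hr : i ≫ r = 𝟙 X)
    (h0 : ∀ z : Y.cells.cell 0, ∃ w : X.cells.cell 0, Y.cells.Step 0 ((cellsMap i).app 0 w) z)
    (hS : ∀ (d : ℕ) (u v : X.cells.cell d) (z : Y.cells.cell (d + 1)),
      Y.cells.src d z = (cellsMap i).app d u → Y.cells.tgt d z = (cellsMap i).app d v →
      ∃ w : X.cells.cell (d + 1), X.cells.src d w = u ∧ X.cells.tgt d w = v ∧
        Y.cells.Step (d + 1) ((cellsMap i).app (d + 1) w) z) :
    IsWeakEquiv e i := by
  refine ⟨⟨?_, ?_⟩, fun x n => ⟨?_, ?_⟩⟩
  · have : (componentsMap r) ∘ (componentsMap i) = id := by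
      funext q
      induction q using Quot.ind with
      | mk z =>
        change Quot.mk _ ((cellsMap r).app 0 ((cellsMap i).app 0 z)) = Quot.mk _ z
        rw [retr_app hr]
    exact Function.LeftInverse.injective (g := componentsMap r) (congrFun this)
  · intro q
    induction q using Quot.ind with
    | mk z =>
      obtain ⟨w, hw⟩ := h0 z
      exact ⟨Quot.mk _ w, Quot.sound hw⟩
  · have hi := classes_inj e (retr_app hr 0 x) n
      (fun q => homotopyMap r e ((cellsMap i).app 0 x) n (homotopyMap i e x n q))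
      (fun z => ⟨loopsMap r e ((cellsMap i).app 0 x) n (loopsMap i e x n z), rfl, retr_app hr _ _⟩)
    intro p q hpq
    exact hi (by simp only [hpq])
  · intro q
    induction q using Quot.ind with
    | mk z =>
      have hb := cellsMap_basePoint e i x n
      obtain ⟨w, h1, h2, h3⟩ := hS n (X.basePoint e x n) (X.basePoint e x n) z.1
        (by rw [z.2.1, hb]) (by rw [z.2.2, hb])
      exact ⟨Quot.mk _ ⟨w, h1, h2⟩, Quot.sound h3⟩

/-! ### Maps out of disks -/

/-- The cell classified by a map out of a disk. -/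
noncomputable def diskCell {X : GlobModel C} {n : ℕ} (a : diskModel C n ⟶ X) : X.cells.cell n :=
  (show (diskModel C n).functor ⟶ X.functor from a).app (op (⟨Shape.globe n⟩ : C.Ob)) (C.one _)

/-- The map out of a disk classifying a cell. -/
noncomputable def diskHom {X : GlobModel C} {n : ℕ} (c : X.cells.cell n) : diskModel C n ⟶ X :=
  (show (diskModel C n).functor ⟶ X.functor from (yonedaEquiv (F := X.functor)
    (X := (⟨Shape.globe n⟩ : C.Ob))).symm c)

@[simp] theorem diskCell_diskHom {X : GlobModel C} {n : ℕ} (c : X.cells.cell n) :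
    diskCell (diskHom c) = c :=
  (yonedaEquiv (F := X.functor) (X := (⟨Shape.globe n⟩ : C.Ob))).apply_symm_apply c

@[simp] theorem diskHom_diskCell {X : GlobModel C} {n : ℕ} (a : diskModel C n ⟶ X) :
    diskHom (diskCell a) = a :=
  (yonedaEquiv (F := X.functor) (X := (⟨Shape.globe n⟩ : C.Ob))).symm_apply_apply
    (show (diskModel C n).functor ⟶ X.functor from a)

theorem diskHom_ext {X : GlobModel C} {n : ℕ} {a a' : diskModel C n ⟶ X}
    (h : diskCell a = diskCell a') : a = a' := by
  rw [← diskHom_diskCell a, h, diskHom_diskCell]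

theorem diskCell_comp {X Y : GlobModel C} {n : ℕ} (a : diskModel C n ⟶ X) (f : X ⟶ Y) :
    diskCell (a ≫ f) = (cellsMap f).app n (diskCell a) := rfl

/-- The source of the cell classified by a map out of a disk. -/
theorem diskCell_sourceIncl {X : GlobModel C} {n : ℕ} (b : diskModel C (n + 1) ⟶ X) :
    diskCell (sourceIncl C n ≫ b) = X.cells.src n (diskCell b) := by
  have hnat : (show (diskModel C (n + 1)).functor ⟶ X.functor from b).app
      (op (⟨Shape.globe n⟩ : C.Ob)) (C.seq (C.ofShape (Shape.σ n)) (C.one _)) =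
      X.functor.map (Quiver.Hom.op (X := (⟨Shape.globe n⟩ : C.Ob))
        (Y := (⟨Shape.globe (n + 1)⟩ : C.Ob)) (C.ofShape (Shape.σ n)))
        ((show (diskModel C (n + 1)).functor ⟶ X.functor from b).app
          (op (⟨Shape.globe (n + 1)⟩ : C.Ob)) (C.one _)) :=
    types_congr_hom ((show (diskModel C (n + 1)).functor ⟶ X.functor from b).naturality
      (Quiver.Hom.op (X := (⟨Shape.globe n⟩ : C.Ob)) (Y := (⟨Shape.globe (n + 1)⟩ : C.Ob))
        (C.ofShape (Shape.σ n)))) (C.one _)
  rw [C.seq_one] at hnat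
  change (show (diskModel C (n + 1)).functor ⟶ X.functor from b).app
    (op (⟨Shape.globe n⟩ : C.Ob)) (C.seq (C.one (Shape.globe n)) (C.ofShape (Shape.σ n))) = _
  rw [C.one_seq]
  exact hnat

/-- The unit cell of `a`, as a map out of the `(n+1)`-disk. -/
noncomputable def unitHom (e : C.UnitChoice) {X : GlobModel C} {n : ℕ} (a : diskModel C n ⟶ X) :
    diskModel C (n + 1) ⟶ X :=
  diskHom (X.unitCell e n (diskCell a))

theorem src_unitCell (e : C.UnitChoice) (X : GlobModel C) (n : ℕ) (x : X.cells.cell n) :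
    X.cells.src n (X.unitCell e n x) = x := by
  have h := types_congr_hom (X.functor.map_comp
    (Quiver.Hom.op (X := (⟨Shape.globe (n + 1)⟩ : C.Ob)) (Y := (⟨Shape.globe n⟩ : C.Ob)) (e.unit n))
    (Quiver.Hom.op (X := (⟨Shape.globe n⟩ : C.Ob)) (Y := (⟨Shape.globe (n + 1)⟩ : C.Ob))
      (C.ofShape (Shape.σ n)))) x
  have h2 : C.seq (C.ofShape (Shape.σ n)) (e.unit n) = C.one _ := e.src_unit n
  refine h.symm.trans ?_
  change X.functor.map (Quiver.Hom.op (X := (⟨Shape.globe n⟩ : C.Ob))
    (Y := (⟨Shape.globe n⟩ : C.Ob)) (C.seq (C.ofShape (Shape.σ n)) (e.unit n))) x = x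
  rw [h2]
  exact types_congr_hom (X.functor.map_id _) x

theorem tgt_unitCell (e : C.UnitChoice) (X : GlobModel C) (n : ℕ) (x : X.cells.cell n) :
    X.cells.tgt n (X.unitCell e n x) = x := by
  have h := types_congr_hom (X.functor.map_comp
    (Quiver.Hom.op (X := (⟨Shape.globe (n + 1)⟩ : C.Ob)) (Y := (⟨Shape.globe n⟩ : C.Ob)) (e.unit n))
    (Quiver.Hom.op (X := (⟨Shape.globe n⟩ : C.Ob)) (Y := (⟨Shape.globe (n + 1)⟩ : C.Ob))
      (C.ofShape (Shape.τ n)))) x
  have h2 : C.seq (C.ofShape (Shape.τ n)) (e.unit n) = C.one _ := e.tgt_unit n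
  refine h.symm.trans ?_
  change X.functor.map (Quiver.Hom.op (X := (⟨Shape.globe n⟩ : C.Ob))
    (Y := (⟨Shape.globe n⟩ : C.Ob)) (C.seq (C.ofShape (Shape.τ n)) (e.unit n))) x = x
  rw [h2]
  exact types_congr_hom (X.functor.map_id _) x

theorem sourceIncl_unitHom (e : C.UnitChoice) {X : GlobModel C} {n : ℕ}
    (a : diskModel C n ⟶ X) : sourceIncl C n ≫ unitHom e a = a := by
  apply diskHom_ext
  rw [diskCell_sourceIncl]
  unfold unitHom
  rw [diskCell_diskHom, src_unitCell]

/-- The retraction of a pushout along the source inclusion: the new cell goes to the unit of `a`. -/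
noncomputable def pushoutRetraction (e : C.UnitChoice) {X Y : GlobModel C} {n : ℕ}
    {a : diskModel C n ⟶ X} {i : X ⟶ Y} {b : diskModel C (n + 1) ⟶ Y}
    (sq : IsPushout a (sourceIncl C n) i b) : Y ⟶ X :=
  sq.desc (𝟙 X) (unitHom e a) (by rw [Category.comp_id, sourceIncl_unitHom])

theorem inl_pushoutRetraction (e : C.UnitChoice) {X Y : GlobModel C} {n : ℕ}
    {a : diskModel C n ⟶ X} {i : X ⟶ Y} {b : diskModel C (n + 1) ⟶ Y}
    (sq : IsPushout a (sourceIncl C n) i b) : i ≫ pushoutRetraction e sq = 𝟙 X :=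
  sq.inl_desc _ _ _

theorem inr_pushoutRetraction (e : C.UnitChoice) {X Y : GlobModel C} {n : ℕ}
    {a : diskModel C n ⟶ X} {i : X ⟶ Y} {b : diskModel C (n + 1) ⟶ Y}
    (sq : IsPushout a (sourceIncl C n) i b) : b ≫ pushoutRetraction e sq = unitHom e a :=
  sq.inr_desc _ _ _

end Crest.Agent.Coh
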