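import Crest.Agent.Lib.Coh.FreeFill
import Crest.Agent.Lib.Coh.Retract

/-!
# Maps between `GlobModel`s and `Mdl`s

`GlobModel C` and `Mdl C` are equivalent. We need: `homFrom : (Y ⟶ ofMdl M) → (toMdl Y ⟶ M)` and
its inverse `homTo`, compatible with compositions, and a dictionary of cells.
-/

set_option autoImplicit false

open CategoryTheory CategoryTheory.Limits Opposite
open Crest.GeometryTopology.Coherator

universe u

namespace Crest.Agent.Coh

variable {C : GlobTheory.{u}}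

open GlobTheory GlobTheory.GlobModel

/-- The action of a structure map in `ofMdl`. -/
theorem ofMdl_map_ofShape (M : Mdl C) {S T : Shape} (f : S ⟶ T) (τ : Tup M.G T) :
    (ofMdl M).functor.map (C.incl.map f).op τ = Tup.pre f τ :=
  M.act_ofShape f τ

/-- The action of an operation in `ofMdl`. -/
theorem ofMdl_act (M : Mdl C) {S T : Shape} (o : C.arr S T) (τ : Tup M.G T) :
    (ofMdl M).act o τ = M.act o τ := rfl

/-- A map into `ofMdl M` on tuples. -/
noncomputable def gApp {Y : C.GlobModel} {M : Mdl C} (g : Y ⟶ ofMdl M) (T : Shape)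
    (x : Y.functor.obj (op (⟨T⟩ : C.Ob))) : Tup M.G T :=
  (show Y.functor ⟶ (ofMdl M).functor from g).app (op (⟨T⟩ : C.Ob)) x

theorem gApp_act {Y : C.GlobModel} {M : Mdl C} (g : Y ⟶ ofMdl M) {S T : Shape} (o : C.arr S T)
    (x : Y.functor.obj (op (⟨T⟩ : C.Ob))) :
    gApp g S (Y.act o x) = M.act o (gApp g T x) :=
  types_congr_hom ((show Y.functor ⟶ (ofMdl M).functor from g).naturality
    (Quiver.Hom.op (X := (⟨S⟩ : C.Ob)) (Y := (⟨T⟩ : C.Ob)) o)) x

/-- The underlying map of `homFrom` on cells. -/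
noncomputable def homFromFun {Y : C.GlobModel} {M : Mdl C} (g : Y ⟶ ofMdl M) (n : ℕ)
    (y : Cl (zPsh Y) n) : Cl M.G n :=
  tCell (gApp g (Shape.globe n) y)

theorem act_incl (Y : C.GlobModel) {S T : Shape} (f : S ⟶ T) (x : Y.functor.obj (op (⟨T⟩ : C.Ob))) :
    Y.functor.map (C.incl.map f).op x = Y.act (C.ofShape f) x := rfl

theorem homFromFun_tup {Y : C.GlobModel} {M : Mdl C} (g : Y ⟶ ofMdl M) {T : Shape}
    (x : Y.functor.obj (op (⟨T⟩ : C.Ob))) (n : ℕ) (u' : T.psh.obj (op (GlobeObj.mk n))) :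
    homFromFun g n ((tupOf Y x).app (op (GlobeObj.mk n)) (ULift.up u')) =
      (gApp g T x).app (op (GlobeObj.mk n)) (ULift.up u') := by
  unfold homFromFun
  rw [tupOf_app, act_incl, gApp_act, M.act_ofShape, tCell_pre_shapeOf]

theorem homFromFun_fc {Y : C.GlobModel} {M : Mdl C} (g : Y ⟶ ofMdl M) {i j : ℕ} (h : i < j)
    (b : Bool) (x : Cl (zPsh Y) j) :
    homFromFun g i (fc (zPsh Y) h b x) = fc M.G h b (homFromFun g j x) := by
  unfold homFromFun
  have e : fc (zPsh Y) h b x = Y.act (C.ofShape (Shape.faceMap h b)) x := rfl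
  exact (congrArg (fun y => tCell (gApp g (Shape.globe i) y)) e).trans
    ((congrArg tCell ((gApp_act g _ x).trans (M.act_ofShape _ _))).trans (tCell_pre_face _ _ _))

/-- A map from a `GlobModel` to `ofMdl M` gives a map of `Mdl`s. -/
noncomputable def homFrom {Y : C.GlobModel} {M : Mdl C} (g : Y ⟶ ofMdl M) : toMdl Y ⟶ M where
  φ := mkHom (P := zPsh Y) (Q := M.G) (homFromFun g) (homFromFun_fc g)
  comm {S T} o τ := by
    obtain ⟨x, rfl⟩ := (tupOf_bijective Y T).2 τ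
    have key : ∀ {T' : Shape} (x' : Y.functor.obj (op (⟨T'⟩ : C.Ob))),
        tupOf Y x' ≫ mkHom (P := zPsh Y) (Q := M.G) (homFromFun g) (homFromFun_fc g) =
          gApp g T' x' := by
      intro T' x'
      ext ⟨⟨n⟩⟩ ⟨u'⟩
      exact homFromFun_tup g x' n u'
    have k1 := key (T' := S) (Y.act o x)
    have k2 := key (T' := T) x
    exact (congrArg (fun σ => σ ≫ mkHom (P := zPsh Y) (Q := M.G) (homFromFun g) (homFromFun_fc g))
      (tupOf_act Y o x).symm).trans (k1.trans ((gApp_act g o x).trans (congrArg (M.act o) k2.symm)))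

theorem tupOf_homFrom {Y : C.GlobModel} {M : Mdl C} (g : Y ⟶ ofMdl M) {T : Shape}
    (x : Y.functor.obj (op (⟨T⟩ : C.Ob))) :
    tupOf Y x ≫ Mdl.Hom.φ (homFrom g) = gApp g T x := by
  ext ⟨⟨n⟩⟩ ⟨u'⟩
  exact homFromFun_tup g x n u'

@[simp] theorem homFrom_cm {Y : C.GlobModel} {M : Mdl C} (g : Y ⟶ ofMdl M) {n : ℕ}
    (y : Cl (toMdl Y).G n) :
    Mdl.cm (homFrom g) y = tCell (gApp g (Shape.globe n) y) := rfl

/-- A map of `Mdl`s into `M` gives a map into `ofMdl M`. -/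
noncomputable def homTo {Y : C.GlobModel} {M : Mdl C} (h : toMdl Y ⟶ M) : Y ⟶ ofMdl M :=
  (show Y.functor ⟶ (ofMdl M).functor from
    { app := fun X => ↾(fun y => tupOf Y y ≫ Mdl.Hom.φ h)
      naturality := by
        rintro ⟨⟨S⟩⟩ ⟨⟨T⟩⟩ ⟨f⟩
        ext y
        change tupOf Y (Y.act f y) ≫ Mdl.Hom.φ h = M.act f (tupOf Y y ≫ Mdl.Hom.φ h)
        rw [tupOf_act]
        exact Mdl.Hom.comm h f _ })

theorem homTo_app {Y : C.GlobModel} {M : Mdl C} (h : toMdl Y ⟶ M) {T : Shape}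
    (y : Y.functor.obj (op (⟨T⟩ : C.Ob))) :
    gApp (homTo h) T y = tupOf Y y ≫ Mdl.Hom.φ h := rfl

theorem homFrom_homTo {Y : C.GlobModel} {M : Mdl C} (h : toMdl Y ⟶ M) : homFrom (homTo h) = h := by
  apply Mdl.Hom.ext
  apply hom_ext'
  intro n y
  exact congrArg (Mdl.cm h) (tCell_tupOf Y y)

theorem homTo_homFrom {Y : C.GlobModel} {M : Mdl C} (g : Y ⟶ ofMdl M) : homTo (homFrom g) = g := by
  apply NatTrans.ext
  funext ⟨⟨T⟩⟩
  ext y
  exact tupOf_homFrom g y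

theorem homFrom_comp {Y : C.GlobModel} {M M' : Mdl C} (g : Y ⟶ ofMdl M) (p : M ⟶ M') :
    homFrom (g ≫ ofMdlMap p) = homFrom g ≫ p := by
  apply Mdl.Hom.ext
  apply hom_ext'
  intro n y
  rfl

theorem homTo_comp {Y : C.GlobModel} {M M' : Mdl C} (h : toMdl Y ⟶ M) (p : M ⟶ M') :
    homTo (h ≫ p) = homTo h ≫ ofMdlMap p := rfl

theorem homTo_precomp {X Y : C.GlobModel} {M : Mdl C} (f : X ⟶ Y) (h : toMdl Y ⟶ M) :
    homTo (toMdlMap f ≫ h) = f ≫ homTo h := by
  apply NatTrans.ext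
  funext ⟨⟨T⟩⟩
  ext y
  exact congrArg (fun σ => σ ≫ Mdl.Hom.φ h) (tupOf_nat f y)

theorem toMdlMap_comp {X Y Z : C.GlobModel} (f : X ⟶ Y) (g : Y ⟶ Z) :
    toMdlMap (f ≫ g) = toMdlMap f ≫ toMdlMap g := rfl

theorem toMdlMap_id (X : C.GlobModel) : toMdlMap (𝟙 X) = 𝟙 (toMdl X) := rfl

/-! ### Dictionary of cells -/

/-- Cells of `ofMdl M` are cells of `M`. -/
noncomputable def ofCell {M : Mdl C} {n : ℕ} (c : Cl M.G n) : (ofMdl M).cells.cell n := cellT c

/-- Cells of `ofMdl M` are cells of `M`. -/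
noncomputable def unCell {M : Mdl C} {n : ℕ} (c : (ofMdl M).cells.cell n) : Cl M.G n := tCell c

@[simp] theorem unCell_ofCell {M : Mdl C} {n : ℕ} (c : Cl M.G n) : unCell (ofCell c) = c :=
  tCell_cellT c

@[simp] theorem ofCell_unCell {M : Mdl C} {n : ℕ} (c : (ofMdl M).cells.cell n) :
    ofCell (unCell c) = c := cellT_tCell c

theorem unCell_src {M : Mdl C} {n : ℕ} (c : (ofMdl M).cells.cell (n + 1)) :
    unCell ((ofMdl M).cells.src n c) = fc M.G (Nat.lt_succ_self n) false (unCell c) :=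
  (congrArg tCell (M.act_ofShape (Shape.σ n) c)).trans (tCell_pre_face _ _ _)

theorem unCell_tgt {M : Mdl C} {n : ℕ} (c : (ofMdl M).cells.cell (n + 1)) :
    unCell ((ofMdl M).cells.tgt n c) = fc M.G (Nat.lt_succ_self n) true (unCell c) :=
  (congrArg tCell (M.act_ofShape (Shape.τ n) c)).trans (tCell_pre_face _ _ _)

theorem unCell_map {M M' : Mdl C} (p : M ⟶ M') {n : ℕ} (c : (ofMdl M).cells.cell n) :
    unCell ((cellsMap (ofMdlMap p)).app n c) = Mdl.cm p (unCell c) := rfl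

theorem cells_toMdl_src (Y : C.GlobModel) {n : ℕ} (c : Y.cells.cell (n + 1)) :
    Y.cells.src n c = fc (toMdl Y).G (Nat.lt_succ_self n) false c := rfl

theorem cells_toMdl_tgt (Y : C.GlobModel) {n : ℕ} (c : Y.cells.cell (n + 1)) :
    Y.cells.tgt n c = fc (toMdl Y).G (Nat.lt_succ_self n) true c := rfl

theorem cellsMap_toMdl {X Y : C.GlobModel} (f : X ⟶ Y) {n : ℕ} (c : X.cells.cell n) :
    (cellsMap f).app n c = Mdl.cm (toMdlMap f) c := rfl

theorem unCell_homTo {Y : C.GlobModel} {M : Mdl C} (h : toMdl Y ⟶ M) {n : ℕ} (y : Y.cells.cell n) :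
    unCell ((cellsMap (homTo h)).app n y) = Mdl.cm h y := by
  exact congrArg (Mdl.cm h) (tCell_tupOf Y y)

theorem homFrom_cm' {Y : C.GlobModel} {M : Mdl C} (g : Y ⟶ ofMdl M) {n : ℕ} (y : Y.cells.cell n) :
    Mdl.cm (homFrom g) y = unCell ((cellsMap g).app n y) := rfl

end Crest.Agent.Coh
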