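import Crest.Agent.Lib.Coh.Ops

/-!
# The cylinder: flat definition

A cell of `cyl m E M` at level `j` is a system of triples `(z1, z0, lam)`, one for each `i < j` and side
(`low`), and one on top (`top`), where `z1 z0 : Z_i`, `lam : Z_{i+1}` goes from `conj(z1)` to `z0`;
below `m` and on levels in `E` the triple is *normal* (`z0 = conj z1`, `lam = unit`).
-/

set_option autoImplicit false

open CategoryTheory CategoryTheory.Limits Opposite
open Crest.GeometryTopology.Coherator

universe u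

namespace Crest.Agent.Coh

variable {C : GlobTheory.{u}} [Kit C]

/-- A triple at level `i`. -/
@[ext]
structure Tr (M : Mdl C) (i : ℕ) where
  /-- the end-1 component -/
  z1 : Cl M.G i
  /-- the end-0 component -/
  z0 : Cl M.G i
  /-- the connecting cell -/
  lam : Cl M.G (i + 1)

/-- Lower data of a cell at level `j`. -/
abbrev Low (M : Mdl C) (j : ℕ) : Type u := (i : ℕ) → i < j → Bool → Tr M i

/-- The conjugation of a cell `y` by the connecting cells of levels `< i` (levels `< m` skipped). -/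
noncomputable def conj {M : Mdl C} (m : ℕ) {j : ℕ} (l : Low M j) {j' : ℕ} :
    ℕ → Cl M.G j' → Cl M.G j'
  | 0, y => y
  | i + 1, y =>
    if hi : i < j then
      if i < m then conj m l i y
      else comp3 M (invC M (l i hi false).lam) (conj m l i y) (l i hi true).lam
    else conj m l i y

theorem conj_zero {M : Mdl C} (m : ℕ) {j : ℕ} (l : Low M j) {j' : ℕ} (y : Cl M.G j') :
    conj m l 0 y = y := rfl

theorem conj_succ_low {M : Mdl C} (m : ℕ) {j : ℕ} (l : Low M j) {j' : ℕ} (y : Cl M.G j') {i : ℕ}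
    (hm : i < m) : conj m l (i + 1) y = conj m l i y := by
  rw [conj]
  split_ifs <;> rfl

theorem conj_succ_high {M : Mdl C} (m : ℕ) {j : ℕ} (l : Low M j) {j' : ℕ} (y : Cl M.G j') {i : ℕ}
    (hi : i < j) (hm : ¬ i < m) :
    conj m l (i + 1) y = comp3 M (invC M (l i hi false).lam) (conj m l i y) (l i hi true).lam := by
  rw [conj, dif_pos hi, if_neg hm]

theorem conj_of_le {M : Mdl C} (m : ℕ) {j : ℕ} (l : Low M j) {j' : ℕ} (y : Cl M.G j') {i : ℕ}
    (hm : i ≤ m) : conj m l i y = y := by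
  induction i with
  | zero => rfl
  | succ i ih => rw [conj_succ_low m l y (by omega), ih (by omega)]

/-- `conj` only depends on the lower data below its index. -/
theorem conj_congr {M : Mdl C} (m : ℕ) {j j₂ : ℕ} (l : Low M j) (l₂ : Low M j₂) {j' : ℕ}
    (y : Cl M.G j') {i : ℕ} (hi : i ≤ j) (hi₂ : i ≤ j₂)
    (hag : ∀ i' (h : i' < i) (b : Bool), l i' (lt_of_lt_of_le h hi) b = l₂ i' (lt_of_lt_of_le h hi₂) b) :
    conj m l i y = conj m l₂ i y := by
  induction i with
  | zero => rfl
  | succ i ih =>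
    have h1 : i < j := by omega
    have h2 : i < j₂ := by omega
    have hih := ih (by omega) (by omega) (fun i' h b => hag i' (by omega) b)
    by_cases hm : i < m
    · rw [conj_succ_low m l y hm, conj_succ_low m l₂ y hm, hih]
    · rw [conj_succ_high m l y h1 hm, conj_succ_high m l₂ y h2 hm, hih,
        hag i (Nat.lt_succ_self i) false, hag i (Nat.lt_succ_self i) true]

/-- Validity of a triple at level `i` relative to lower data. -/
structure VT (m : ℕ) (E : ℕ → Prop) {M : Mdl C} {j : ℕ} (l : Low M j) (i : ℕ) (hi : i ≤ j)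
    (t : Tr M i) : Prop where
  f1 : ∀ i' (h : i' < i) (b : Bool), fc M.G h b t.z1 = (l i' (lt_of_lt_of_le h hi) b).z1
  f0 : ∀ i' (h : i' < i) (b : Bool), fc M.G h b t.z0 = (l i' (lt_of_lt_of_le h hi) b).z0
  src : fc M.G (Nat.lt_succ_self i) false t.lam = conj m l i t.z1
  tgt : fc M.G (Nat.lt_succ_self i) true t.lam = t.z0
  nm : (i < m ∨ E i) → t.z0 = conj m l i t.z1 ∧ t.lam = unitC M (conj m l i t.z1)

theorem VT.restrict {m : ℕ} {E : ℕ → Prop} {M : Mdl C} {j j₂ : ℕ} {l : Low M j} {l₂ : Low M j₂}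
    {i : ℕ} {hi : i ≤ j} {t : Tr M i} (hv : VT m E l i hi t) (hi₂ : i ≤ j₂)
    (hag : ∀ i' (h : i' < i) (b : Bool), l i' (lt_of_lt_of_le h hi) b = l₂ i' (lt_of_lt_of_le h hi₂) b) :
    VT m E l₂ i hi₂ t := by
  have hc : ∀ {j' : ℕ} (y : Cl M.G j'), conj m l i y = conj m l₂ i y :=
    fun y => conj_congr m l l₂ y hi hi₂ hag
  refine ⟨fun i' h b => ?_, fun i' h b => ?_, ?_, hv.tgt, fun hn => ?_⟩
  · rw [hv.f1, hag i' h b]
  · rw [hv.f0, hag i' h b]
  · rw [hv.src, hc]
  · rw [← hc]; exact hv.nm hn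

/-- Validity of lower data. -/
def VLow (m : ℕ) (E : ℕ → Prop) {M : Mdl C} {j : ℕ} (l : Low M j) : Prop :=
  ∀ i (h : i < j) (b : Bool), VT m E l i h.le (l i h b)

/-- The main lemma on `conj`: faces of conjugates. -/
theorem conj_spec {m : ℕ} {E : ℕ → Prop} {M : Mdl C} {j : ℕ} {l : Low M j} (hl : VLow m E l)
    {j' : ℕ} (y : Cl M.G j') (i : ℕ) (hij : i ≤ j) (hj' : i ≤ j')
    (Hy : ∀ i' (h : i' < i) (b : Bool),
      fc M.G (lt_of_lt_of_le h hj') b y = (l i' (lt_of_lt_of_le h hij) b).z1) :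
    (∀ i' (h : i' < i) (b : Bool),
      fc M.G (lt_of_lt_of_le h hj') b (conj m l i y) = (l i' (lt_of_lt_of_le h hij) b).z0) ∧
    (∀ i₁ (hi₁ : i ≤ i₁) (hj₁ : i₁ < j') (b : Bool),
      fc M.G hj₁ b (conj m l i y) = conj m l i (fc M.G hj₁ b y)) := by
  induction i with
  | zero =>
    exact ⟨fun i' h => absurd h (Nat.not_lt_zero _), fun i₁ _ hj₁ b => rfl⟩
  | succ i ih =>
    have hi : i < j := by omega
    have hj : i < j' := by omega
    obtain ⟨hA, hB⟩ := ih (by omega) (by omega) (fun i' h b => Hy i' (by omega) b)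
    by_cases hm : i < m
    · constructor
      · intro i' h b
        rw [conj_succ_low m l y hm]
        by_cases hii : i' = i
        · subst hii
          rw [hB i' le_rfl hj b, Hy i' h b]
          exact ((hl i' hi b).nm (Or.inl hm)).1.symm
        · exact hA i' (by omega) b
      · intro i₁ hi₁ hj₁ b
        rw [conj_succ_low m l y hm, conj_succ_low m l _ hm]
        exact hB i₁ (by omega) hj₁ b
    · have h1 : fc M.G (Nat.lt_succ_self i) true (invC M (l i hi false).lam) =
          fc M.G hj false (conj m l i y) := by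
        rw [fc_invC_true, (hl i hi false).src, hB i le_rfl hj false, Hy i (Nat.lt_succ_self i) false]
      have h2 : fc M.G hj true (conj m l i y) =
          fc M.G (Nat.lt_succ_self i) false (l i hi true).lam := by
        rw [hB i le_rfl hj true, Hy i (Nat.lt_succ_self i) true, (hl i hi true).src]
      constructor
      · intro i' h b
        rw [conj_succ_high m l y hi hm]
        by_cases hii : i' = i
        · subst hii
          have hb := comp3_fc_base M hj h1 h2
          cases b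
          · rw [hb.1, fc_invC_false, (hl i' hi false).tgt]
          · rw [hb.2, (hl i' hi true).tgt]
        · have hlt : i' < i := by omega
          rw [comp3_fc_low M hj hlt h1 h2 b]
          exact hA i' hlt b
      · intro i₁ hi₁ hj₁ b
        rw [conj_succ_high m l y hi hm, conj_succ_high m l _ hi hm,
          comp3_fc_high M hj (by omega) hj₁ h1 h2 b, hB i₁ (by omega) hj₁ b]

/-- The matching conditions for the composite in `conj`. -/
theorem conj_match {m : ℕ} {E : ℕ → Prop} {M : Mdl C} {j : ℕ} {l : Low M j} (hl : VLow m E l)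
    {j' : ℕ} (y : Cl M.G j') (i : ℕ) (hi : i < j) (hj : i < j')
    (Hy : ∀ i' (h : i' < i + 1) (b : Bool),
      fc M.G (lt_of_lt_of_le h hj) b y = (l i' (lt_of_lt_of_le h hi) b).z1) :
    fc M.G (Nat.lt_succ_self i) true (invC M (l i hi false).lam) =
        fc M.G hj false (conj m l i y) ∧
      fc M.G hj true (conj m l i y) = fc M.G (Nat.lt_succ_self i) false (l i hi true).lam := by
  obtain ⟨_, hB⟩ := conj_spec hl y i hi.le hj.le (fun i' h b => Hy i' (by omega) b)
  constructor
  · rw [fc_invC_true, (hl i hi false).src, hB i le_rfl hj false, Hy i (Nat.lt_succ_self i) false]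
  · rw [hB i le_rfl hj true, Hy i (Nat.lt_succ_self i) true, (hl i hi true).src]

/-- Image of a triple under a morphism. -/
noncomputable def mapTr {M M' : Mdl C} (f : M ⟶ M') {i : ℕ} (t : Tr M i) : Tr M' i :=
  ⟨Mdl.cm f t.z1, Mdl.cm f t.z0, Mdl.cm f t.lam⟩

/-- Naturality of `conj`. -/
theorem conj_nat {m : ℕ} {E : ℕ → Prop} {M M' : Mdl C} (f : M ⟶ M') {j : ℕ} {l : Low M j}
    (hl : VLow m E l) {j' : ℕ} (y : Cl M.G j') (i : ℕ) (hij : i ≤ j) (hj' : i ≤ j')
    (Hy : ∀ i' (h : i' < i) (b : Bool),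
      fc M.G (lt_of_lt_of_le h hj') b y = (l i' (lt_of_lt_of_le h hij) b).z1) :
    Mdl.cm f (conj m l i y) = conj m (fun i h b => mapTr f (l i h b)) i (Mdl.cm f y) := by
  induction i with
  | zero => rfl
  | succ i ih =>
    have hi : i < j := by omega
    have hj : i < j' := by omega
    have hih := ih (by omega) (by omega) (fun i' h b => Hy i' (by omega) b)
    by_cases hm : i < m
    · rw [conj_succ_low m l y hm, conj_succ_low m _ _ hm, hih]
    · rw [conj_succ_high m l y hi hm, conj_succ_high m _ _ hi hm]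
      obtain ⟨h1, h2⟩ := conj_match hl y i hi hj Hy
      rw [comp3_nat f hj h1 h2, invC_nat, hih]
      rfl

/-- A cell of the cylinder. -/
@[ext]
structure PC (m : ℕ) (E : ℕ → Prop) (M : Mdl C) (j : ℕ) where
  /-- the lower data -/
  low : Low M j
  /-- the top triple -/
  top : Tr M j
  vl : VLow m E low
  vt : VT m E low j le_rfl top

namespace PC

variable {m : ℕ} {E : ℕ → Prop} {M : Mdl C}

/-- Faces of cylinder cells. -/
def face {i₀ j : ℕ} (h : i₀ < j) (u : Bool) (c : PC m E M j) : PC m E M i₀ where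
  low i hi b := c.low i (hi.trans h) b
  top := c.low i₀ h u
  vl i hi b := (c.vl i (hi.trans h) b).restrict hi.le (fun _ _ _ => rfl)
  vt := (c.vl i₀ h u).restrict le_rfl (fun _ _ _ => rfl)

theorem face_face {i j l : ℕ} (h : i < j) (h' : j < l) (b b' : Bool) (c : PC m E M l) :
    face h b (face h' b' c) = face (h.trans h') b c := rfl

end PC

/-- The cylinder as a globular presheaf. -/
noncomputable def cyl (m : ℕ) (E : ℕ → Prop) (M : Mdl C) : GlobPsh.{u} :=
  mkPsh (PC m E M) PC.face PC.face_face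

@[simp] theorem fc_cyl {m : ℕ} {E : ℕ → Prop} {M : Mdl C} {i j : ℕ} (h : i < j) (b : Bool)
    (c : PC m E M j) : fc (cyl m E M) h b c = PC.face h b c := rfl

/-- A map into a cylinder from the functions computing top triples. -/
noncomputable def lowOf {Q : GlobPsh.{u}} {M : Mdl C} (T : ∀ j, Cl Q j → Tr M j) {j : ℕ}
    (x : Cl Q j) : Low M j := fun i h b => T i (fc Q h b x)

/-- The cell of the cylinder determined by a top-function. -/
noncomputable def cellOfTop {m : ℕ} {E : ℕ → Prop} {Q : GlobPsh.{u}} {M : Mdl C}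
    (T : ∀ j, Cl Q j → Tr M j)
    (hT : ∀ j (x : Cl Q j), VT m E (lowOf T x) j le_rfl (T j x)) {j : ℕ} (x : Cl Q j) :
    PC m E M j where
  low := lowOf T x
  top := T j x
  vl i h b := (hT i (fc Q h b x)).restrict h.le (fun i' h' b' => by
    unfold lowOf
    rw [fc_fc])
  vt := hT j x

/-- The map into the cylinder determined by a top-function. -/
noncomputable def mapTop {m : ℕ} {E : ℕ → Prop} {Q : GlobPsh.{u}} {M : Mdl C}
    (T : ∀ j, Cl Q j → Tr M j)
    (hT : ∀ j (x : Cl Q j), VT m E (lowOf T x) j le_rfl (T j x)) : Q ⟶ cyl m E M :=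
  mkHom (P := Q) (Q := cyl m E M) (fun j x => cellOfTop T hT x) (by
    intro i j h b x
    apply PC.ext
    · funext i' h' b'
      change T i' (fc Q h' b' (fc Q h b x)) = T i' (fc Q (h'.trans h) b' x)
      rw [fc_fc]
    · rfl)

@[simp] theorem mapTop_low {m : ℕ} {E : ℕ → Prop} {Q : GlobPsh.{u}} {M : Mdl C}
    (T : ∀ j, Cl Q j → Tr M j)
    (hT : ∀ j (x : Cl Q j), VT m E (lowOf T x) j le_rfl (T j x)) {j : ℕ} (x : Cl Q j) :
    PC.low ((mapTop T hT).app (op (GlobeObj.mk j)) x) = lowOf T x := rfl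

@[simp] theorem mapTop_top {m : ℕ} {E : ℕ → Prop} {Q : GlobPsh.{u}} {M : Mdl C}
    (T : ∀ j, Cl Q j → Tr M j)
    (hT : ∀ j (x : Cl Q j), VT m E (lowOf T x) j le_rfl (T j x)) {j : ℕ} (x : Cl Q j) :
    PC.top ((mapTop T hT).app (op (GlobeObj.mk j)) x) = T j x := rfl

/-- Normal triple on a cell over given lower data. -/
noncomputable def normTr (m : ℕ) {M : Mdl C} {j : ℕ} (l : Low M j) (z : Cl M.G j) : Tr M j :=
  ⟨z, conj m l j z, unitC M (conj m l j z)⟩

/-- Normal triples are valid. -/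
theorem normTr_valid {m : ℕ} {E : ℕ → Prop} {M : Mdl C} {j : ℕ} {l : Low M j} (hl : VLow m E l)
    (z : Cl M.G j)
    (hz : ∀ i (h : i < j) (b : Bool), fc M.G h b z = (l i h b).z1) :
    VT m E l j le_rfl (normTr m l z) := by
  refine ⟨fun i h b => hz i h b, fun i h b => ?_, fc_unitC M _ false, fc_unitC M _ true,
    fun _ => ⟨rfl, rfl⟩⟩
  exact (conj_spec hl z j le_rfl le_rfl hz).1 i h b

/-- The top function of the normal section `L`. -/
noncomputable def Ltop (m : ℕ) (M : Mdl C) : (j : ℕ) → Cl M.G j → Tr M j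
  | j, z => normTr m (fun i (_ : i < j) b => Ltop m M i (fc M.G ‹i < j› b z)) z
termination_by j => j

theorem Ltop_eq (m : ℕ) (M : Mdl C) (j : ℕ) (z : Cl M.G j) :
    Ltop m M j z = normTr m (lowOf (Q := M.G) (Ltop m M) z) z := by
  rw [Ltop]; rfl

theorem Ltop_valid (m : ℕ) (E : ℕ → Prop) (M : Mdl C) (j : ℕ) (z : Cl M.G j) :
    VT m E (lowOf (Q := M.G) (Ltop m M) z) j le_rfl (Ltop m M j z) := by
  induction j using Nat.strong_induction_on with
  | _ j ih =>
    rw [Ltop_eq]
    apply normTr_valid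
    · intro i h b
      refine (ih i h (fc M.G h b z)).restrict h.le (fun i' h' b' => ?_)
      unfold lowOf
      rw [fc_fc]
    · intro i h b
      unfold lowOf
      rw [Ltop_eq]
      rfl

/-- The normal section of the end-1 map. -/
noncomputable def secL (m : ℕ) (E : ℕ → Prop) (M : Mdl C) : M.G ⟶ cyl m E M :=
  mapTop (Ltop m M) (Ltop_valid m E M)

/-- The end-1 map of the cylinder. -/
noncomputable def e1G (m : ℕ) (E : ℕ → Prop) (M : Mdl C) : cyl m E M ⟶ M.G :=
  mkHom (P := cyl m E M) (Q := M.G) (fun j (c : PC m E M j) => c.top.z1) (by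
    intro i j h b (c : PC m E M j)
    exact (c.vt.f1 i h b).symm)

/-- The end-0 map of the cylinder. -/
noncomputable def e0G (m : ℕ) (E : ℕ → Prop) (M : Mdl C) : cyl m E M ⟶ M.G :=
  mkHom (P := cyl m E M) (Q := M.G) (fun j (c : PC m E M j) => c.top.z0) (by
    intro i j h b (c : PC m E M j)
    exact (c.vt.f0 i h b).symm)

@[simp] theorem e1G_app {m : ℕ} {E : ℕ → Prop} {M : Mdl C} {j : ℕ} (c : PC m E M j) :
    (e1G m E M).app (op (GlobeObj.mk j)) c = c.top.z1 := rfl

@[simp] theorem e0G_app {m : ℕ} {E : ℕ → Prop} {M : Mdl C} {j : ℕ} (c : PC m E M j) :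
    (e0G m E M).app (op (GlobeObj.mk j)) c = c.top.z0 := rfl

theorem secL_e1 (m : ℕ) (E : ℕ → Prop) (M : Mdl C) : secL m E M ≫ e1G m E M = 𝟙 _ := by
  apply hom_ext'
  intro n x
  change (Ltop m M n x).z1 = x
  rw [Ltop_eq]
  rfl

/-- Functoriality of the cylinder in the model. -/
noncomputable def cylMap {m : ℕ} {E : ℕ → Prop} {M M' : Mdl C} (f : M ⟶ M') :
    cyl m E M ⟶ cyl m E M' :=
  mapTop (Q := cyl m E M) (fun j (c : PC m E M j) => mapTr f c.top) (by
    intro j (c : PC m E M j)
    have hl : lowOf (Q := cyl m E M) (fun j (c : PC m E M j) => mapTr f c.top) c =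
        fun i h b => mapTr f (c.low i h b) := rfl
    rw [hl]
    have hc : ∀ {j' : ℕ} (y : Cl M.G j') (Hy : ∀ i' (h : i' < j) (b : Bool) (hj' : j ≤ j'),
        fc M.G (lt_of_lt_of_le h hj') b y = (c.low i' (lt_of_lt_of_le h le_rfl) b).z1)
        (hj' : j ≤ j'), True := fun _ _ _ => trivial
    have Hz : ∀ i' (h : i' < j) (b : Bool), fc M.G h b c.top.z1 = (c.low i' h b).z1 := c.vt.f1
    have hconj := conj_nat f c.vl c.top.z1 j le_rfl le_rfl Hz
    refine ⟨fun i h b => ?_, fun i h b => ?_, ?_, ?_, fun hn => ?_⟩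
    · change fc M'.G h b (Mdl.cm f c.top.z1) = Mdl.cm f (c.low i h b).z1
      rw [← c.vt.f1 i h b]
      exact (fc_nat _ _ _ _).symm
    · change fc M'.G h b (Mdl.cm f c.top.z0) = Mdl.cm f (c.low i h b).z0
      rw [← c.vt.f0 i h b]
      exact (fc_nat _ _ _ _).symm
    · change fc M'.G _ false (Mdl.cm f c.top.lam) = conj m _ j (Mdl.cm f c.top.z1)
      rw [← hconj, ← c.vt.src]
      exact (fc_nat _ _ _ _).symm
    · change fc M'.G _ true (Mdl.cm f c.top.lam) = Mdl.cm f c.top.z0
      rw [← c.vt.tgt]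
      exact (fc_nat _ _ _ _).symm
    · obtain ⟨h1, h2⟩ := c.vt.nm hn
      constructor
      · change Mdl.cm f c.top.z0 = conj m _ j (Mdl.cm f c.top.z1)
        rw [← hconj, h1]
      · change Mdl.cm f c.top.lam = unitC M' (conj m _ j (Mdl.cm f c.top.z1))
        rw [← hconj, h2, unitC_nat])

@[simp] theorem cylMap_top {m : ℕ} {E : ℕ → Prop} {M M' : Mdl C} (f : M ⟶ M') {j : ℕ}
    (c : PC m E M j) : PC.top ((cylMap f).app (op (GlobeObj.mk j)) c) = mapTr f c.top := rfl

@[simp] theorem cylMap_low {m : ℕ} {E : ℕ → Prop} {M M' : Mdl C} (f : M ⟶ M') {j : ℕ}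
    (c : PC m E M j) (i : ℕ) (h : i < j) (b : Bool) :
    PC.low ((cylMap f).app (op (GlobeObj.mk j)) c) i h b = mapTr f (c.low i h b) := rfl

end Crest.Agent.Coh
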