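import Crest.Agent.Lib.Coh.Cyl

/-!
# API for the cylinder: inclusions, parallel cells, cells with prescribed faces, normal cells
-/

set_option autoImplicit false

open CategoryTheory CategoryTheory.Limits Opposite
open Crest.GeometryTopology.Coherator

universe u

namespace Crest.Agent.Coh

variable {C : GlobTheory.{u}} [Kit C]

/-- The exceptional levels of the full cylinder: none. -/
def Einf : ℕ → Prop := fun _ => False

/-- The exceptional levels of the `ℓ`-truncated cylinder: everything above `ℓ`. -/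
def Eab (ℓ : ℕ) : ℕ → Prop := fun i => ℓ < i

/-- The full cylinder. -/
noncomputable abbrev cylI (m : ℕ) (M : Mdl C) : GlobPsh.{u} := cyl m Einf M

/-- The cylinder with data only on levels `m..ℓ`. -/
noncomputable abbrev cylA (m ℓ : ℕ) (M : Mdl C) : GlobPsh.{u} := cyl m (Eab ℓ) M

theorem VT.mono {m : ℕ} {E E' : ℕ → Prop} {M : Mdl C} {j : ℕ} {l : Low M j} {i : ℕ} {hi : i ≤ j}
    {t : Tr M i} (hv : VT m E l i hi t) (hE : ∀ i', i' ≤ j → E' i' → E i') : VT m E' l i hi t :=
  ⟨hv.f1, hv.f0, hv.src, hv.tgt, fun hn => hv.nm (hn.imp id (hE i hi))⟩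

/-- Change the set of exceptional levels of a cell. -/
def PC.cast {m : ℕ} {E E' : ℕ → Prop} {M : Mdl C} {j : ℕ} (hE : ∀ i', i' ≤ j → E' i' → E i')
    (c : PC m E M j) : PC m E' M j where
  low := c.low
  top := c.top
  vl i h b := (c.vl i h b).mono hE
  vt := c.vt.mono hE

/-- The inclusion of cylinders when the exceptional levels shrink. -/
noncomputable def cylIncl {m : ℕ} {E E' : ℕ → Prop} (hE : ∀ i', E' i' → E i') (M : Mdl C) :
    cyl m E M ⟶ cyl m E' M :=
  mkHom (P := cyl m E M) (Q := cyl m E' M) (fun j (c : PC m E M j) =>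
    PC.cast (fun i' _ h => hE i' h) c) (fun _ _ _ => rfl)

@[simp] theorem cylIncl_low {m : ℕ} {E E' : ℕ → Prop} (hE : ∀ i', E' i' → E i') (M : Mdl C) {j : ℕ}
    (c : PC m E M j) : PC.low ((cylIncl hE M).app (op (GlobeObj.mk j)) c) = c.low := rfl

@[simp] theorem cylIncl_top {m : ℕ} {E E' : ℕ → Prop} (hE : ∀ i', E' i' → E i') (M : Mdl C) {j : ℕ}
    (c : PC m E M j) : PC.top ((cylIncl hE M).app (op (GlobeObj.mk j)) c) = c.top := rfl

/-- The inclusions are bijective on levels where the exceptional sets agree. -/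
theorem cylIncl_bijective {m : ℕ} {E E' : ℕ → Prop} (hE : ∀ i', E' i' → E i') (M : Mdl C) (j : ℕ)
    (hj : ∀ i', i' ≤ j → E i' → E' i') :
    Function.Bijective ((cylIncl (m := m) hE M).app (op (GlobeObj.mk j))) := by
  constructor
  · intro (x : PC m E M j) (y : PC m E M j) h
    have h' : PC.cast (fun i' _ h => hE i' h) x = PC.cast (fun i' _ h => hE i' h) y := h
    have h1 : x.low = y.low := congrArg (PC.low (E := E')) h'
    have h2 : x.top = y.top := congrArg (PC.top (E := E')) h'
    exact PC.ext h1 h2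
  · intro (c : PC m E' M j)
    exact ⟨PC.cast hj c, rfl⟩

theorem cylIncl_e1 {m : ℕ} {E E' : ℕ → Prop} (hE : ∀ i', E' i' → E i') (M : Mdl C) :
    cylIncl hE M ≫ e1G m E' M = e1G m E M := rfl

theorem cylIncl_e0 {m : ℕ} {E E' : ℕ → Prop} (hE : ∀ i', E' i' → E i') (M : Mdl C) :
    cylIncl hE M ≫ e0G m E' M = e0G m E M := rfl

theorem cylIncl_cylMap {m : ℕ} {E E' : ℕ → Prop} (hE : ∀ i', E' i' → E i') {M M' : Mdl C}
    (f : M ⟶ M') : cylIncl (m := m) hE M ≫ cylMap f = cylMap f ≫ cylIncl hE M' := rfl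

theorem cylMap_e1 {m : ℕ} {E : ℕ → Prop} {M M' : Mdl C} (f : M ⟶ M') :
    cylMap f ≫ e1G m E M' = e1G m E M ≫ Mdl.Hom.φ f := rfl

theorem cylMap_e0 {m : ℕ} {E : ℕ → Prop} {M M' : Mdl C} (f : M ⟶ M') :
    cylMap f ≫ e0G m E M' = e0G m E M ≫ Mdl.Hom.φ f := rfl

theorem cylMap_id {m : ℕ} {E : ℕ → Prop} (M : Mdl C) : cylMap (m := m) (E := E) (𝟙 M) = 𝟙 _ := rfl

theorem cylMap_comp {m : ℕ} {E : ℕ → Prop} {M M' M'' : Mdl C} (f : M ⟶ M') (g : M' ⟶ M'') :
    cylMap (m := m) (E := E) (f ≫ g) = cylMap f ≫ cylMap g := rfl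

/-- Two cylinder cells are parallel iff their lower data agree. -/
theorem par_cyl_iff {m : ℕ} {E : ℕ → Prop} {M : Mdl C} {j : ℕ} (c c' : PC m E M j) :
    Par (cyl m E M) (k := j) c c' ↔ c.low = c'.low := by
  constructor
  · intro h
    funext i hi b
    exact congrArg PC.top (h i hi b)
  · intro h i hi b
    apply PC.ext
    · funext i' hi' b'
      exact congrFun (congrFun (congrFun h i') _) b'
    · exact congrFun (congrFun (congrFun h i) _) b

section mk2

variable {m : ℕ} {E : ℕ → Prop} {M : Mdl C} {j : ℕ}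

/-- The lower data of a cell with prescribed source and target. -/
def low2 (s t : PC m E M j) : Low M (j + 1) := fun i hi b =>
  if h : i < j then s.low i h b
  else
    have hij : i = j := by omega
    hij ▸ (if b then t else s).top

theorem low2_lt (s t : PC m E M j) {i : ℕ} (hi : i < j + 1) (b : Bool) (h : i < j) :
    low2 s t i hi b = s.low i h b := dif_pos h

theorem low2_eq (s t : PC m E M j) (b : Bool) :
    low2 s t j (Nat.lt_succ_self j) b = (if b then t else s).top :=
  dif_neg (Nat.lt_irrefl j)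

theorem low2_vl (s t : PC m E M j) (hp : s.low = t.low) : VLow m E (low2 s t) := by
  intro i hi b
  by_cases h : i < j
  · rw [low2_lt s t hi b h]
    exact (s.vl i h b).restrict hi.le (fun i' h' b' => (low2_lt s t _ b' (by omega)).symm)
  · have hij : i = j := by omega
    subst hij
    rw [low2_eq]
    cases b
    · exact s.vt.restrict hi.le (fun i' h' b' => (low2_lt s t _ b' h').symm)
    · refine t.vt.restrict hi.le (fun i' h' b' => ?_)
      rw [low2_lt s t _ b' h', hp]

/-- A cylinder cell with prescribed source, target and top triple. -/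
def PC.mk2 (s t : PC m E M j) (hp : s.low = t.low) (top : Tr M (j + 1))
    (hv : VT m E (low2 s t) (j + 1) le_rfl top) : PC m E M (j + 1) where
  low := low2 s t
  top := top
  vl := low2_vl s t hp
  vt := hv

theorem PC.face_mk2_false (s t : PC m E M j) (hp : s.low = t.low) (top : Tr M (j + 1))
    (hv : VT m E (low2 s t) (j + 1) le_rfl top) :
    PC.face (Nat.lt_succ_self j) false (PC.mk2 s t hp top hv) = s := by
  apply PC.ext
  · funext i hi b
    exact low2_lt s t (hi.trans (Nat.lt_succ_self j)) b hi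
  · exact low2_eq s t false

theorem PC.face_mk2_true (s t : PC m E M j) (hp : s.low = t.low) (top : Tr M (j + 1))
    (hv : VT m E (low2 s t) (j + 1) le_rfl top) :
    PC.face (Nat.lt_succ_self j) true (PC.mk2 s t hp top hv) = t := by
  apply PC.ext
  · funext i hi b
    refine (low2_lt s t (hi.trans (Nat.lt_succ_self j)) b hi).trans ?_
    rw [hp]
  · exact low2_eq s t true

/-- The lower data of any cell at level `j + 1` is `low2` of its faces. -/
theorem low_eq_low2 (c : PC m E M (j + 1)) :
    c.low = low2 (PC.face (Nat.lt_succ_self j) false c) (PC.face (Nat.lt_succ_self j) true c) := by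
  funext i hi b
  have hi' : i < j + 1 := hi
  by_cases h : i < j
  · rw [low2_lt _ _ hi b h]
    rfl
  · have hij : i = j := by omega
    subst hij
    rw [low2_eq]
    cases b <;> rfl

/-- `low2` of mapped cells. -/
theorem low2_map {M' : Mdl C} (f : M ⟶ M') (s t : PC m E M j) :
    low2 ((cylMap f).app (op (GlobeObj.mk j)) s) ((cylMap f).app (op (GlobeObj.mk j)) t) =
      fun i h b => mapTr f (low2 s t i h b) := by
  funext i hi b
  have hi' : i < j + 1 := hi
  by_cases h : i < j
  · rw [low2_lt _ _ hi b h, low2_lt _ _ hi b h]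
    rfl
  · have hij : i = j := by omega
    subst hij
    rw [low2_eq, low2_eq]
    cases b <;> rfl

end mk2

/-- A valid triple is preserved by morphisms. -/
theorem VT.map {m : ℕ} {E : ℕ → Prop} {M M' : Mdl C} (f : M ⟶ M') {j : ℕ} {l : Low M j}
    (hl : VLow m E l) {t : Tr M j} (hv : VT m E l j le_rfl t) :
    VT m E (fun i h b => mapTr f (l i h b)) j le_rfl (mapTr f t) := by
  have hconj := conj_nat f hl t.z1 j le_rfl le_rfl hv.f1
  refine ⟨fun i h b => ?_, fun i h b => ?_, ?_, ?_, fun hn => ?_⟩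
  · change fc M'.G h b (Mdl.cm f t.z1) = Mdl.cm f (l i h b).z1
    rw [← hv.f1 i h b]
    exact (fc_nat _ _ _ _).symm
  · change fc M'.G h b (Mdl.cm f t.z0) = Mdl.cm f (l i h b).z0
    rw [← hv.f0 i h b]
    exact (fc_nat _ _ _ _).symm
  · change fc M'.G _ false (Mdl.cm f t.lam) = conj m _ j (Mdl.cm f t.z1)
    rw [← hconj, ← hv.src]
    exact (fc_nat _ _ _ _).symm
  · change fc M'.G _ true (Mdl.cm f t.lam) = Mdl.cm f t.z0
    rw [← hv.tgt]
    exact (fc_nat _ _ _ _).symm
  · obtain ⟨h1, h2⟩ := hv.nm hn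
    constructor
    · change Mdl.cm f t.z0 = conj m _ j (Mdl.cm f t.z1)
      rw [← hconj, h1]
    · change Mdl.cm f t.lam = unitC M' (conj m _ j (Mdl.cm f t.z1))
      rw [← hconj, h2, unitC_nat]

/-- The normal cell with given lower data. -/
noncomputable def PC.norm {m : ℕ} {E : ℕ → Prop} {M : Mdl C} {j : ℕ} (l : Low M j) (hl : VLow m E l)
    (z : Cl M.G j) (hz : ∀ i (h : i < j) (b : Bool), fc M.G h b z = (l i h b).z1) : PC m E M j where
  low := l
  top := normTr m l z
  vl := hl
  vt := normTr_valid hl z hz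

/-- Cells at levels below `m` and on exceptional levels are determined by `z1` and the lower data. -/
theorem PC.top_eq_norm {m : ℕ} {E : ℕ → Prop} {M : Mdl C} {j : ℕ} (c : PC m E M j)
    (h : j < m ∨ E j) : c.top = normTr m c.low c.top.z1 := by
  obtain ⟨h1, h2⟩ := c.vt.nm h
  exact Tr.ext rfl h1 h2

/-- The complex of `S`-tuples in the cylinder with exceptional levels `E`. -/
noncomputable def CxE (m : ℕ) (E : ℕ → Prop) (S : Shape) : Mdl C ⥤ Type u where
  obj M := Tup (cyl m E M) S
  map f := ↾(fun τ => τ ≫ cylMap f)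
  map_id M := by ext τ a x; rfl
  map_comp f g := by ext τ a x; rfl

/-- The main complex: `S`-tuples with cylinder data on levels `m..ℓ`. -/
noncomputable abbrev Cx (m ℓ : ℕ) (S : Shape) : Mdl C ⥤ Type u := CxE m (Eab ℓ) S

end Crest.Agent.Coh
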