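import Crest.Agent.Lib.Coh.Lift
import Crest.Agent.Lib.Coh.CK
import Crest.Agent.Lib.Coh.CylApi

/-!
# The last step of S0382: from the truncated cylinder models to the compression of cells

The inputs are `WFam n J` (the model structure on `Cosk J (cylI n M)`, natural in `M`, with end maps
model maps into `ckM J M`) and `RevFam n` (the natural reversal of cylinder cells). Both are produced
by the main induction.
-/

set_option autoImplicit false

open CategoryTheory CategoryTheory.Limits Opposite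
open Crest.GeometryTopology.Coherator

universe u

namespace Crest.Agent.Coh

open GlobTheory GlobTheory.GlobModel

variable {C : GlobTheory.{u}} [Kit C]

/-- The model structures on the truncated full cylinders. -/
structure WFam (C : GlobTheory.{u}) [Kit C] (n J : ℕ) where
  /-- the action of the theory -/
  Φ : ∀ M : Mdl C, GlobTheory.TheoryMap C (EndT (Cosk J (cylI n M)))
  map_comm : ∀ {M M' : Mdl C} (f : M ⟶ M'), Commutes (Φ M) (Φ M') (coskMap J (cylMap f))
  e1_comm : ∀ M : Mdl C, Commutes (Φ M) (ckM J M).Φ (coskMap J (e1G n Einf M))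
  e0_comm : ∀ M : Mdl C, Commutes (Φ M) (ckM J M).Φ (coskMap J (e0G n Einf M))

/-- The natural reversal of cylinder cells. -/
structure RevFam (C : GlobTheory.{u}) [Kit C] (n : ℕ) where
  /-- the reversal -/
  rv : ∀ M : Mdl C, cylI n M ⟶ cylI n M
  rv_z1 : ∀ (M : Mdl C) (j : ℕ) (c : PC n Einf M j),
    (PC.top (m := n) (E := Einf) ((rv M).app (op (GlobeObj.mk j)) c)).z1 = c.top.z0
  rv_z0 : ∀ (M : Mdl C) (j : ℕ) (c : PC n Einf M j),
    (PC.top (m := n) (E := Einf) ((rv M).app (op (GlobeObj.mk j)) c)).z0 = c.top.z1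
  rv_nat : ∀ {M M' : Mdl C} (f : M ⟶ M'), rv M ≫ cylMap f = cylMap f ≫ rv M'

theorem fc_etaC {P : GlobPsh.{u}} (k : ℕ) {i j : ℕ} (h : i < j) (b : Bool) (z : Cl P j) :
    fc (Cosk k P) h b (etaC k z) = etaC k (fc P h b z) :=
  (fc_nat (eta k P) h b z).symm

theorem CC_map_etaC {P Q : GlobPsh.{u}} (k : ℕ) (φ : P ⟶ Q) {j : ℕ} (z : Cl P j) :
    CC.map φ (etaC k z) = etaC k (φ.app _ z) :=
  congrFun (congrArg (fun f => f.app (op (GlobeObj.mk j))) (eta_coskMap k φ)) z |>.trans rfl


/-! ### The binary composite and the retraction filler -/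

/-- The binary composite at the lowest level. -/
noncomputable def comp2 (M : Mdl C) {n : ℕ} (x y : Cl M.G (n + 1)) : Cl M.G (n + 1) :=
  comp3 M x y (unitC M (fc M.G (Nat.lt_succ_self n) true y))

theorem comp2_faces (M : Mdl C) {n : ℕ} {x y : Cl M.G (n + 1)}
    (hm : fc M.G (Nat.lt_succ_self n) true x = fc M.G (Nat.lt_succ_self n) false y) :
    fc M.G (Nat.lt_succ_self n) false (comp2 M x y) = fc M.G (Nat.lt_succ_self n) false x ∧
    fc M.G (Nat.lt_succ_self n) true (comp2 M x y) = fc M.G (Nat.lt_succ_self n) true y := by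
  have := comp3_fc_base M (Nat.lt_succ_self n) hm (fc_unitC M _ false).symm
  rwa [fc_unitC] at this

theorem comp2_nat {M M' : Mdl C} (f : M ⟶ M') {n : ℕ} {x y : Cl M.G (n + 1)}
    (hm : fc M.G (Nat.lt_succ_self n) true x = fc M.G (Nat.lt_succ_self n) false y) :
    Mdl.cm f (comp2 M x y) = comp2 M' (Mdl.cm f x) (Mdl.cm f y) := by
  unfold comp2
  rw [comp3_nat f (Nat.lt_succ_self n) hm (fc_unitC M _ false).symm, unitC_nat]
  congr 2
  exact fc_nat _ _ _ _

/-- The chain of two `(n+1)`-globes. -/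
def S2 (n : ℕ) : Shape :=
  (Shape.globe (n + 1)).glue n (n + 1) (Nat.lt_succ_self n) (Nat.lt_succ_self n)

theorem dim_S2 (n : ℕ) : (S2 n).dim = n + 1 := by
  exact (Shape.dim_glue' _ _ _ _ _).trans (by simp [Shape.dim_globe'])

/-- First component of a chain. -/
noncomputable def x2 {P : GlobPsh.{u}} {n : ℕ} (τ : Tup P (S2 n)) : Cl P (n + 1) :=
  tCell (Tup.pre (Shape.inLeft _ _ _ _ _) τ)

/-- Second component of a chain. -/
noncomputable def y2 {P : GlobPsh.{u}} {n : ℕ} (τ : Tup P (S2 n)) : Cl P (n + 1) :=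
  Tup.last τ

theorem x2_map {P Q : GlobPsh.{u}} {n : ℕ} (τ : Tup P (S2 n)) (φ : P ⟶ Q) :
    x2 (τ ≫ φ) = φ.app _ (x2 τ) := rfl

theorem y2_map {P Q : GlobPsh.{u}} {n : ℕ} (τ : Tup P (S2 n)) (φ : P ⟶ Q) :
    y2 (τ ≫ φ) = φ.app _ (y2 τ) := rfl

theorem xy2_match {P : GlobPsh.{u}} {n : ℕ} (τ : Tup P (S2 n)) :
    fc P (Nat.lt_succ_self n) true (x2 τ) = fc P (Nat.lt_succ_self n) false (y2 τ) := by
  have := Tup.glue_match τ
  have e : ∀ σ : Tup P (Shape.globe (n + 1)), Tup.last σ = tCell σ := fun σ => by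
    change tCell (Tup.pre (𝟙 _) σ) = tCell σ
    rw [Tup.pre_id]
  rwa [e] at this

/-- The tuple of a chain. -/
noncomputable def tup2 {P : GlobPsh.{u}} {n : ℕ} (x y : Cl P (n + 1))
    (hm : fc P (Nat.lt_succ_self n) true x = fc P (Nat.lt_succ_self n) false y) : Tup P (S2 n) :=
  Tup.glueT (Nat.lt_succ_self n) (Nat.lt_succ_self n) (cellT x) y (by rw [last_cellT]; exact hm)

@[simp] theorem x2_tup2 {P : GlobPsh.{u}} {n : ℕ} (x y : Cl P (n + 1))
    (hm : fc P (Nat.lt_succ_self n) true x = fc P (Nat.lt_succ_self n) false y) :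
    x2 (tup2 x y hm) = x := by
  exact (congrArg tCell (Tup.pre_glueT (cellT x) y _)).trans (tCell_cellT x)

@[simp] theorem y2_tup2 {P : GlobPsh.{u}} {n : ℕ} (x y : Cl P (n + 1))
    (hm : fc P (Nat.lt_succ_self n) true x = fc P (Nat.lt_succ_self n) false y) :
    y2 (tup2 x y hm) = y := by
  unfold y2 tup2
  exact Tup.last_glueT _ _ _

/-- The natural filler `x ; y ; (x ; y)⁻¹ → 1`. -/
theorem exists_retFill (n : ℕ) : ∃ F : tupF C (S2 n) ⟶ cellF C (n + 1 + 1),
    ∀ (M : Mdl C) (τ : Tup M.G (S2 n)),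
      fc M.G (Nat.lt_succ_self (n + 1)) false (F.app M τ) =
        comp3 M (x2 τ) (y2 τ) (invC M (comp2 M (x2 τ) (y2 τ))) ∧
      fc M.G (Nat.lt_succ_self (n + 1)) true (F.app M τ) =
        unitC M (fc M.G (Nat.lt_succ_self n) false (x2 τ)) := by
  have hm2 : ∀ (M : Mdl C) (τ : Tup M.G (S2 n)),
      fc M.G (Nat.lt_succ_self n) true (y2 τ) =
        fc M.G (Nat.lt_succ_self n) false (invC M (comp2 M (x2 τ) (y2 τ))) := by
    intro M τ
    rw [fc_invC_false, (comp2_faces M (xy2_match τ)).2]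
  refine fillTup Kit.hC (S2 n) (n + 1) (by rw [dim_S2]; omega)
    (natOp (fun M τ => comp3 M (x2 τ) (y2 τ) (invC M (comp2 M (x2 τ) (y2 τ)))) ?_)
    (natOp (fun M τ => unitC M (fc M.G (Nat.lt_succ_self n) false (x2 τ))) ?_) ?_
  · intro M M' φ τ
    rw [comp3_nat φ (Nat.lt_succ_self n) (xy2_match τ) (hm2 M τ), invC_nat,
      comp2_nat φ (xy2_match τ)]
    rfl
  · intro M M' φ τ
    rw [unitC_nat]
    congr 1
    exact fc_nat _ _ _ _
  · intro M τ
    have hb := comp3_fc_base M (Nat.lt_succ_self n) (xy2_match τ) (hm2 M τ)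
    rw [natOp_app, natOp_app]
    apply Par.of_succ
    · rw [hb.1, fc_unitC]
    · rw [hb.2, fc_unitC, fc_invC_true, (comp2_faces M (xy2_match τ)).1]

/-- A cylinder cell over a cell starting at a given cylinder cell, with end-0 a unit. -/
theorem exists_cell_over {M : Mdl C} {n : ℕ} (c : PC n Einf M n) (β : Cl M.G (n + 1))
    (hβ : fc M.G (Nat.lt_succ_self n) false β = c.top.z1) :
    ∃ c' : PC n Einf M (n + 1), PC.face (Nat.lt_succ_self n) false c' = c ∧ c'.top.z1 = β ∧
      c'.top.z0 = unitC M c.top.z0 := by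
  have hsrc : fc M.G (Nat.lt_succ_self n) false c.top.lam = c.top.z1 := by
    rw [c.vt.src, conj_of_le n c.low _ le_rfl]
  have htgt : fc M.G (Nat.lt_succ_self n) true c.top.lam = c.top.z0 := c.vt.tgt
  let x : Cl M.G (n + 1) := invC M c.top.lam
  have hm : fc M.G (Nat.lt_succ_self n) true x = fc M.G (Nat.lt_succ_self n) false β := by
    rw [fc_invC_true, hsrc, hβ]
  have hc2 := comp2_faces M hm
  let Lt : Cl M.G (n + 1) := invC M (comp2 M x β)
  have hLs : fc M.G (Nat.lt_succ_self n) false Lt = fc M.G (Nat.lt_succ_self n) true β := by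
    rw [fc_invC_false, hc2.2]
  have hLt : fc M.G (Nat.lt_succ_self n) true Lt = c.top.z0 := by
    rw [fc_invC_true, hc2.1, fc_invC_false, htgt]
  have hbf : ∀ i' (h : i' < n) (b' : Bool),
      fc M.G (h.trans (Nat.lt_succ_self n)) b' β = (c.low i' h b').z1 := by
    intro i' h b'
    rw [← fc_fc M.G h (Nat.lt_succ_self n) b' false, hβ]
    exact c.vt.f1 i' h b'
  let t : PC n Einf M n :=
    { low := c.low
      top := ⟨fc M.G (Nat.lt_succ_self n) true β, c.top.z0, Lt⟩
      vl := c.vl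
      vt :=
        { f1 := fun i' h b' => by
            change fc M.G h b' (fc M.G (Nat.lt_succ_self n) true β) = _
            rw [fc_fc]
            exact hbf i' h b'
          f0 := c.vt.f0
          src := by
            change fc M.G (Nat.lt_succ_self n) false Lt = conj n c.low n (fc M.G (Nat.lt_succ_self n) true β)
            rw [hLs, conj_of_le n c.low _ le_rfl]
          tgt := hLt
          nm := fun h => by
            rcases h with h | h
            · exact absurd h (Nat.lt_irrefl n)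
            · exact h.elim } }
  obtain ⟨F, hF⟩ := exists_retFill (C := C) n
  let L : Cl M.G (n + 1 + 1) := F.app M (tup2 x β hm)
  have hL1 : fc M.G (Nat.lt_succ_self (n + 1)) false L = comp3 M x β Lt := by
    have := (hF M (tup2 x β hm)).1
    simp only [x2_tup2, y2_tup2] at this
    exact this
  have hL2 : fc M.G (Nat.lt_succ_self (n + 1)) true L = unitC M c.top.z0 := by
    have := (hF M (tup2 x β hm)).2
    simp only [x2_tup2] at this
    rw [fc_invC_false, htgt] at this
    exact this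
  refine ⟨PC.mk2 c t rfl ⟨β, unitC M c.top.z0, L⟩ ?_, PC.face_mk2_false _ _ _ _ _, rfl, rfl⟩
  refine ⟨fun i' h b' => ?_, fun i' h b' => ?_, ?_, hL2, fun h => ?_⟩
  · change fc M.G h b' β = _
    by_cases hi : i' < n
    · rw [low2_lt c t h b' hi]
      exact hbf i' hi b'
    · have hij : i' = n := by omega
      subst hij
      rw [low2_eq]
      cases b'
      · exact hβ
      · rfl
  · change fc M.G h b' (unitC M c.top.z0) = _
    by_cases hi : i' < n
    · rw [low2_lt c t h b' hi]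
      have e := fc_fc M.G hi (Nat.lt_succ_self n) b' false (unitC M c.top.z0)
      rw [fc_unitC] at e
      exact e.symm.trans (c.vt.f0 i' hi b')
    · have hij : i' = n := by omega
      subst hij
      rw [low2_eq, fc_unitC]
      cases b' <;> rfl
  · change fc M.G (Nat.lt_succ_self (n + 1)) false L = conj n (low2 c t) (n + 1) β
    rw [hL1, conj_succ_high n (low2 c t) β (Nat.lt_succ_self n) (Nat.lt_irrefl n),
      conj_of_le n (low2 c t) β le_rfl, low2_eq, low2_eq]
    rfl
  · rcases h with h | h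
    · omega
    · exact h.elim

namespace WFam

variable {n J : ℕ} (W : WFam C n J)

/-- The truncated cylinder as a model. -/
noncomputable def M (Z : Mdl C) : Mdl C := ⟨Cosk J (cylI n Z), W.Φ Z⟩

/-- Functoriality. -/
noncomputable def mapM {Z Z' : Mdl C} (f : Z ⟶ Z') : W.M Z ⟶ W.M Z' :=
  ⟨coskMap J (cylMap f), fun o τ => W.map_comm f o τ⟩

/-- The end-1 map. -/
noncomputable def e1 (Z : Mdl C) : W.M Z ⟶ ckM J Z :=
  ⟨coskMap J (e1G n Einf Z), fun o τ => W.e1_comm Z o τ⟩

/-- The end-0 map. -/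
noncomputable def e0 (Z : Mdl C) : W.M Z ⟶ ckM J Z :=
  ⟨coskMap J (e0G n Einf Z), fun o τ => W.e0_comm Z o τ⟩

theorem mapM_e1 {Z Z' : Mdl C} (f : Z ⟶ Z') : W.mapM f ≫ W.e1 Z' = W.e1 Z ≫ ckMap J f := by
  apply Mdl.Hom.ext
  rfl

theorem mapM_e0 {Z Z' : Mdl C} (f : Z ⟶ Z') : W.mapM f ≫ W.e0 Z' = W.e0 Z ≫ ckMap J f := by
  apply Mdl.Hom.ext
  rfl

/-- The end-1 map has the sphere lifting property. -/
theorem sphereLift_e1 (Z : Mdl C) : SphereLift (W.e1 Z) := by
  refine ⟨fun c => ?_, fun d x y hxy c h1 h2 => ?_⟩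
  · let z : Cl Z.G 0 := CC.top c (Nat.zero_le J)
    refine ⟨etaC J ((secL n Einf Z).app (op (GlobeObj.mk 0)) z), ?_⟩
    apply CC.ext
    · funext i hi
      exact absurd hi (Nat.not_lt_zero i)
    · funext hj
      have e : (secL n Einf Z ≫ e1G n Einf Z).app (op (GlobeObj.mk 0)) z = z := by
        rw [secL_e1]; rfl
      exact e
  · by_cases hd : d + 1 ≤ J
    · have hdJ : d ≤ J := by omega
      let xb : PC n Einf Z d := CC.top x hdJ
      let yb : PC n Einf Z d := CC.top y hdJ
      let z : Cl Z.G (d + 1) := CC.top c hd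
      have hlow : xb.low = yb.low := by
        rw [← par_cyl_iff]
        intro i hi b
        have e1 : fc (cylI n Z) hi b xb = CC.low x i hi (by omega) b := CC.ft x hdJ i hi b
        have e2 : fc (cylI n Z) hi b yb = CC.low y i hi (by omega) b := CC.ft y hdJ i hi b
        refine e1.trans (Eq.trans ?_ e2.symm)
        have := hxy i hi b
        have h3 : CC.face hi b x = CC.face hi b y := this
        exact congrFun (congrArg CC.top h3) (by omega)
      have hf : ∀ b : Bool, fc Z.G (Nat.lt_succ_self d) b z =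
          (PC.top (if b then yb else xb)).z1 := by
        intro b
        have e1 : fc Z.G (Nat.lt_succ_self d) b z = CC.low c d (Nat.lt_succ_self d) hdJ b :=
          CC.ft c hd d (Nat.lt_succ_self d) b
        rw [e1]
        cases b
        · have h3 : CC.face (Nat.lt_succ_self d) false c = CC.map (e1G n Einf Z) x := h1
          exact congrFun (congrArg CC.top h3) hdJ
        · have h3 : CC.face (Nat.lt_succ_self d) true c = CC.map (e1G n Einf Z) y := h2
          exact congrFun (congrArg CC.top h3) hdJ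
      have hz : ∀ i (h : i < d + 1) (b : Bool), fc Z.G h b z = (low2 xb yb i h b).z1 := by
        intro i h b
        by_cases hi : i < d
        · rw [low2_lt xb yb h b hi, ← fc_fc Z.G hi (Nat.lt_succ_self d) b false, hf false]
          exact xb.vt.f1 i hi b
        · have hij : i = d := by omega
          subst hij
          rw [low2_eq, hf b]
      let c0 : PC n Einf Z (d + 1) :=
        PC.mk2 xb yb hlow (normTr n (low2 xb yb) z) (normTr_valid (low2_vl xb yb hlow) z hz)
      refine ⟨etaC J (P := cylI n Z) (j := d + 1) c0, ?_, ?_, ?_⟩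
      · refine (fc_etaC (P := cylI n Z) J (Nat.lt_succ_self d) false c0).trans ?_
        refine (congrArg (etaC J (P := cylI n Z) (j := d)) (PC.face_mk2_false xb yb hlow _ _)).trans ?_
        exact CC.etaC_cell' hdJ x
      · refine (fc_etaC (P := cylI n Z) J (Nat.lt_succ_self d) true c0).trans ?_
        refine (congrArg (etaC J (P := cylI n Z) (j := d)) (PC.face_mk2_true xb yb hlow _ _)).trans ?_
        exact CC.etaC_cell' hdJ y
      · refine (CC_map_etaC J (e1G n Einf Z) (j := d + 1) c0).trans ?_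
        exact CC.etaC_cell' hd c
    · have hJ : J ≤ d := by omega
      refine ⟨CC.fill hJ x y hxy, CC.face_fill_false hJ x y hxy, CC.face_fill_true hJ x y hxy, ?_⟩
      apply CC.eq_of_par (show J < d + 1 by omega)
      apply Par.of_succ
      · refine (fc_nat (Mdl.Hom.φ (W.e1 Z)) (Nat.lt_succ_self d) false (CC.fill hJ x y hxy)).symm.trans ?_
        refine Eq.trans ?_ h1.symm
        exact congrArg (Mdl.cm (W.e1 Z)) (CC.face_fill_false hJ x y hxy)
      · refine (fc_nat (Mdl.Hom.φ (W.e1 Z)) (Nat.lt_succ_self d) true (CC.fill hJ x y hxy)).symm.trans ?_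
        refine Eq.trans ?_ h2.symm
        exact congrArg (Mdl.cm (W.e1 Z)) (CC.face_fill_true hJ x y hxy)

end WFam

theorem homTo_inj {Y : C.GlobModel} {M : Mdl C} {h h' : toMdl Y ⟶ M} (e : homTo h = homTo h') :
    h = h' := by
  rw [← homFrom_homTo h, e, homFrom_homTo]

theorem unitC_toMdl (X : C.GlobModel) {n : ℕ} (x : Cl (toMdl X).G n) :
    unitC (toMdl X) x = X.unitCell Kit.e n x := by
  have e : tupOf X (S := Shape.globe n) x = cellT x := by
    have h := congrArg cellT (tCell_tupOf X x)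
    rw [cellT_tCell] at h
    exact h
  unfold unitC
  rw [← e]
  unfold Mdl.opC
  refine (congrArg tCell (tupOf_act X (Kit.e.unit n) x).symm).trans ?_
  exact tCell_tupOf X _

section H

variable {n J : ℕ} (W : WFam C n J)
variable {X Y : C.GlobModel} {a : diskModel C n ⟶ X} {i : X ⟶ Y} {b : diskModel C (n + 1) ⟶ Y}

include W in
theorem exists_H (hJ : n + 1 ≤ J) (sq : IsPushout a (sourceIncl C n) i b)
    (s : toMdl X ⟶ W.M (toMdl X)) (hs : s ≫ W.e1 (toMdl X) = etaM J (toMdl X)) :
    ∃ H : toMdl Y ⟶ W.M (toMdl Y),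
      toMdlMap i ≫ H = s ≫ W.mapM (toMdlMap i) ∧
      H ≫ W.e1 (toMdl Y) = etaM J (toMdl Y) ∧
      H ≫ W.e0 (toMdl Y) = toMdlMap (pushoutRetraction Kit.e sq) ≫ s ≫ W.e0 (toMdl X) ≫
        ckMap J (toMdlMap i) := by
  have hnJ : n ≤ J := by omega
  let fi : toMdl X ⟶ toMdl Y := toMdlMap i
  let ac : Cl (toMdl X).G n := diskCell a
  let bc : Cl (toMdl Y).G (n + 1) := diskCell b
  have hsb : fc (toMdl Y).G (Nat.lt_succ_self n) false bc = Mdl.cm fi ac := by
    have h1 := congrArg diskCell sq.w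
    rw [diskCell_comp, diskCell_sourceIncl] at h1
    exact h1.symm
  let ca : PC n Einf (toMdl X) n := CC.top (Mdl.cm s ac) hnJ
  have hsa : Mdl.cm s ac = etaC J (P := cylI n (toMdl X)) ca := (CC.etaC_cell' hnJ _).symm
  have hcaz1 : ca.top.z1 = ac := by
    have h1 : Mdl.cm (s ≫ W.e1 (toMdl X)) ac = Mdl.cm (etaM J (toMdl X)) ac := by rw [hs]
    exact congrFun (congrArg CC.top h1) hnJ
  let ca' : PC n Einf (toMdl Y) n := (cylMap fi).app (op (GlobeObj.mk n)) ca
  have hca'z1 : ca'.top.z1 = Mdl.cm fi ac := congrArg (Mdl.cm fi) hcaz1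
  obtain ⟨cb, hb1, hb2, hb3⟩ := exists_cell_over ca' bc (hsb.trans hca'z1.symm)
  let cbE : Cl (W.M (toMdl Y)).G (n + 1) := etaC J (P := cylI n (toMdl Y)) cb
  have hface : fc (W.M (toMdl Y)).G (Nat.lt_succ_self n) false cbE =
      Mdl.cm (s ≫ W.mapM fi) ac := by
    refine (fc_etaC (P := cylI n (toMdl Y)) J (Nat.lt_succ_self n) false cb).trans ?_
    have h1 : Mdl.cm (W.mapM fi) (Mdl.cm s ac) = etaC J (P := cylI n (toMdl Y)) ca' := by
      rw [hsa]
      exact CC_map_etaC J (cylMap fi) ca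
    refine Eq.trans ?_ h1.symm
    exact congrArg (etaC J (P := cylI n (toMdl Y)) (j := n)) hb1
  have hw : a ≫ homTo (s ≫ W.mapM fi) = sourceIncl C n ≫ diskHom (ofCell cbE) := by
    apply diskHom_ext
    rw [diskCell_comp, diskCell_sourceIncl, diskCell_diskHom]
    apply unCell_inj
    rw [unCell_src, unCell_ofCell, unCell_homTo]
    exact hface.symm
  let H' : Y ⟶ ofMdl (W.M (toMdl Y)) :=
    sq.desc (homTo (s ≫ W.mapM fi)) (diskHom (ofCell cbE)) hw
  have HI : i ≫ H' = homTo (s ≫ W.mapM fi) := sq.inl_desc _ _ _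
  have HB : b ≫ H' = diskHom (ofCell cbE) := sq.inr_desc _ _ _
  refine ⟨homFrom H', ?_, ?_, ?_⟩
  · apply homTo_inj
    rw [homTo_precomp, homTo_homFrom, HI]
  · apply homTo_inj
    rw [homTo_comp, homTo_homFrom]
    apply sq.hom_ext
    · rw [← Category.assoc, HI, ← homTo_comp, ← homTo_precomp]
      congr 1
      rw [Category.assoc, W.mapM_e1, ← Category.assoc, hs, etaM_ckMap]
    · rw [← Category.assoc, HB]
      apply diskHom_ext
      rw [diskCell_comp, diskCell_comp, diskCell_diskHom]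
      apply unCell_inj
      rw [unCell_map, unCell_ofCell, unCell_homTo]
      refine (CC_map_etaC J (e1G n Einf (toMdl Y)) (j := n + 1) cb).trans ?_
      exact congrArg (etaC J (P := (toMdl Y).G) (j := n + 1)) hb2
  · apply homTo_inj
    rw [homTo_comp, homTo_homFrom, homTo_precomp]
    apply sq.hom_ext
    · rw [← Category.assoc, HI, ← homTo_comp, ← Category.assoc i, inl_pushoutRetraction,
        Category.id_comp]
      congr 1
    · rw [← Category.assoc, HB, ← Category.assoc b, inr_pushoutRetraction]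
      apply diskHom_ext
      rw [diskCell_comp, diskCell_comp, diskCell_diskHom]
      apply unCell_inj
      rw [unCell_map, unCell_ofCell, unCell_homTo]
      unfold unitHom
      rw [diskCell_diskHom]
      change Mdl.cm (W.e0 (toMdl Y)) cbE = Mdl.cm (s ≫ W.e0 (toMdl X) ≫ ckMap J fi)
        (X.unitCell Kit.e n ac)
      rw [← unitC_toMdl X ac, unitC_nat]
      have h1 : Mdl.cm (s ≫ W.e0 (toMdl X) ≫ ckMap J fi) ac =
          Mdl.cm (etaM J (toMdl Y)) ca'.top.z0 := by
        change Mdl.cm (ckMap J fi) (Mdl.cm (W.e0 (toMdl X)) (Mdl.cm s ac)) = _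
        rw [hsa]
        have h2 : Mdl.cm (W.e0 (toMdl X)) (etaC J (P := cylI n (toMdl X)) ca) =
            etaC J (P := (toMdl X).G) ca.top.z0 := CC_map_etaC J (e0G n Einf (toMdl X)) (j := n) ca
        rw [h2]
        exact CC_map_etaC J (Mdl.Hom.φ fi) (j := n) ca.top.z0
      rw [h1, ← unitC_nat]
      refine (CC_map_etaC J (e0G n Einf (toMdl Y)) (j := n + 1) cb).trans ?_
      exact congrArg (etaC J (P := (toMdl Y).G) (j := n + 1)) hb3

end H

/-- Tops of faces of a cell of a coskeleton, for a map into the coskeleton. -/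
theorem top_fc {J : ℕ} {Q P : GlobPsh.{u}} (α : Q ⟶ Cosk J P) {i j : ℕ} (h : i < j) (hj : j ≤ J)
    (b : Bool) (x : Cl Q j) :
    fc P h b (CC.top (α.app (op (GlobeObj.mk j)) x) hj) =
      CC.top (α.app (op (GlobeObj.mk i)) (fc Q h b x)) (lt_of_lt_of_le h hj).le := by
  refine (CC.ft _ hj i h b).trans ?_
  have e : CC.face h b (α.app (op (GlobeObj.mk j)) x) = α.app (op (GlobeObj.mk i)) (fc Q h b x) :=
    (fc_nat α h b x).symm
  exact congrFun (congrArg CC.top e) (lt_of_lt_of_le h hj).le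

section Compress

variable {n J : ℕ} (W : WFam C n J) (Rv : RevFam C n)
variable {X Y : C.GlobModel} {a : diskModel C n ⟶ X} {i : X ⟶ Y} {b : diskModel C (n + 1) ⟶ Y}

include W Rv in
theorem compress (hJ : n + 1 ≤ J) (P : X.CellPresentation)
    (sq : IsPushout a (sourceIncl C n) i b) :
    (∀ z : Y.cells.cell 0, ∃ w : X.cells.cell 0, Y.cells.Step 0 ((cellsMap i).app 0 w) z) ∧
    (∀ (d : ℕ), d + 1 ≤ J → ∀ (u v : X.cells.cell d) (z : Y.cells.cell (d + 1)),
      Y.cells.src d z = (cellsMap i).app d u → Y.cells.tgt d z = (cellsMap i).app d v →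
      ∃ w : X.cells.cell (d + 1), X.cells.src d w = u ∧ X.cells.tgt d w = v ∧
        Y.cells.Step (d + 1) ((cellsMap i).app (d + 1) w) z) := by
  obtain ⟨s, hs⟩ := cellular_lift P (W.sphereLift_e1 (toMdl X)) (etaM J (toMdl X))
  obtain ⟨H, HI, H1, H0⟩ := exists_H W hJ sq s hs
  let fi : toMdl X ⟶ toMdl Y := toMdlMap i
  let r : Y ⟶ X := pushoutRetraction Kit.e sq
  have hri : i ≫ r = 𝟙 X := inl_pushoutRetraction Kit.e sq
  -- end-1 of `s` and `H`
  have ks1 : ∀ (j : ℕ) (hj : j ≤ J) (x : Cl (toMdl X).G j),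
      (PC.top (m := n) (E := Einf) (CC.top (Mdl.cm s x) hj)).z1 = x := by
    intro j hj x
    have h1 : Mdl.cm (s ≫ W.e1 (toMdl X)) x = Mdl.cm (etaM J (toMdl X)) x := by rw [hs]
    exact congrFun (congrArg CC.top h1) hj
  have kH1 : ∀ (j : ℕ) (hj : j ≤ J) (z : Cl (toMdl Y).G j),
      (PC.top (m := n) (E := Einf) (CC.top (Mdl.cm H z) hj)).z1 = z := by
    intro j hj z
    have h1 : Mdl.cm (H ≫ W.e1 (toMdl Y)) z = Mdl.cm (etaM J (toMdl Y)) z := by rw [H1]
    exact congrFun (congrArg CC.top h1) hj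
  -- end-0 of `H`
  have kH0 : ∀ (j : ℕ) (hj : j ≤ J) (z : Cl (toMdl Y).G j),
      (PC.top (m := n) (E := Einf) (CC.top (Mdl.cm H z) hj)).z0 =
        Mdl.cm fi (PC.top (m := n) (E := Einf)
          (CC.top (Mdl.cm s (Mdl.cm (toMdlMap r) z)) hj)).z0 := by
    intro j hj z
    have h1 : Mdl.cm (H ≫ W.e0 (toMdl Y)) z = Mdl.cm (toMdlMap r ≫ s ≫ W.e0 (toMdl X) ≫
        ckMap J (toMdlMap i)) z := by rw [H0]
    exact congrFun (congrArg CC.top h1) hj
  -- `H` on cells of `X`
  have kHI : ∀ (j : ℕ) (hj : j ≤ J) (x : Cl (toMdl X).G j),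
      (CC.top (Mdl.cm H (Mdl.cm fi x)) hj : PC n Einf (toMdl Y) j) =
        (cylMap fi).app (op (GlobeObj.mk j)) (CC.top (Mdl.cm s x) hj) := by
    intro j hj x
    have h1 : Mdl.cm (toMdlMap i ≫ H) x = Mdl.cm (s ≫ W.mapM fi) x := by rw [HI]
    exact congrFun (congrArg CC.top h1) hj
  have hrfi : ∀ (j : ℕ) (x : Cl (toMdl X).G j), Mdl.cm (toMdlMap r) (Mdl.cm fi x) = x :=
    fun j x => retr_app hri j x
  have main : ∀ (d : ℕ), d + 1 ≤ J → ∀ (u v : Cl (toMdl X).G d) (z : Cl (toMdl Y).G (d + 1)),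
      fc (toMdl Y).G (Nat.lt_succ_self d) false z = Mdl.cm fi u →
      fc (toMdl Y).G (Nat.lt_succ_self d) true z = Mdl.cm fi v →
      ∃ w : Cl (toMdl X).G (d + 1), fc (toMdl X).G (Nat.lt_succ_self d) false w = u ∧
        fc (toMdl X).G (Nat.lt_succ_self d) true w = v ∧
        ∃ h : Cl (toMdl Y).G (d + 1 + 1), fc (toMdl Y).G (Nat.lt_succ_self (d + 1)) false h = Mdl.cm fi w ∧
          fc (toMdl Y).G (Nat.lt_succ_self (d + 1)) true h = z := by
    intro d hd u v z hzu' hzv'
    have hdJ : d ≤ J := by omega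
    have lt : d < d + 1 := Nat.lt_succ_self d
    -- `u`, `v` are parallel
    have hpar : ∀ i' (h : i' < d) (b' : Bool), fc (toMdl X).G h b' u = fc (toMdl X).G h b' v := by
      intro i' h b'
      have e1 : fc (toMdl Y).G h b' (Mdl.cm fi u) = fc (toMdl Y).G h b' (Mdl.cm fi v) := by
        rw [← hzu', ← hzv', fc_fc, fc_fc]
      have e2 : Mdl.cm fi (fc (toMdl X).G h b' u) = Mdl.cm fi (fc (toMdl X).G h b' v) :=
        (fc_nat (Mdl.Hom.φ fi) h b' u).trans (e1.trans (fc_nat (Mdl.Hom.φ fi) h b' v).symm)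
      have e3 := congrArg (Mdl.cm (toMdlMap r)) e2
      rwa [hrfi, hrfi] at e3
    let cu : PC n Einf (toMdl X) d := CC.top (Mdl.cm s u) hdJ
    let cv : PC n Einf (toMdl X) d := CC.top (Mdl.cm s v) hdJ
    have hcuv : Par (cylI n (toMdl X)) (k := d) cu cv := by
      intro i' h b'
      have e1 := top_fc (Mdl.Hom.φ s) h hdJ b' u
      have e2 := top_fc (Mdl.Hom.φ s) h hdJ b' v
      refine e1.trans (Eq.trans ?_ e2.symm)
      exact congrArg (fun y : Cl (toMdl X).G i' => CC.top (Mdl.cm s y) (lt_of_lt_of_le h hdJ).le)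
        (hpar i' h b')
    let c : PC n Einf (toMdl Y) (d + 1) := CC.top (Mdl.cm H z) hd
    have hfc : ∀ (b' : Bool) (t : Cl (toMdl X).G d), fc (toMdl Y).G lt b' z = Mdl.cm fi t →
        fc (cylI n (toMdl Y)) lt b' c = (cylMap fi).app (op (GlobeObj.mk d)) (CC.top (Mdl.cm s t) hdJ) := by
      intro b' t ht
      refine (top_fc (Mdl.Hom.φ H) lt hd b' z).trans ?_
      refine Eq.trans ?_ (kHI d hdJ t)
      exact congrArg (fun y : Cl (toMdl Y).G d => CC.top (Mdl.cm H y) hdJ) ht
    let rvX : cylI n (toMdl X) ⟶ cylI n (toMdl X) := Rv.rv (toMdl X)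
    let rvY : cylI n (toMdl Y) ⟶ cylI n (toMdl Y) := Rv.rv (toMdl Y)
    let Ru : PC n Einf (toMdl X) d := rvX.app (op (GlobeObj.mk d)) cu
    let Rw : PC n Einf (toMdl X) d := rvX.app (op (GlobeObj.mk d)) cv
    let Rc : PC n Einf (toMdl Y) (d + 1) := rvY.app (op (GlobeObj.mk (d + 1))) c
    have hRuv : Ru.low = Rw.low := by
      rw [← par_cyl_iff]
      intro i' h b'
      refine (fc_nat rvX h b' cu).symm.trans (Eq.trans ?_ (fc_nat rvX h b' cv))
      exact congrArg (rvX.app (op (GlobeObj.mk i'))) (hcuv i' h b')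
    have hnatR : ∀ y : PC n Einf (toMdl X) d, rvY.app (op (GlobeObj.mk d))
        ((cylMap fi).app (op (GlobeObj.mk d)) y) =
        (cylMap fi).app (op (GlobeObj.mk d)) (rvX.app (op (GlobeObj.mk d)) y) := by
      intro y
      have := congrFun (congrArg (fun f => (f.app (op (GlobeObj.mk d)) : _ → _)) (Rv.rv_nat fi)) y
      exact this.symm
    have hRf : PC.face lt false Rc = (cylMap fi).app (op (GlobeObj.mk d)) Ru := by
      have e1 : PC.face lt false Rc = rvY.app (op (GlobeObj.mk d)) (fc (cylI n (toMdl Y)) lt false c) :=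
        (fc_nat rvY lt false c).symm
      rw [e1, hfc false u hzu']
      exact hnatR cu
    have hRt : PC.face lt true Rc = (cylMap fi).app (op (GlobeObj.mk d)) Rw := by
      have e1 : PC.face lt true Rc = rvY.app (op (GlobeObj.mk d)) (fc (cylI n (toMdl Y)) lt true c) :=
        (fc_nat rvY lt true c).symm
      rw [e1, hfc true v hzv']
      exact hnatR cv
    have hRlow : Rc.low = fun i' h b' => mapTr fi (low2 Ru Rw i' h b') := by
      rw [low_eq_low2 Rc, hRf, hRt]
      exact low2_map fi Ru Rw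
    -- the end-0 cell
    let T : PC n Einf (toMdl X) (d + 1) := CC.top (Mdl.cm s (Mdl.cm (toMdlMap r) z)) hd
    let x0 : Cl (toMdl X).G (d + 1) := T.top.z0
    have hT : ∀ (b' : Bool) (t : Cl (toMdl X).G d), fc (toMdl Y).G lt b' z = Mdl.cm fi t →
        fc (toMdl X).G lt b' x0 = (PC.top (m := n) (E := Einf) (CC.top (Mdl.cm s t) hdJ)).z0 := by
      intro b' t ht
      refine (T.vt.f0 d lt b').trans ?_
      have e1 := top_fc (Mdl.Hom.φ s) lt hd b' (Mdl.cm (toMdlMap r) z)
      have e2 : fc (toMdl X).G lt b' (Mdl.cm (toMdlMap r) z) = t := by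
        have := fc_nat (Mdl.Hom.φ (toMdlMap r)) lt b' z
        refine this.symm.trans ?_
        change Mdl.cm (toMdlMap r) (fc (toMdl Y).G lt b' z) = t
        rw [ht, hrfi]
      rw [e2] at e1
      exact congrArg (fun y : PC n Einf (toMdl X) d => y.top.z0) e1
    have hx0f : fc (toMdl X).G lt false x0 = Ru.top.z1 :=
      (hT false u hzu').trans (Rv.rv_z1 (toMdl X) d cu).symm
    have hx0t : fc (toMdl X).G lt true x0 = Rw.top.z1 :=
      (hT true v hzv').trans (Rv.rv_z1 (toMdl X) d cv).symm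
    let L : Low (toMdl X) (d + 1) := low2 Ru Rw
    have hl : VLow n Einf L := low2_vl Ru Rw hRuv
    have Hy : ∀ i' (h : i' < d + 1) (b' : Bool), fc (toMdl X).G h b' x0 = (L i' h b').z1 := by
      intro i' h b'
      by_cases hi : i' < d
      · have e1 : L i' h b' = Ru.low i' hi b' := low2_lt Ru Rw h b' hi
        rw [e1, ← fc_fc (toMdl X).G hi lt b' false, hx0f]
        exact Ru.vt.f1 i' hi b'
      · have hij : i' = d := by omega
        subst hij
        have e1 : L i' h b' = (if b' then Rw else Ru).top := low2_eq Ru Rw b'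
        rw [e1]
        cases b'
        · exact hx0f
        · exact hx0t
    let w : Cl (toMdl X).G (d + 1) := conj n L (d + 1) x0
    have hspec := (conj_spec hl x0 (d + 1) le_rfl le_rfl Hy).1
    have hw : Mdl.cm fi w = conj n (fun i' h b' => mapTr fi (L i' h b')) (d + 1) (Mdl.cm fi x0) :=
      conj_nat fi hl x0 (d + 1) le_rfl le_rfl Hy
    refine ⟨w, ?_, ?_, Rc.top.lam, ?_, ?_⟩
    · have e1 := hspec d lt false
      have e2 : L d lt false = Ru.top := low2_eq Ru Rw false
      rw [e2] at e1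
      refine e1.trans ?_
      exact (Rv.rv_z0 (toMdl X) d cu).trans (ks1 d hdJ u)
    · have e1 := hspec d lt true
      have e2 : L d lt true = Rw.top := low2_eq Ru Rw true
      rw [e2] at e1
      refine e1.trans ?_
      exact (Rv.rv_z0 (toMdl X) d cv).trans (ks1 d hdJ v)
    · refine Rc.vt.src.trans ?_
      have e1 : Rc.top.z1 = Mdl.cm fi x0 := (Rv.rv_z1 (toMdl Y) _ c).trans (kH0 _ hd z)
      rw [e1, hRlow]
      exact hw.symm
    · refine Rc.vt.tgt.trans ?_
      exact (Rv.rv_z0 (toMdl Y) _ c).trans (kH1 _ hd z)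
  refine ⟨fun z => ?_, fun d hd u v z hzu hzv => ?_⟩
  · have h0J : 0 ≤ J := Nat.zero_le J
    let c : PC n Einf (toMdl Y) 0 := CC.top (Mdl.cm H z) h0J
    let Rc : PC n Einf (toMdl Y) 0 := (Rv.rv (toMdl Y)).app (op (GlobeObj.mk 0)) c
    refine ⟨(PC.top (m := n) (E := Einf) (CC.top (Mdl.cm s (Mdl.cm (toMdlMap r) z)) h0J)).z0,
      Rc.top.lam, ?_, ?_⟩
    · refine Rc.vt.src.trans ?_
      exact (Rv.rv_z1 (toMdl Y) 0 c).trans (kH0 0 h0J z)
    · refine Rc.vt.tgt.trans ?_
      exact (Rv.rv_z0 (toMdl Y) 0 c).trans (kH1 0 h0J z)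
  · exact main d hd u v z hzu hzv

end Compress

/-- The final theorem, from the model structures on the cylinders and the reversals. -/
theorem weakEquiv_of_pkg (hW : ∀ n J, Nonempty (WFam C n J)) (hR : ∀ n, Nonempty (RevFam C n))
    {X Y : C.GlobModel} (hX : X.IsCellularModel) {n : ℕ} {a : diskModel C n ⟶ X} {i : X ⟶ Y}
    {b : diskModel C (n + 1) ⟶ Y} (sq : IsPushout a (sourceIncl C n) i b) :
    IsWeakEquiv Kit.e i := by
  obtain ⟨P⟩ := hX
  obtain ⟨R⟩ := hR n
  refine isWeakEquiv_of_retraction_compress Kit.e i (pushoutRetraction Kit.e sq)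
    (inl_pushoutRetraction Kit.e sq) ?_ ?_
  · obtain ⟨W⟩ := hW n (n + 1)
    exact (compress W R le_rfl P sq).1
  · intro d u v z h1 h2
    obtain ⟨W⟩ := hW n (n + 1 + (d + 1))
    exact (compress W R (by omega) P sq).2 d (by omega) u v z h1 h2

end Crest.Agent.Coh
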