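import Crest.Agent.Lib.Coh.Final
import Crest.Agent.Lib.Coh.MainInd

/-!
# Wiring `Final` to the main induction
-/

set_option autoImplicit false

open CategoryTheory CategoryTheory.Limits Opposite
open Crest.GeometryTopology.Coherator

universe u

namespace Crest.Agent.Coh

open GlobTheory GlobTheory.GlobModel

variable {C : GlobTheory.{u}} [Kit C]

/-- `WData` is the interface of `Final`. -/
def wFamOfData {n J : ℕ} (D : WData C n J) : WFam C n J :=
  ⟨D.Φ, fun f => D.nat f, D.e1, D.e0⟩

/-- The reversal of a cell. -/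
noncomputable def revCell {n j : ℕ} (hR : ∀ j, RevGood C n j) {M : Mdl C} (c : PC n Einf M j) :
    PC n Einf M j where
  low := lowRev c
  top := revTop c
  vl := lowRev_vl (fun i _ => hR i) c
  vt := (hR j).vt M c

theorem revCell_face {n i j : ℕ} (hR : ∀ j, RevGood C n j) {M : Mdl C} (h : i < j) (b : Bool)
    (c : PC n Einf M j) : revCell hR (PC.face h b c) = PC.face h b (revCell hR c) := by
  apply PC.ext
  · funext i' h' b'
    rfl
  · rfl

/-- The reversal as a family of maps of presheaves. -/
noncomputable def revFamOf {n : ℕ} (hR : ∀ j, RevGood C n j) : RevFam C n where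
  rv M := mkHom (P := cylI n M) (Q := cylI n M) (fun j (c : PC n Einf M j) => revCell hR c)
    (fun h b c => revCell_face hR h b c)
  rv_z1 _ _ _ := rfl
  rv_z0 _ _ _ := rfl
  rv_nat {M M'} f := by
    apply hom_ext'
    intro j (c : PC n Einf M j)
    apply PC.ext
    · exact lowRev_nat (fun i _ => hR i) f c
    · apply Tr.ext
      · rfl
      · rfl
      · exact (hR j).nat f c

/-- The final theorem from all the filling hypotheses. -/
theorem weakEquiv_of_fillHyp (hF : ∀ m k, FillHyp C m k)
    {X Y : C.GlobModel} (hX : X.IsCellularModel) {n : ℕ} {a : diskModel C n ⟶ X} {i : X ⟶ Y}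
    {b : diskModel C (n + 1) ⟶ Y} (sq : IsPushout a (sourceIncl C n) i b) :
    IsWeakEquiv Kit.e i := by
  refine weakEquiv_of_pkg (fun n J => ?_) (fun n => ?_) hX sq
  · obtain ⟨D⟩ := exists_WData (hF n J)
    exact ⟨wFamOfData D⟩
  · exact ⟨revFamOf (fun j => rev_good (hF n j) j le_rfl)⟩

/-- S0382 from the two inductive steps. -/
theorem weakEquiv_of_steps (hT : TransferStep C) (hC : CombStep C)
    {X Y : C.GlobModel} (hX : X.IsCellularModel) {n : ℕ} {a : diskModel C n ⟶ X} {i : X ⟶ Y}
    {b : diskModel C (n + 1) ⟶ Y} (sq : IsPushout a (sourceIncl C n) i b) :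
    IsWeakEquiv Kit.e i :=
  weakEquiv_of_fillHyp (fillHyp_all hT hC) hX sq

end Crest.Agent.Coh
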