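import Crest.Agent.Lib.Coh.Conv

/-!
# Free models; natural operations on tuples are operations of the theory; `fillTup`
-/

set_option autoImplicit false

open CategoryTheory CategoryTheory.Limits Opposite
open Crest.GeometryTopology.Coherator

universe u

namespace Crest.Agent.Coh

variable {C : GlobTheory.{u}}

/-- The free model on a shape. -/
noncomputable def freeM (C : GlobTheory.{u}) (T : Shape) : Mdl C :=
  toMdl (GlobTheory.GlobModel.freeOn C T)

/-- A cell of the free model is an operation. -/
abbrev freeCell (C : GlobTheory.{u}) (T : Shape) (k : ℕ) : Cl (freeM C T).G k = C.arr (Shape.globe k) T :=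
  rfl

/-- The generic tuple of the free model. -/
noncomputable def genT (C : GlobTheory.{u}) (T : Shape) : Tup (freeM C T).G T :=
  tupOf (GlobTheory.GlobModel.freeOn C T) (C.one T)

theorem tCell_pre_shapeOf {P : GlobPsh.{u}} {S : Shape} {n : ℕ} (σ : Tup P S)
    (u' : S.psh.obj (op (GlobeObj.mk n))) :
    tCell (Tup.pre (shapeOf u') σ) = σ.app (op (GlobeObj.mk n)) (ULift.up u') := by
  change σ.app (op (GlobeObj.mk n)) (ULift.up ((yonedaEquiv.symm u').app (op (GlobeObj.mk n)) (𝟙 _))) = _
  congr 2
  have := yonedaEquiv.apply_symm_apply u'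
  exact this

theorem fc_free (T : Shape) {i j : ℕ} (h : i < j) (b : Bool) (o : C.arr (Shape.globe j) T) :
    fc (freeM C T).G h b o = C.seq (C.ofShape (Shape.faceMap h b)) o := rfl

theorem tCell_pre_face {P : GlobPsh.{u}} {m n : ℕ} (h : m < n) (b : Bool)
    (σ : Tup P (Shape.globe n)) : tCell (Tup.pre (Shape.faceMap h b) σ) = fc P h b (tCell σ) := by
  conv_lhs => rw [← cellT_tCell σ]
  rw [pre_face_cellT, tCell_cellT]

/-- The map out of the free model classifying a tuple. -/
noncomputable def evPhi (M : Mdl C) {T : Shape} (τ : Tup M.G T) : (freeM C T).G ⟶ M.G :=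
  mkHom (P := (freeM C T).G) (Q := M.G) (fun n o => M.opC (T := T) (k := n) o τ) (by
    intro i j h b o
    change M.opC (C.seq (C.ofShape (Shape.faceMap h b)) o) τ = fc M.G h b (M.opC o τ)
    unfold Mdl.opC
    rw [M.act_seq, M.act_ofShape]
    exact tCell_pre_face h b _)

theorem tupOf_ev (M : Mdl C) {T S : Shape} (τ : Tup M.G T) (q : C.arr S T) :
    tupOf (GlobTheory.GlobModel.freeOn C T) q ≫ evPhi M τ = M.act q τ := by
  ext ⟨⟨n⟩⟩ ⟨u'⟩
  change M.opC (C.seq (C.ofShape (shapeOf u')) q) τ = (M.act q τ).app (op (GlobeObj.mk n)) (ULift.up u')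
  unfold Mdl.opC
  rw [M.act_seq, M.act_ofShape, tCell_pre_shapeOf]

/-- The morphism out of the free model classifying a tuple. -/
noncomputable def evM (M : Mdl C) {T : Shape} (τ : Tup M.G T) : freeM C T ⟶ M where
  φ := evPhi M τ
  comm {S S'} o τ' := by
    obtain ⟨q, rfl⟩ := (tupOf_bijective (GlobTheory.GlobModel.freeOn C T) S').2 τ'
    have e1 : (freeM C T).act o (tupOf (GlobTheory.GlobModel.freeOn C T) q) =
        tupOf (GlobTheory.GlobModel.freeOn C T) (C.seq o q) :=
      (tupOf_act _ o q).symm
    rw [e1]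
    exact (tupOf_ev M τ (C.seq o q)).trans ((M.act_seq o q τ).trans
      (congrArg (M.act o) (tupOf_ev M τ q).symm))

theorem genT_ev (M : Mdl C) {T : Shape} (τ : Tup M.G T) :
    genT C T ≫ Mdl.Hom.φ (evM M τ) = τ := by
  have := tupOf_ev M τ (C.one T)
  rw [M.act_one] at this
  exact this

/-- Yoneda: a natural operation on `T`-tuples is given by an operation of the theory. -/
theorem natOp_rep {T : Shape} {k : ℕ} (A : tupF C T ⟶ cellF C k) (M : Mdl C) (τ : Tup M.G T) :
    A.app M τ = M.opC (T := T) (A.app (freeM C T) (genT C T)) τ := by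
  have h := nat_apply A (evM M τ) (genT C T)
  have e : (tupF C T).map (evM M τ) (genT C T) = τ := genT_ev M τ
  rw [e] at h
  exact h.symm

/-- The filling hypothesis of a coherator. -/
def HasFillers (C : GlobTheory.{u}) : Prop :=
  ∀ p : C.Admissible, ∃ z, GlobTheory.IsFillerAlong (GlobTheory.TheoryMap.id C) p z

/-- `Fill` for tuples of a shape of height at most `k + 1`. -/
theorem fillTup (hC : HasFillers C) (T : Shape) (k : ℕ) (hT : T.dim ≤ k + 1) :
    Fill (tupF C T) k := by
  intro A B hp
  let oA : C.arr (Shape.globe k) T := A.app (freeM C T) (genT C T)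
  let oB : C.arr (Shape.globe k) T := B.app (freeM C T) (genT C T)
  have hpar : C.OpsParallel k oA oB := by
    cases k with
    | zero => trivial
    | succ k =>
      have hf := hp (freeM C T) (genT C T)
      exact ⟨hf k (Nat.lt_succ_self k) false, hf k (Nat.lt_succ_self k) true⟩
  obtain ⟨z, hz1, hz2⟩ := hC ⟨k, T, hT, oA, oB, hpar⟩
  refine ⟨natOp (fun M τ => M.opC (T := T) z τ) (fun φ τ => Mdl.opC_nat φ z τ), fun M τ => ?_⟩
  have key : ∀ (b : Bool) (o : C.arr (Shape.globe k) T),
      C.seq (C.ofShape (Shape.faceMap (Nat.lt_succ_self k) b)) z = o →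
      fc M.G (Nat.lt_succ_self k) b (M.opC z τ) = M.opC o τ := by
    intro b o ho
    rw [← ho]
    unfold Mdl.opC
    rw [M.act_seq, M.act_ofShape]
    exact (tCell_pre_face _ b _).symm
  constructor
  · rw [natOp_app, natOp_rep A M τ]
    exact key false _ hz1
  · rw [natOp_app, natOp_rep B M τ]
    exact key true _ hz2

end Crest.Agent.Coh
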