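import Crest.Agent.Lib.Coh.LemmaT

/-!
# The section `ι : M.G ⟶ wG ℓ k M`; mapped normal triples; cells below `ℓ` are determined by `z1`
-/

set_option autoImplicit false

open CategoryTheory CategoryTheory.Limits Opposite
open Crest.GeometryTopology.Coherator

universe u

namespace Crest.Agent.Coh

variable {C : GlobTheory.{u}} [Kit C]

/-- A morphism of models sends normal triples to normal triples. -/
theorem mapTr_normTr {m : ℕ} {E : ℕ → Prop} {M M' : Mdl C} (f : M ⟶ M') {j : ℕ} {l : Low M j}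
    (hl : VLow m E l) (z : Cl M.G j)
    (hz : ∀ i (h : i < j) (b : Bool), fc M.G h b z = (l i h b).z1) :
    mapTr f (normTr m l z) = normTr m (fun i h b => mapTr f (l i h b)) (Mdl.cm f z) := by
  have hc := conj_nat f hl z j le_rfl le_rfl hz
  apply Tr.ext
  · rfl
  · exact hc
  · change Mdl.cm f (unitC M (conj m l j z)) = unitC M' (conj m _ j (Mdl.cm f z))
    rw [unitC_nat, hc]

/-- Cells below `ℓ` are determined by their `z1`-component. -/
theorem PC_eq_of_z1 {ℓ : ℕ} {E : ℕ → Prop} {M : Mdl C} {j : ℕ} (hj : j < ℓ) {c c' : PC ℓ E M j}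
    (h : c.top.z1 = c'.top.z1) : c = c' := by
  induction j using Nat.strong_induction_on with
  | _ j ih =>
    have hlow : c.low = c'.low := by
      funext i hi b
      have e : PC.face hi b c = PC.face hi b c' := by
        apply ih i hi (hi.trans hj)
        change (c.low i hi b).z1 = (c'.low i hi b).z1
        rw [← c.vt.f1 i hi b, ← c'.vt.f1 i hi b, h]
      exact congrArg PC.top e
    apply PC.ext hlow
    rw [PC.top_eq_norm c (Or.inl hj), PC.top_eq_norm c' (Or.inl hj), hlow, h]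

/-- The normal section followed by the unit of the coskeleton. -/
noncomputable def iota (ℓ k : ℕ) (M : Mdl C) : M.G ⟶ wG ℓ k M :=
  secL ℓ Einf M ≫ eta k (cylI ℓ M)

theorem iota_app (ℓ k : ℕ) (M : Mdl C) {j : ℕ} (x : Cl M.G j) :
    (iota ℓ k M).app (op (GlobeObj.mk j)) x = etaC k ((secL ℓ Einf M).app (op (GlobeObj.mk j)) x) :=
  rfl

theorem secL_top (ℓ : ℕ) (E : ℕ → Prop) (M : Mdl C) {j : ℕ} (x : Cl M.G j) :
    PC.top ((secL ℓ E M).app (op (GlobeObj.mk j)) x) = Ltop ℓ M j x := rfl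

theorem secL_z1 (ℓ : ℕ) (E : ℕ → Prop) (M : Mdl C) {j : ℕ} (x : Cl M.G j) :
    (PC.top ((secL ℓ E M).app (op (GlobeObj.mk j)) x)).z1 = x := by
  rw [secL_top, Ltop_eq]
  rfl

theorem secL_z0 (ℓ : ℕ) (E : ℕ → Prop) (M : Mdl C) {j : ℕ} (hj : j ≤ ℓ) (x : Cl M.G j) :
    (PC.top ((secL ℓ E M).app (op (GlobeObj.mk j)) x)).z0 = x := by
  rw [secL_top, Ltop_eq]
  exact conj_of_le ℓ _ x hj

/-- Naturality of the normal section. -/
theorem secL_nat (ℓ : ℕ) (E : ℕ → Prop) {M M' : Mdl C} (f : M ⟶ M') {j : ℕ} (x : Cl M.G j) :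
    (cylMap f).app (op (GlobeObj.mk j)) ((secL ℓ E M).app (op (GlobeObj.mk j)) x) =
      (secL ℓ E M').app (op (GlobeObj.mk j)) (Mdl.cm f x) := by
  induction j using Nat.strong_induction_on with
  | _ j ih =>
    have hlow : (fun i (h : i < j) b => mapTr f
        (lowOf (Q := M.G) (Ltop ℓ M) x i h b)) = lowOf (Q := M'.G) (Ltop ℓ M') (Mdl.cm f x) := by
      funext i h b
      have := congrArg PC.top (ih i h (fc M.G h b x))
      change mapTr f (Ltop ℓ M i (fc M.G h b x)) = Ltop ℓ M' i (Mdl.cm f (fc M.G h b x)) at this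
      change mapTr f (Ltop ℓ M i (fc M.G h b x)) = Ltop ℓ M' i (fc M'.G h b (Mdl.cm f x))
      rw [this]
      congr 1
      exact fc_nat _ _ _ _
    apply PC.ext
    · exact hlow
    · change mapTr f (Ltop ℓ M j x) = Ltop ℓ M' j (Mdl.cm f x)
      rw [Ltop_eq, Ltop_eq ℓ M' j, ← hlow]
      have hv : VLow ℓ E (lowOf (Q := M.G) (Ltop ℓ M) x) := by
        intro i h b
        refine (Ltop_valid ℓ E M i (fc M.G h b x)).restrict h.le (fun i' h' b' => ?_)
        unfold lowOf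
        rw [fc_fc]
      refine mapTr_normTr f hv x (fun i h b => ?_)
      unfold lowOf
      rw [Ltop_eq]
      rfl

section wdata

variable {ℓ k : ℕ} (D : WData C ℓ k)

theorem iota_e1 (M : Mdl C) {j : ℕ} (x : Cl M.G j) :
    Mdl.cm (wE1 D M) ((iota ℓ k M).app (op (GlobeObj.mk j)) x) = etaC k x := by
  change (coskMap k (e1G ℓ Einf M)).app _ (etaC k _) = _
  rw [coskMap_etaC]
  congr 1
  exact secL_z1 ℓ Einf M x

theorem iota_e0 (M : Mdl C) {j : ℕ} (hj : j ≤ ℓ) (x : Cl M.G j) :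
    Mdl.cm (wE0 D M) ((iota ℓ k M).app (op (GlobeObj.mk j)) x) = etaC k x := by
  change (coskMap k (e0G ℓ Einf M)).app _ (etaC k _) = _
  rw [coskMap_etaC]
  congr 1
  exact secL_z0 ℓ Einf M hj x

theorem iota_nat {M M' : Mdl C} (f : M ⟶ M') {j : ℕ} (x : Cl M.G j) :
    Mdl.cm (wMap D f) ((iota ℓ k M).app (op (GlobeObj.mk j)) x) =
      (iota ℓ k M').app (op (GlobeObj.mk j)) (Mdl.cm f x) := by
  exact (coskMap_etaC k (cylMap f) _).trans (congrArg (etaC k) (secL_nat ℓ Einf f x))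

/-- `wE1` is injective below `ℓ` (and up to `k`). -/
theorem wE1_inj (M : Mdl C) {j : ℕ} (hj : j < ℓ) (hk : j ≤ k) {x y : Cl (wM D M).G j}
    (h : Mdl.cm (wE1 D M) x = Mdl.cm (wE1 D M) y) : x = y := by
  have h1 : (CC.cell hk x : PC ℓ Einf M j).top.z1 = (CC.cell hk y : PC ℓ Einf M j).top.z1 :=
    congrArg (CC.cell (k := k) (P := M.G) hk) h
  have h2 : CC.cell hk x = CC.cell hk y := PC_eq_of_z1 hj h1
  have h3 : ∀ c : CC k (cylI ℓ M) j, etaC k (CC.cell hk c) = c := CC.etaC_cell' hk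
  rw [← h3 x, ← h3 y, h2]

/-- Below `ℓ`, a cell of `wM` lying over `η x` is `ι x`. -/
theorem eq_iota_of_e1 (M : Mdl C) {j : ℕ} (hj : j < ℓ) (hk : j ≤ k) {y : Cl (wM D M).G j}
    {x : Cl M.G j} (h : Mdl.cm (wE1 D M) y = etaC k x) :
    y = (iota ℓ k M).app (op (GlobeObj.mk j)) x :=
  wE1_inj D M hj hk (h.trans (iota_e1 D M x).symm)

theorem cm_etaM (k : ℕ) (M : Mdl C) {j : ℕ} (x : Cl M.G j) : Mdl.cm (etaM k M) x = etaC k x := rfl

theorem iota_unit (M : Mdl C) {j : ℕ} (hj : j + 1 < ℓ) (hk : j + 1 ≤ k) (x : Cl M.G j) :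
    unitC (wM D M) ((iota ℓ k M).app (op (GlobeObj.mk j)) x) =
      (iota ℓ k M).app (op (GlobeObj.mk (j + 1))) (unitC M x) := by
  apply eq_iota_of_e1 D M hj hk
  rw [unitC_nat, iota_e1, ← cm_etaM, ← unitC_nat]
  rfl

theorem iota_inv (M : Mdl C) {j : ℕ} (hj : j + 1 < ℓ) (hk : j + 1 ≤ k) (x : Cl M.G (j + 1)) :
    invC (wM D M) ((iota ℓ k M).app (op (GlobeObj.mk (j + 1))) x) =
      (iota ℓ k M).app (op (GlobeObj.mk (j + 1))) (invC M x) := by
  apply eq_iota_of_e1 D M hj hk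
  rw [invC_nat, iota_e1, ← cm_etaM, ← invC_nat]
  rfl

theorem iota_fc (M : Mdl C) {i j : ℕ} (h : i < j) (b : Bool) (x : Cl M.G j) :
    (iota ℓ k M).app (op (GlobeObj.mk i)) (fc M.G h b x) =
      fc (wM D M).G h b ((iota ℓ k M).app (op (GlobeObj.mk j)) x) :=
  fc_nat (iota ℓ k M) h b x

theorem iota_comp3 (M : Mdl C) {i j : ℕ} (hij : i < j) (hj : j < ℓ) (hk : j ≤ k)
    {x w : Cl M.G (i + 1)} {y : Cl M.G j}
    (h1 : fc M.G (Nat.lt_succ_self i) true x = fc M.G hij false y)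
    (h2 : fc M.G hij true y = fc M.G (Nat.lt_succ_self i) false w) :
    comp3 (wM D M) ((iota ℓ k M).app _ x) ((iota ℓ k M).app _ y) ((iota ℓ k M).app _ w) =
      (iota ℓ k M).app (op (GlobeObj.mk j)) (comp3 M x y w) := by
  have h1' : fc (wM D M).G (Nat.lt_succ_self i) true ((iota ℓ k M).app _ x) =
      fc (wM D M).G hij false ((iota ℓ k M).app _ y) := by
    rw [← iota_fc, ← iota_fc, h1]
  have h2' : fc (wM D M).G hij true ((iota ℓ k M).app _ y) =
      fc (wM D M).G (Nat.lt_succ_self i) false ((iota ℓ k M).app _ w) := by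
    rw [← iota_fc, ← iota_fc, h2]
  apply eq_iota_of_e1 D M hj hk
  rw [comp3_nat (wE1 D M) hij h1' h2', iota_e1, iota_e1, iota_e1, ← cm_etaM, ← cm_etaM, ← cm_etaM,
    ← comp3_nat (etaM k M) hij h1 h2]
  rfl

/-- Below `ℓ`, `ι` commutes with conjugation. -/
theorem iota_conj (m : ℕ) {E E' : ℕ → Prop} (M : Mdl C) {j j' : ℕ} {l : Low M j}
    (hl : VLow m E l) {lW : Low (wM D M) j}
    (hlW : VLow m E' lW)
    (hag : ∀ i (h : i < j) (b : Bool), lW i h b = ⟨(iota ℓ k M).app _ (l i h b).z1,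
      (iota ℓ k M).app _ (l i h b).z0, (iota ℓ k M).app _ (l i h b).lam⟩)
    (y : Cl M.G j') (i : ℕ) (hij : i ≤ j) (hj' : i ≤ j') (hj'ℓ : j' < ℓ) (hk : j' ≤ k)
    (Hy : ∀ i' (h : i' < i) (b : Bool),
      fc M.G (lt_of_lt_of_le h hj') b y = (l i' (lt_of_lt_of_le h hij) b).z1) :
    conj m lW i ((iota ℓ k M).app _ y) = (iota ℓ k M).app (op (GlobeObj.mk j')) (conj m l i y) := by
  induction i with
  | zero => rfl
  | succ i ih =>
    have hi : i < j := by omega
    have hji : i < j' := by omega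
    have hih := ih (by omega) (by omega) (fun i' h b => Hy i' (by omega) b)
    by_cases hm : i < m
    · rw [conj_succ_low m lW _ hm, conj_succ_low m l _ hm, hih]
    · rw [conj_succ_high m lW _ hi hm, conj_succ_high m l _ hi hm, hih, hag i hi false, hag i hi true]
      obtain ⟨h1, h2⟩ := conj_match hl y i hi hji Hy
      change comp3 (wM D M) (invC (wM D M) ((iota ℓ k M).app _ (l i hi false).lam)) _
        ((iota ℓ k M).app _ (l i hi true).lam) = _
      rw [iota_inv D M (by omega) (by omega), iota_comp3 D M hji hj'ℓ hk (by rw [fc_invC_true, ← h1, fc_invC_true]) h2]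

end wdata

end Crest.Agent.Coh
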