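import Crest.Agent.Lib.Coh.Rev

/-!
# Lemma T: fillers from homotopies in the truncated cylinder
-/

set_option autoImplicit false

open CategoryTheory CategoryTheory.Limits Opposite
open Crest.GeometryTopology.Coherator

universe u

namespace Crest.Agent.Coh

variable {C : GlobTheory.{u}} [Kit C]

/-- **Lemma T.** If `Ψ` exhibits a natural homotopy between the identity and `ρ ∘ u` (with values
in the truncated cylinder), fillers over `H` transfer to fillers over `G`. -/
theorem lemmaT {ℓ k : ℕ} (D : WData C ℓ k) (hF : FillHyp C ℓ k) {G H : Mdl C ⥤ Type u}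
    (hH : Fill H k) (u : G ⟶ H) (ρ : H ⟶ G) (Ψ : ∀ M : Mdl C, G.obj M → G.obj (wM D M))
    (hΨ : ∀ {M M' : Mdl C} (f : M ⟶ M') (x : G.obj M), Ψ M' (G.map f x) = G.map (wMap D f) (Ψ M x))
    (h1 : ∀ (M : Mdl C) (x : G.obj M), G.map (wE1 D M) (Ψ M x) = G.map (etaM k M) x)
    (h0 : ∀ (M : Mdl C) (x : G.obj M),
      G.map (wE0 D M) (Ψ M x) = G.map (etaM k M) (ρ.app M (u.app M x))) : Fill G k := by
  intro A B hp
  obtain ⟨F', hF'⟩ := hH (ρ ≫ A) (ρ ≫ B) (fun M x => hp M _)
  have hF'' : ∀ (M : Mdl C) (h : H.obj M),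
      fc M.G (Nat.lt_succ_self k) false (F'.app M h) = A.app M (ρ.app M h) ∧
      fc M.G (Nat.lt_succ_self k) true (F'.app M h) = B.app M (ρ.app M h) := hF'
  let κ : (G ⟶ cellF C k) → ∀ M : Mdl C, G.obj M → PC ℓ Einf M k := fun A M x =>
    CC.cell (k := k) (P := cylI ℓ M) le_rfl (A.app (wM D M) (Ψ M x))
  have hz1 : ∀ (A : G ⟶ cellF C k) (M : Mdl C) (x : G.obj M), (κ A M x).top.z1 = A.app M x := by
    intro A M x
    have e := nat_apply A (wE1 D M) (Ψ M x)
    rw [h1, ← nat_apply] at e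
    exact congrArg (CC.cell (k := k) (P := M.G) le_rfl) e
  have hz0 : ∀ (A : G ⟶ cellF C k) (M : Mdl C) (x : G.obj M),
      (κ A M x).top.z0 = A.app M (ρ.app M (u.app M x)) := by
    intro A M x
    have e := nat_apply A (wE0 D M) (Ψ M x)
    rw [h0, ← nat_apply] at e
    exact congrArg (CC.cell (k := k) (P := M.G) le_rfl) e
  have hnat : ∀ (A : G ⟶ cellF C k) {M M' : Mdl C} (f : M ⟶ M') (x : G.obj M),
      (cylMap f).app (op (GlobeObj.mk k)) (κ A M x) = κ A M' (G.map f x) := by
    intro A M M' f x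
    have e := nat_apply A (wMap D f) (Ψ M x)
    rw [← hΨ] at e
    exact congrArg (CC.cell (k := k) (P := cylI ℓ M') le_rfl) e
  have hpar : ∀ (M : Mdl C) (x : G.obj M), (κ A M x).low = (κ B M x).low := by
    intro M x
    rw [← par_cyl_iff]
    intro i hi b
    have h := hp (wM D M) (Ψ M x) i hi b
    have e : ∀ c : CC k (cylI ℓ M) k, CC.cell (k := k) (P := cylI ℓ M) (j := i) hi.le (CC.face hi b c) =
        fc (cylI ℓ M) hi b (CC.cell le_rfl c) := fun c => CC.cell_face hi b le_rfl c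
    exact (e _).symm.trans ((congrArg (CC.cell (k := k) (P := cylI ℓ M) (j := i) hi.le) h).trans (e _))
  have hG : RevGood C ℓ k := rev_good hF k le_rfl
  have hlow : ∀ i, i < k → RevGood C ℓ i := fun i hi => rev_good hF i hi.le
  -- the data at a point
  let W : ∀ M : Mdl C, G.obj M → Cl M.G (k + 1) := fun M x => F'.app M (u.app M x)
  let l : ∀ M : Mdl C, G.obj M → Low M k := fun M x => lowRev (κ A M x)
  have hlB : ∀ (M : Mdl C) (x : G.obj M), lowRev (κ B M x) = l M x := fun M x =>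
    (lowRev_eq_of_low (hpar M x)).symm
  have hvl : ∀ (M : Mdl C) (x : G.obj M), VLow ℓ Einf (l M x) := fun M x =>
    lowRev_vl hlow (κ A M x)
  have hWs : ∀ (M : Mdl C) (x : G.obj M),
      fc M.G (Nat.lt_succ_self k) false (W M x) = (κ A M x).top.z0 := fun M x =>
    (hF'' M _).1.trans (hz0 A M x).symm
  have hWt : ∀ (M : Mdl C) (x : G.obj M),
      fc M.G (Nat.lt_succ_self k) true (W M x) = (κ B M x).top.z0 := fun M x =>
    (hF'' M _).2.trans (hz0 B M x).symm
  have hHy : ∀ (M : Mdl C) (x : G.obj M) (i' : ℕ) (h : i' < k) (b : Bool),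
      fc M.G (lt_of_lt_of_le h (Nat.le_succ k)) b (W M x) = (l M x i' h b).z1 := by
    intro M x i' h b
    have e : (l M x i' h b).z1 = ((κ A M x).low i' h b).z0 := rfl
    rw [e, ← (κ A M x).vt.f0 i' h b, ← hWs, fc_fc]
  have hCG : ∀ (M : Mdl C) (x : G.obj M) (b : Bool),
      fc M.G (Nat.lt_succ_self k) b (conj ℓ (l M x) k (W M x)) =
        conj ℓ (l M x) k (fc M.G (Nat.lt_succ_self k) b (W M x)) := fun M x b =>
    (conj_spec (hvl M x) (W M x) k le_rfl (Nat.le_succ k) (hHy M x)).2 k le_rfl _ b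
  have hm1 : ∀ (M : Mdl C) (x : G.obj M),
      fc M.G (Nat.lt_succ_self k) true (invC M (revLam ℓ k M (κ A M x))) =
        fc M.G (Nat.lt_succ_self k) false (conj ℓ (l M x) k (W M x)) := by
    intro M x
    rw [fc_invC_true, revLam_src hG, hCG, hWs]
  have hm2 : ∀ (M : Mdl C) (x : G.obj M),
      fc M.G (Nat.lt_succ_self k) true (conj ℓ (l M x) k (W M x)) =
        fc M.G (Nat.lt_succ_self k) false (revLam ℓ k M (κ B M x)) := by
    intro M x
    rw [revLam_src hG, hCG, hWt, hlB]
  refine ⟨natOp (fun M x => comp3 M (invC M (revLam ℓ k M (κ A M x))) (conj ℓ (l M x) k (W M x))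
    (revLam ℓ k M (κ B M x))) ?_, fun M x => ?_⟩
  · intro M M' f x
    rw [comp3_nat f (Nat.lt_succ_self k) (hm1 M x) (hm2 M x), invC_nat, hG.nat, hG.nat, hnat, hnat,
      conj_nat f (hvl M x) (W M x) k le_rfl (Nat.le_succ k) (hHy M x)]
    have e1 : (fun i h b => mapTr f (l M x i h b)) = l M' (G.map f x) := by
      have := lowRev_nat hlow f (κ A M x)
      rw [hnat] at this
      exact this
    have e2 : Mdl.cm f (W M x) = W M' (G.map f x) := by
      change Mdl.cm f (F'.app M (u.app M x)) = F'.app M' (u.app M' (G.map f x))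
      rw [nat_apply]
      congr 1
      exact (types_congr_hom (u.naturality f) x).symm
    rw [e1, e2]
  · have hb := comp3_fc_base M (Nat.lt_succ_self k) (hm1 M x) (hm2 M x)
    constructor
    · rw [natOp_app, hb.1, fc_invC_false, revLam_tgt hG, hz1]
    · rw [natOp_app, hb.2, revLam_tgt hG, hz1]

/-- Lemma T at the top level: no cylinder is needed, the hypothesis says that `ρ ∘ u` agrees with
the identity up to level `k`. -/
theorem lemmaT_top {k : ℕ} {G H : Mdl C ⥤ Type u} (hH : Fill H k) (u : G ⟶ H) (ρ : H ⟶ G)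
    (h : ∀ (M : Mdl C) (x : G.obj M),
      G.map (etaM k M) (ρ.app M (u.app M x)) = G.map (etaM k M) x) : Fill G k := by
  intro A B hp
  obtain ⟨F', hF'⟩ := hH (ρ ≫ A) (ρ ≫ B) (fun M x => hp M _)
  have hA : ∀ (A : G ⟶ cellF C k) (M : Mdl C) (x : G.obj M),
      A.app M (ρ.app M (u.app M x)) = A.app M x := by
    intro A M x
    apply (eta_bijective k M.G k le_rfl).1
    have e1 := nat_apply A (etaM k M) (ρ.app M (u.app M x))
    have e2 := nat_apply A (etaM k M) x
    rw [h] at e1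
    exact e1.trans e2.symm
  refine ⟨u ≫ F', fun M x => ?_⟩
  have := hF' M (u.app M x)
  change _ = A.app M (ρ.app M (u.app M x)) ∧ _ = B.app M (ρ.app M (u.app M x)) at this
  rw [hA, hA] at this
  exact this

end Crest.Agent.Coh
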