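import Crest.Agent.Lib.Coh.Conv2
import Mathlib.CategoryTheory.SmallObject.TransfiniteCompositionLifting

/-!
# Cellular models lift against maps with the sphere lifting property
-/

set_option autoImplicit false

open CategoryTheory CategoryTheory.Limits Opposite
open Crest.GeometryTopology.Coherator

universe u

namespace Crest.Agent.Coh

variable {C : GlobTheory.{u}}

open GlobTheory GlobTheory.GlobModel

/-- Lifting a cell of `B`, with a prescribed boundary in `W`, along `p : W ⟶ B`. -/
structure SphereLift {W B : Mdl C} (p : W ⟶ B) : Prop where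
  zero : ∀ c : Cl B.G 0, ∃ c' : Cl W.G 0, Mdl.cm p c' = c
  succ : ∀ (d : ℕ) (x y : Cl W.G d), Par W.G x y → ∀ c : Cl B.G (d + 1),
    fc B.G (Nat.lt_succ_self d) false c = Mdl.cm p x →
    fc B.G (Nat.lt_succ_self d) true c = Mdl.cm p y →
    ∃ c' : Cl W.G (d + 1), fc W.G (Nat.lt_succ_self d) false c' = x ∧
      fc W.G (Nat.lt_succ_self d) true c' = y ∧ Mdl.cm p c' = c

theorem unCell_inj {M : Mdl C} {n : ℕ} {c c' : (ofMdl M).cells.cell n}
    (h : unCell c = unCell c') : c = c' := by
  rw [← ofCell_unCell c, h, ofCell_unCell]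

theorem par_unCell {M : Mdl C} (d : ℕ) {x y : (ofMdl M).cells.cell d}
    (h : (ofMdl M).cells.AreParallel d x y) : Par M.G (unCell x) (unCell y) := by
  cases d with
  | zero =>
    intro i hi
    exact absurd hi (Nat.not_lt_zero i)
  | succ d =>
    obtain ⟨h1, h2⟩ := h
    apply Par.of_succ
    · rw [← unCell_src, ← unCell_src, h1]
    · rw [← unCell_tgt, ← unCell_tgt, h2]

theorem exists_sphere_lift {W B : Mdl C} {p : W ⟶ B} (hp : SphereLift p) (d : ℕ)
    (s : (ofMdl W).cells.Sphere d) (c : (ofMdl B).cells.cell d)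
    (hc : (ofMdl B).cells.bdry d c = (cellsMap (ofMdlMap p)).sphere d s) :
    ∃ c' : (ofMdl W).cells.cell d, (ofMdl W).cells.bdry d c' = s ∧
      (cellsMap (ofMdlMap p)).app d c' = c := by
  cases d with
  | zero =>
    obtain ⟨c', hc'⟩ := hp.zero (unCell c)
    refine ⟨ofCell c', rfl, unCell_inj ?_⟩
    rw [unCell_map, unCell_ofCell, hc']
  | succ d =>
    obtain ⟨⟨x, y⟩, hxy⟩ := s
    have h1 : (ofMdl B).cells.src d c = (cellsMap (ofMdlMap p)).app d x :=
      congrArg (fun q => q.1.1) hc
    have h2 : (ofMdl B).cells.tgt d c = (cellsMap (ofMdlMap p)).app d y :=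
      congrArg (fun q => q.1.2) hc
    obtain ⟨c', a1, a2, a3⟩ := hp.succ d (unCell x) (unCell y) (par_unCell d hxy) (unCell c)
      (by rw [← unCell_src, h1, unCell_map]) (by rw [← unCell_tgt, h2, unCell_map])
    refine ⟨ofCell c', ?_, unCell_inj ?_⟩
    · apply Subtype.ext
      apply Prod.ext
      · apply unCell_inj
        change unCell ((ofMdl W).cells.src d (ofCell c')) = unCell x
        rw [unCell_src, unCell_ofCell, a1]
      · apply unCell_inj
        change unCell ((ofMdl W).cells.tgt d (ofCell c')) = unCell y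
        rw [unCell_tgt, unCell_ofCell, a2]
    · rw [unCell_map, unCell_ofCell, a3]

theorem sphere_comp {X Y Z : GlobSet.{u}} (f : X.Map Y) (g : Y.Map Z) (fg : X.Map Z)
    (h : ∀ n x, fg.app n x = g.app n (f.app n x)) (d : ℕ) (s : X.Sphere d) :
    fg.sphere d s = g.sphere d (f.sphere d s) := by
  cases d with
  | zero => rfl
  | succ d =>
    apply Subtype.ext
    apply Prod.ext
    · exact h d _
    · exact h d _

theorem bdry_map {X Y : GlobSet.{u}} (f : X.Map Y) (d : ℕ) (x : X.cell d) :
    Y.bdry d (f.app d x) = f.sphere d (X.bdry d x) := by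
  cases d with
  | zero => rfl
  | succ d =>
    apply Subtype.ext
    apply Prod.ext
    · exact (f.app_src d x).symm
    · exact (f.app_tgt d x).symm

/-- An attaching map has the left lifting property against maps with the sphere lifting property. -/
theorem attach_lift {A A' : GlobModel C} {f : A ⟶ A'} (hf : IsAttaching f) {W B : Mdl C}
    {p : W ⟶ B} (hp : SphereLift p) : HasLiftingProperty f (ofMdlMap p) := by
  refine ⟨fun {u v} sq => ?_⟩
  have hw : u ≫ ofMdlMap p = f ≫ v := sq.w
  have hex : ∀ k, ∃ c' : (ofMdl W).cells.cell (hf.dimOf k),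
      (ofMdl W).cells.bdry _ c' = (cellsMap u).sphere _ (hf.sphere k) ∧
      (cellsMap (ofMdlMap p)).app _ c' = (cellsMap v).app _ (hf.newCell k) := by
    intro k
    apply exists_sphere_lift hp
    rw [bdry_map, hf.newCell_bdry]
    rw [← sphere_comp (cellsMap f) (cellsMap v) (cellsMap (f ≫ v)) (fun _ _ => rfl),
      ← sphere_comp (cellsMap u) (cellsMap (ofMdlMap p)) (cellsMap (u ≫ ofMdlMap p))
        (fun _ _ => rfl), hw]
  choose z hz1 hz2 using hex
  obtain ⟨l, ⟨hl1, hl2⟩, -⟩ := hf.universal (ofMdl W) u z hz1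
  refine ⟨⟨{ l := l, fac_left := hl1, fac_right := ?_ }⟩⟩
  have hbdry : ∀ k, (ofMdl B).cells.bdry _ ((cellsMap v).app _ (hf.newCell k)) =
      (cellsMap (f ≫ v)).sphere _ (hf.sphere k) := by
    intro k
    rw [bdry_map, hf.newCell_bdry,
      ← sphere_comp (cellsMap f) (cellsMap v) (cellsMap (f ≫ v)) (fun _ _ => rfl)]
  have huniq := (hf.universal (ofMdl B) (f ≫ v) (fun k => (cellsMap v).app _ (hf.newCell k))
    hbdry).unique (y₁ := l ≫ ofMdlMap p) (y₂ := v) ⟨?_, ?_⟩ ⟨rfl, fun _ => rfl⟩
  · exact huniq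
  · rw [← Category.assoc, hl1, hw]
  · intro k
    change (cellsMap (ofMdlMap p)).app _ ((cellsMap l).app _ (hf.newCell k)) = _
    rw [hl2, hz2]

/-- Cellular models lift against maps with the sphere lifting property. -/
theorem cellular_lift {X : GlobModel C} (P : X.CellPresentation) {W B : Mdl C} {p : W ⟶ B}
    (hp : SphereLift p) (g : toMdl X ⟶ B) : ∃ s : toMdl X ⟶ W, s ≫ p = g := by
  rcases P with ⟨J, linOrd, bot, succ, wf, start, startIsInitial, fromStart, chain, attach⟩
  have hL : HasLiftingProperty (chain.incl.app ⊥) (ofMdlMap p) :=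
    HasLiftingProperty.transfiniteComposition.hasLiftingProperty_ι_app_bot (hc := chain.isColimit)
      (fun j hj => attach_lift (attach j hj) hp)
  have hI : IsInitial (chain.F.obj ⊥) := startIsInitial.ofIso chain.isoBot.symm
  have sq : CommSq (hI.to (ofMdl W)) (chain.incl.app ⊥) (ofMdlMap p) (homTo g) :=
    ⟨hI.hom_ext _ _⟩
  obtain ⟨⟨L⟩⟩ := hL.sq_hasLift sq
  refine ⟨homFrom L.l, ?_⟩
  rw [← homFrom_comp, L.fac_right, homFrom_homTo]

end Crest.Agent.Coh
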