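import Crest.Agent.Lib.Coh.Psh

/-!
# The endomorphism theory of a globular presheaf, and models as theory maps

`EndT P`: operations `S → T` are functions from `T`-tuples to `S`-tuples in `P`.
`Mdl C`: a globular presheaf with a theory map `C → EndT P`. This is our working notion of a model
(equivalent to `GlobModel C`, see `Conv.lean`): its tuples are literally `Tup M.G S`.
-/

set_option autoImplicit false

open CategoryTheory CategoryTheory.Limits Opposite
open Crest.GeometryTopology.Coherator

universe u

namespace Crest.Agent.Coh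

/-- The commutative square of designated gluing of shapes. -/
theorem shape_w (S : Shape) (b h : ℕ) (hb : b < S.last) (hh : b < h) :
    S.hinge hb ≫ S.inLeft b h hb hh = Shape.faceMap hh false ≫ S.inRight b h hb hh :=
  (IsPushout.of_hasPushout (GlobPsh.globeRepFace hb true ≫ S.apex)
    (GlobPsh.globeRepFace hh false)).w

/-- The pretheory underlying `EndT`. -/
noncomputable def preEnd (P : GlobPsh.{u}) : PreTheory.{u} where
  arr S T := Tup P T → Tup P S
  one _ := id
  seq f g := f ∘ g
  one_seq _ := rfl
  seq_one _ := rfl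
  seq_assoc _ _ _ := rfl
  ofShape f := Tup.pre f
  ofShape_id S := funext Tup.pre_id
  ofShape_comp f g := funext (Tup.pre_comp f g)

theorem preEnd_sums (P : GlobPsh.{u}) : (preEnd P).RespectsSums := by
  intro S b h hb hh
  have w : (preEnd P).incl.map (S.hinge hb) ≫ (preEnd P).incl.map (S.inLeft b h hb hh) =
      (preEnd P).incl.map (Shape.faceMap hh false) ≫ (preEnd P).incl.map (S.inRight b h hb hh) := by
    rw [← Functor.map_comp, ← Functor.map_comp, shape_w]
  refine IsPushout.of_isColimit (c := PushoutCocone.mk _ _ w) ?_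
  refine PushoutCocone.IsColimit.mk _
    (fun s τ => Tup.glueT hb hh (s.inl τ) (tCell (s.inr τ)) ?_) ?_ ?_ ?_
  · have hc := congrFun s.condition τ
    change Tup.pre (S.hinge hb) (s.inl τ) = Tup.pre (Shape.faceMap hh false) (s.inr τ) at hc
    rw [Tup.pre_hinge] at hc
    have h2 := pre_face_cellT (P := P) hh false (tCell (s.inr τ))
    rw [cellT_tCell] at h2
    have := congrArg tCell (hc.trans h2)
    simpa using this
  · intro s
    funext τ
    exact Tup.pre_glueT _ _ _
  · intro s
    funext τ
    have h1 := Tup.pre_apex (Tup.glueT hb hh (s.inl τ) (tCell (s.inr τ)) (by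
      have hc := congrFun s.condition τ
      change Tup.pre (S.hinge hb) (s.inl τ) = Tup.pre (Shape.faceMap hh false) (s.inr τ) at hc
      rw [Tup.pre_hinge] at hc
      have h2 := pre_face_cellT (P := P) hh false (tCell (s.inr τ))
      rw [cellT_tCell] at h2
      have := congrArg tCell (hc.trans h2)
      simpa using this))
    refine h1.trans ?_
    have h3 := Tup.last_glueT (hb := hb) (hh := hh) (s.inl τ) (tCell (s.inr τ)) (by
      have hc := congrFun s.condition τ
      change Tup.pre (S.hinge hb) (s.inl τ) = Tup.pre (Shape.faceMap hh false) (s.inr τ) at hc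
      rw [Tup.pre_hinge] at hc
      have h2 := pre_face_cellT (P := P) hh false (tCell (s.inr τ))
      rw [cellT_tCell] at h2
      have := congrArg tCell (hc.trans h2)
      simpa using this)
    exact (congrArg (cellT (n := h)) h3).trans (cellT_tCell _)
  · intro s m h1 h2
    funext τ
    apply Tup.glue_ext
    · rw [Tup.pre_glueT]
      exact congrFun h1 τ
    · have e : Tup.pre (S.inRight b h hb hh) (m τ) = s.inr τ := congrFun h2 τ
      have := congrArg tCell e
      refine this.trans ?_
      exact (Tup.last_glueT _ _ _).symm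

/-- The endomorphism theory of a globular presheaf. -/
noncomputable def EndT (P : GlobPsh.{u}) : GlobTheory.{u} where
  toPreTheory := preEnd P
  respectsSums := preEnd_sums P

@[simp] theorem EndT_ofShape (P : GlobPsh.{u}) {S T : Shape} (f : S ⟶ T) :
    (EndT P).ofShape f = Tup.pre f := rfl

/-- Our working notion of a model: a globular presheaf with a theory map into its endomorphisms. -/
structure Mdl (C : GlobTheory.{u}) where
  /-- the underlying globular presheaf -/
  G : GlobPsh.{u}
  /-- the action of operations on tuples -/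
  Φ : GlobTheory.TheoryMap C (EndT G)

variable {C : GlobTheory.{u}}

namespace Mdl

/-- The action of an operation on tuples. -/
def act (M : Mdl C) {S T : Shape} (o : C.arr S T) (τ : Tup M.G T) : Tup M.G S := M.Φ.map o τ

/-- The cell computed by an operation. -/
noncomputable def opC (M : Mdl C) {k : ℕ} {T : Shape} (o : C.arr (Shape.globe k) T)
    (τ : Tup M.G T) : Cl M.G k := tCell (M.act o τ)

theorem act_seq (M : Mdl C) {R S T : Shape} (f : C.arr R S) (g : C.arr S T) (τ : Tup M.G T) :
    M.act (C.seq f g) τ = M.act f (M.act g τ) := by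
  unfold act
  rw [M.Φ.map_seq]; rfl

theorem act_one (M : Mdl C) {S : Shape} (τ : Tup M.G S) : M.act (C.one S) τ = τ := by
  unfold act
  rw [M.Φ.map_one]; rfl

theorem act_ofShape (M : Mdl C) {S T : Shape} (f : S ⟶ T) (τ : Tup M.G T) :
    M.act (C.ofShape f) τ = Tup.pre f τ := by
  unfold act
  rw [M.Φ.map_ofShape]; rfl

/-- Morphisms of models: maps of globular presheaves commuting with all operations. -/
@[ext]
structure Hom (M M' : Mdl C) where
  /-- the underlying map -/
  φ : M.G ⟶ M'.G
  comm : ∀ {S T : Shape} (o : C.arr S T) (τ : Tup M.G T),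
    M.act o τ ≫ φ = M'.act o (τ ≫ φ)

instance : Category (Mdl C) where
  Hom := Hom
  id M := ⟨𝟙 _, fun o τ => by simp⟩
  comp f g := ⟨f.φ ≫ g.φ, fun o τ => by
    rw [← Category.assoc, f.comm, g.comm, Category.assoc]⟩
  id_comp f := by apply Hom.ext; exact Category.id_comp _
  comp_id f := by apply Hom.ext; exact Category.comp_id _
  assoc f g h := by apply Hom.ext; exact Category.assoc _ _ _

/-- A morphism of models on cells. -/
abbrev cm {M M' : Mdl C} (f : M ⟶ M') {k : ℕ} (x : Cl M.G k) : Cl M'.G k :=
  Hom.φ f |>.app (op (GlobeObj.mk k)) x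

theorem opC_nat {M M' : Mdl C} (f : M ⟶ M') {k : ℕ} {T : Shape} (o : C.arr (Shape.globe k) T)
    (τ : Tup M.G T) : cm f (M.opC o τ) = M'.opC o (τ ≫ Hom.φ f) := by
  unfold opC
  rw [← Hom.comm f o τ]
  rfl

end Mdl

/-- The cell functor on models. -/
noncomputable def cellF (C : GlobTheory.{u}) (k : ℕ) : Mdl C ⥤ Type u where
  obj M := Cl M.G k
  map f := ↾(fun x => Mdl.cm f x)
  map_id _ := rfl
  map_comp _ _ := rfl

/-- The functor of `T`-tuples of a globular presheaf. -/
noncomputable def tupFunctor (T : Shape) : GlobPsh.{u} ⥤ Type u where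
  obj P := Tup P T
  map f := ↾(fun τ => τ ≫ f)
  map_id P := by ext τ a x; rfl
  map_comp f g := by ext τ a x; rfl

/-- The functor of `T`-tuples of models. -/
noncomputable def tupF (C : GlobTheory.{u}) (T : Shape) : Mdl C ⥤ Type u where
  obj M := Tup M.G T
  map f := ↾(fun τ => τ ≫ Mdl.Hom.φ f)
  map_id M := by ext τ a x; rfl
  map_comp f g := by ext τ a x; rfl

/-- Parallel cells: all lower faces agree. -/
def Par (P : GlobPsh.{u}) {k : ℕ} (x y : Cl P k) : Prop :=
  ∀ (i : ℕ) (h : i < k) (b : Bool), fc P h b x = fc P h b y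

theorem Par.of_succ (P : GlobPsh.{u}) {k : ℕ} {x y : Cl P (k + 1)}
    (h0 : fc P (Nat.lt_succ_self k) false x = fc P (Nat.lt_succ_self k) false y)
    (h1 : fc P (Nat.lt_succ_self k) true x = fc P (Nat.lt_succ_self k) true y) : Par P x y := by
  intro i hi b
  by_cases hk : i = k
  · subst hk
    cases b
    · exact h0
    · exact h1
  · have hlt : i < k := by omega
    rw [← fc_fc P hlt (Nat.lt_succ_self k) b false, ← fc_fc P hlt (Nat.lt_succ_self k) b false, h0]

/-- Build a natural operation from a family of functions. -/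
noncomputable def natOp {G : Mdl C ⥤ Type u} {k : ℕ} (f : ∀ M : Mdl C, G.obj M → Cl M.G k)
    (hf : ∀ {M M' : Mdl C} (φ : M ⟶ M') (x : G.obj M), Mdl.cm φ (f M x) = f M' (G.map φ x)) :
    G ⟶ cellF C k where
  app M := ↾(f M)
  naturality {M M'} φ := by
    ext x
    exact (hf φ x).symm

@[simp] theorem natOp_app {G : Mdl C ⥤ Type u} {k : ℕ} (f : ∀ M : Mdl C, G.obj M → Cl M.G k)
    (hf : ∀ {M M' : Mdl C} (φ : M ⟶ M') (x : G.obj M), Mdl.cm φ (f M x) = f M' (G.map φ x))
    (M : Mdl C) (x : G.obj M) : (natOp f hf).app M x = f M x := rfl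

/-- Naturality of natural operations on elements. -/
theorem nat_apply {G : Mdl C ⥤ Type u} {k : ℕ} (A : G ⟶ cellF C k) {M M' : Mdl C} (φ : M ⟶ M')
    (x : G.obj M) : Mdl.cm φ (A.app M x) = A.app M' (G.map φ x) :=
  (types_congr_hom (A.naturality φ) x).symm

/-- `Fill G k`: parallel natural operations at level `k` over the complex `G` have a natural
filler. -/
def Fill (G : Mdl C ⥤ Type u) (k : ℕ) : Prop :=
  ∀ A B : G ⟶ cellF C k, (∀ (M : Mdl C) (x : G.obj M), Par M.G (A.app M x) (B.app M x)) →
    ∃ F : G ⟶ cellF C (k + 1), ∀ (M : Mdl C) (x : G.obj M),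
      fc M.G (Nat.lt_succ_self k) false (F.app M x) = A.app M x ∧
      fc M.G (Nat.lt_succ_self k) true (F.app M x) = B.app M x

/-- A retract of a fillable complex is fillable. -/
theorem Fill.of_retract {G H : Mdl C ⥤ Type u} {k : ℕ} (hH : Fill H k) (s : G ⟶ H) (r : H ⟶ G)
    (hsr : s ≫ r = 𝟙 G) : Fill G k := by
  intro A B hp
  obtain ⟨F, hF⟩ := hH (r ≫ A) (r ≫ B) (fun M x => hp M _)
  refine ⟨s ≫ F, fun M x => ?_⟩
  have e : r.app M (s.app M x) = x := by
    have := congrArg (fun f => f.app M x) hsr
    exact this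
  have := hF M (s.app M x)
  change _ = A.app M (r.app M (s.app M x)) ∧ _ = B.app M (r.app M (s.app M x)) at this
  rw [e] at this
  exact this

end Crest.Agent.Coh
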