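import Mathlib
import Crest.Prelude.Def_GlobularCoherator

/-!
# Globular presheaves: flat API

`Cl P n` cells, `fc h b` iterated faces (`fc_fc`), `mkPsh`/`mkHom` constructors,
`Tup P S` tuples of shape `S` in a globular presheaf, the `globe` and `glue` descriptions of tuples,
emptiness of `S.psh` above `S.dim`, lifting of tuples along maps bijective on low levels.
-/

set_option autoImplicit false

open CategoryTheory CategoryTheory.Limits Opposite
open Crest.GeometryTopology.Coherator

universe u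

namespace Crest.Agent.Coh

/-- Cells of a globular presheaf. -/
abbrev Cl (P : GlobPsh.{u}) (n : ℕ) : Type u := P.obj (op (GlobeObj.mk n))

/-- The iterated face of a cell (`b = false` source side, `b = true` target side). -/
def fc (P : GlobPsh.{u}) {i j : ℕ} (h : i < j) (b : Bool) (x : Cl P j) : Cl P i :=
  P.map (Quiver.Hom.op (GlobeObj.faceArrow h b)) x

theorem fc_fc (P : GlobPsh.{u}) {i j l : ℕ} (h : i < j) (h' : j < l) (b b' : Bool) (x : Cl P l) :
    fc P h b (fc P h' b' x) = fc P (h.trans h') b x := by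
  have : (Quiver.Hom.op (GlobeObj.faceArrow h' b') : op (GlobeObj.mk l) ⟶ op (GlobeObj.mk j)) ≫
      (Quiver.Hom.op (GlobeObj.faceArrow h b)) =
      Quiver.Hom.op (GlobeObj.faceArrow (h.trans h') b) := rfl
  have h2 := congrArg (fun f => P.map f x) this
  simp only [P.map_comp] at h2
  exact h2

/-- A morphism of presheaves commutes with faces. -/
theorem fc_nat {P Q : GlobPsh.{u}} (φ : P ⟶ Q) {i j : ℕ} (h : i < j) (b : Bool) (x : Cl P j) :
    φ.app _ (fc P h b x) = fc Q h b (φ.app _ x) :=
  types_congr_hom (φ.naturality (Quiver.Hom.op (GlobeObj.faceArrow h b))) x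

/-- Action of an arrow on a cell family given by faces. -/
def mapArrow (T : ℕ → Type u) (F : ∀ {i j : ℕ}, i < j → Bool → T j → T i) :
    {m n : ℕ} → GlobeObj.Arrow m n → T n → T m
  | _, _, .refl _ => id
  | _, _, .pole h b => F h b

/-- A globular presheaf from a family of cell types and its faces. -/
def mkPsh (T : ℕ → Type u) (F : ∀ {i j : ℕ}, i < j → Bool → T j → T i)
    (FF : ∀ {i j l : ℕ} (h : i < j) (h' : j < l) (b b' : Bool) (x : T l),
      F h b (F h' b' x) = F (h.trans h') b x) : GlobPsh.{u} where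
  obj a := T a.unop.dim
  map {a b} f := ↾(mapArrow T F f.unop)
  map_id a := rfl
  map_comp {a b c} f g := by
    ext x
    rcases a with ⟨⟨a⟩⟩
    rcases b with ⟨⟨b⟩⟩
    rcases c with ⟨⟨c⟩⟩
    rcases f with ⟨f⟩
    rcases g with ⟨g⟩
    change GlobeObj.Arrow b a at f
    change GlobeObj.Arrow c b at g
    change mapArrow T F (GlobeObj.Arrow.seq g f) x = mapArrow T F g (mapArrow T F f x)
    cases f with
    | refl => cases g <;> rfl
    | pole h b' =>
      cases g with
      | refl => rfl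
      | pole h' b'' => exact (FF h' h b'' b' x).symm

@[simp] theorem fc_mkPsh (T : ℕ → Type u) (F : ∀ {i j : ℕ}, i < j → Bool → T j → T i)
    (FF : ∀ {i j l : ℕ} (h : i < j) (h' : j < l) (b b' : Bool) (x : T l),
      F h b (F h' b' x) = F (h.trans h') b x) {i j : ℕ} (h : i < j) (b : Bool) (x : T j) :
    fc (mkPsh T F FF) h b x = F h b x := rfl

/-- A morphism of globular presheaves from its action on cells. -/
def mkHom {P Q : GlobPsh.{u}} (φ : ∀ n, Cl P n → Cl Q n)
    (hφ : ∀ {i j : ℕ} (h : i < j) (b : Bool) (x : Cl P j),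
      φ i (fc P h b x) = fc Q h b (φ j x)) : P ⟶ Q where
  app a := ↾(φ a.unop.dim)
  naturality {a b} f := by
    ext x
    rcases a with ⟨⟨a⟩⟩
    rcases b with ⟨⟨b⟩⟩
    rcases f with ⟨f⟩
    change GlobeObj.Arrow b a at f
    cases f with
    | refl =>
      have h1 : P.map (Quiver.Hom.op (𝟙 (GlobeObj.mk a))) = 𝟙 _ := by
        rw [op_id]; exact P.map_id _
      have h2 : Q.map (Quiver.Hom.op (𝟙 (GlobeObj.mk a))) = 𝟙 _ := by
        rw [op_id]; exact Q.map_id _
      change φ a (P.map (Quiver.Hom.op (𝟙 (GlobeObj.mk a))) x) =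
        Q.map (Quiver.Hom.op (𝟙 (GlobeObj.mk a))) (φ a x)
      rw [h1, h2]; rfl
    | pole h u => exact hφ h u x

@[simp] theorem mkHom_app {P Q : GlobPsh.{u}} (φ : ∀ n, Cl P n → Cl Q n)
    (hφ : ∀ {i j : ℕ} (h : i < j) (b : Bool) (x : Cl P j),
      φ i (fc P h b x) = fc Q h b (φ j x)) (n : ℕ) (x : Cl P n) :
    (mkHom φ hφ).app (op (GlobeObj.mk n)) x = φ n x := rfl

/-- Extensionality of morphisms of globular presheaves. -/
theorem hom_ext' {P Q : GlobPsh.{u}} {φ ψ : P ⟶ Q}
    (h : ∀ n (x : Cl P n), φ.app _ x = ψ.app _ x) : φ = ψ := by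
  ext a x
  exact h a.unop.dim x

/-- Tuples of shape `S` in a globular presheaf. -/
abbrev Tup (P : GlobPsh.{u}) (S : Shape) : Type u :=
  (S.psh ⋙ uliftFunctor.{u, 0}) ⟶ P

/-- Restrict a tuple along a map of shapes. -/
noncomputable def Tup.pre {P : GlobPsh.{u}} {S T : Shape} (f : S ⟶ T) (τ : Tup P T) : Tup P S :=
  Functor.whiskerRight (show S.psh ⟶ T.psh from f) uliftFunctor.{u, 0} ≫ τ

theorem Tup.pre_id {P : GlobPsh.{u}} {S : Shape} (τ : Tup P S) : Tup.pre (𝟙 S) τ = τ := by
  ext a x
  rfl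

theorem Tup.pre_comp {P : GlobPsh.{u}} {R S T : Shape} (f : R ⟶ S) (g : S ⟶ T) (τ : Tup P T) :
    Tup.pre (f ≫ g) τ = Tup.pre f (Tup.pre g τ) := by
  ext a x
  rfl

theorem Tup.pre_map {P Q : GlobPsh.{u}} {S T : Shape} (f : S ⟶ T) (τ : Tup P T) (φ : P ⟶ Q) :
    Tup.pre f (τ ≫ φ) = Tup.pre f τ ≫ φ := by
  ext a x
  rfl

/-- A cell as a tuple of globe shape. -/
noncomputable def cellT {P : GlobPsh.{u}} {n : ℕ} (c : Cl P n) : Tup P (Shape.globe n) where
  app a := ↾(fun x : ULift.{u, 0} ((yoneda.obj (GlobeObj.mk n)).obj a) =>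
    P.map (Quiver.Hom.op x.down) c)
  naturality {a b} f := by
    ext x
    rcases a with ⟨⟨a⟩⟩
    rcases b with ⟨⟨b⟩⟩
    have h := types_congr_hom (P.map_comp (Quiver.Hom.op x.down) f) c
    exact h

/-- The cell of a globe-shaped tuple. -/
noncomputable def tCell {P : GlobPsh.{u}} {n : ℕ} (τ : Tup P (Shape.globe n)) : Cl P n :=
  τ.app (op (GlobeObj.mk n)) (ULift.up (𝟙 (GlobeObj.mk n)))

@[simp] theorem tCell_cellT {P : GlobPsh.{u}} {n : ℕ} (c : Cl P n) : tCell (cellT c) = c := by
  have h : P.map (Quiver.Hom.op (𝟙 (GlobeObj.mk n))) = 𝟙 _ := by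
    rw [op_id]; exact P.map_id _
  change P.map (Quiver.Hom.op (𝟙 (GlobeObj.mk n))) c = c
  rw [h]; rfl

@[simp] theorem cellT_tCell {P : GlobPsh.{u}} {n : ℕ} (τ : Tup P (Shape.globe n)) :
    cellT (tCell τ) = τ := by
  ext ⟨⟨a⟩⟩ ⟨x⟩
  change GlobeObj.mk a ⟶ GlobeObj.mk n at x
  have h := types_congr_hom (τ.naturality (Quiver.Hom.op x))
    (ULift.up (𝟙 (GlobeObj.mk n)))
  have e : (ULift.up.{u, 0} (x ≫ 𝟙 (GlobeObj.mk n))) = ULift.up x := by rw [Category.comp_id]
  exact h.symm.trans (congrArg (τ.app (op (GlobeObj.mk a))) e)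

/-- Globe-shaped tuples are cells. -/
noncomputable def gEq {P : GlobPsh.{u}} {n : ℕ} : Tup P (Shape.globe n) ≃ Cl P n where
  toFun := tCell
  invFun := cellT
  left_inv := cellT_tCell
  right_inv := tCell_cellT

theorem tCell_map {P Q : GlobPsh.{u}} {n : ℕ} (τ : Tup P (Shape.globe n)) (φ : P ⟶ Q) :
    tCell (τ ≫ φ) = φ.app _ (tCell τ) := rfl

theorem cellT_map {P Q : GlobPsh.{u}} {n : ℕ} (c : Cl P n) (φ : P ⟶ Q) :
    cellT c ≫ φ = cellT (φ.app _ c) := by
  have : tCell (cellT c ≫ φ) = tCell (cellT (φ.app _ c)) := by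
    rw [tCell_map, tCell_cellT, tCell_cellT]
  have h2 := congrArg cellT this
  simpa using h2

/-- Faces of globe-shaped tuples. -/
theorem pre_face_cellT {P : GlobPsh.{u}} {m n : ℕ} (h : m < n) (b : Bool) (c : Cl P n) :
    Tup.pre (Shape.faceMap h b) (cellT c) = cellT (fc P h b c) := by
  have : tCell (Tup.pre (Shape.faceMap h b) (cellT c)) = fc P h b c := by
    change P.map (Quiver.Hom.op (𝟙 (GlobeObj.mk m) ≫ GlobeObj.faceArrow h b)) c = _
    rw [Category.id_comp]; rfl
  rw [← this, cellT_tCell]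

/-- The last cell of a tuple. -/
noncomputable def Tup.last {P : GlobPsh.{u}} {S : Shape} (τ : Tup P S) : Cl P S.last :=
  tCell (Tup.pre (show Shape.globe S.last ⟶ S from S.apex) τ)

theorem Tup.last_map {P Q : GlobPsh.{u}} {S : Shape} (τ : Tup P S) (φ : P ⟶ Q) :
    Tup.last (τ ≫ φ) = φ.app _ (Tup.last τ) := rfl

theorem Tup.pre_apex {P : GlobPsh.{u}} {S : Shape} (τ : Tup P S) :
    Tup.pre (show Shape.globe S.last ⟶ S from S.apex) τ = cellT (Tup.last τ) :=
  (cellT_tCell _).symm

theorem Tup.pre_hinge {P : GlobPsh.{u}} {S : Shape} {b : ℕ} (hb : b < S.last) (τ : Tup P S) :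
    Tup.pre (S.hinge hb) τ = cellT (fc P hb true (Tup.last τ)) := by
  have : S.hinge hb = Shape.faceMap hb true ≫ (show Shape.globe S.last ⟶ S from S.apex) := rfl
  rw [this, Tup.pre_comp, Tup.pre_apex, pre_face_cellT]

theorem glue_isPushout (S : Shape) (b h : ℕ) (hb : b < S.last) (hh : b < h) :
    IsPushout (Functor.whiskerRight (show (Shape.globe b).psh ⟶ S.psh from S.hinge hb)
        uliftFunctor.{u, 0})
      (Functor.whiskerRight (show (Shape.globe b).psh ⟶ (Shape.globe h).psh from
        Shape.faceMap hh false) uliftFunctor.{u, 0})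
      (Functor.whiskerRight (show S.psh ⟶ (S.glue b h hb hh).psh from S.inLeft b h hb hh)
        uliftFunctor.{u, 0})
      (Functor.whiskerRight (show (Shape.globe h).psh ⟶ (S.glue b h hb hh).psh from
        S.inRight b h hb hh) uliftFunctor.{u, 0}) :=
  (IsPushout.of_hasPushout (GlobPsh.globeRepFace hb true ≫ S.apex)
    (GlobPsh.globeRepFace hh false)).map
      ((Functor.whiskeringRight _ _ _).obj uliftFunctor.{u, 0})

section glue

variable {P : GlobPsh.{u}} {S : Shape} {b h : ℕ} {hb : b < S.last} {hh : b < h}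

/-- Glue a tuple and a cell along matching faces. -/
noncomputable def Tup.glueT (hb : b < S.last) (hh : b < h) (τ : Tup P S) (c : Cl P h)
    (hm : fc P hb true (Tup.last τ) = fc P hh false c) : Tup P (S.glue b h hb hh) :=
  (glue_isPushout S b h hb hh).desc τ (cellT c) (by
    have h1 := Tup.pre_hinge hb τ
    have h2 := pre_face_cellT (P := P) hh false c
    rw [hm] at h1
    exact h1.trans h2.symm)

theorem Tup.pre_glueT (τ : Tup P S) (c : Cl P h)
    (hm : fc P hb true (Tup.last τ) = fc P hh false c) :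
    Tup.pre (S.inLeft b h hb hh) (Tup.glueT hb hh τ c hm) = τ :=
  (glue_isPushout S b h hb hh).inl_desc _ _ _

theorem Tup.last_glueT (τ : Tup P S) (c : Cl P h)
    (hm : fc P hb true (Tup.last τ) = fc P hh false c) :
    Tup.last (Tup.glueT hb hh τ c hm) = c := by
  have h1 : Tup.pre (S.inRight b h hb hh) (Tup.glueT hb hh τ c hm) = cellT c :=
    (glue_isPushout S b h hb hh).inr_desc _ _ _
  change tCell (Tup.pre (S.inRight b h hb hh) (Tup.glueT hb hh τ c hm)) = c
  rw [h1, tCell_cellT]

theorem Tup.glue_ext {τ τ' : Tup P (S.glue b h hb hh)}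
    (h1 : Tup.pre (S.inLeft b h hb hh) τ = Tup.pre (S.inLeft b h hb hh) τ')
    (h2 : Tup.last τ = Tup.last τ') : τ = τ' := by
  refine (glue_isPushout S b h hb hh).hom_ext h1 ?_
  have e (σ : Tup P (S.glue b h hb hh)) :
      Tup.pre (S.inRight b h hb hh) σ = cellT (Tup.last σ) := Tup.pre_apex σ
  exact (e τ).trans ((congrArg cellT h2).trans (e τ').symm)

/-- The matching condition for the parts of a tuple of a glued shape. -/
theorem Tup.glue_match (τ : Tup P (S.glue b h hb hh)) :
    fc P hb true (Tup.last (Tup.pre (S.inLeft b h hb hh) τ)) = fc P hh false (Tup.last τ) := by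
  have hw : Tup.pre (S.hinge hb) (Tup.pre (S.inLeft b h hb hh) τ) =
      Tup.pre (Shape.faceMap hh false) (Tup.pre (S.inRight b h hb hh) τ) := by
    have := (glue_isPushout.{u} S b h hb hh).w
    exact congrArg (fun f => f ≫ τ) this |>.trans rfl |> fun h => by
      simpa [Tup.pre, Category.assoc] using h
  have e : Tup.pre (S.inRight b h hb hh) τ = cellT (n := h) (Tup.last τ) := Tup.pre_apex τ
  rw [Tup.pre_hinge, e] at hw
  have h3 := pre_face_cellT (P := P) hh false (Tup.last τ : Cl P h)
  have := congrArg tCell (hw.trans h3)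
  simpa using this

theorem Tup.eq_glueT (τ : Tup P (S.glue b h hb hh)) :
    τ = Tup.glueT hb hh (Tup.pre (S.inLeft b h hb hh) τ) (Tup.last τ) (Tup.glue_match τ) :=
  Tup.glue_ext (by rw [Tup.pre_glueT]) (by rw [Tup.last_glueT])

theorem Tup.glueT_map {Q : GlobPsh.{u}} (φ : P ⟶ Q) (τ : Tup P S) (c : Cl P h)
    (hm : fc P hb true (Tup.last τ) = fc P hh false c) :
    Tup.glueT hb hh τ c hm ≫ φ =
      Tup.glueT hb hh (τ ≫ φ) (φ.app _ c) (by
        rw [Tup.last_map, ← fc_nat, ← fc_nat, hm]) := by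
  apply Tup.glue_ext
  · rw [Tup.pre_map, Tup.pre_glueT, Tup.pre_glueT]
  · have a := Tup.last_glueT (hb := hb) (hh := hh) (τ ≫ φ) (φ.app _ c) (by
      rw [Tup.last_map, ← fc_nat, ← fc_nat, hm])
    exact (congrArg (φ.app (op (GlobeObj.mk h))) (Tup.last_glueT τ c hm)).trans a.symm

end glue

/-- Induction on shapes. -/
theorem Shape.ind' {motive : Shape → Prop} (single : ∀ n, motive (Shape.globe n))
    (glue : ∀ (S : Shape) (b h : ℕ) (hb : b < S.last) (hh : b < h),
      motive S → motive (S.glue b h hb hh)) (S : Shape) : motive S := by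
  rcases S with ⟨last, p⟩
  induction p with
  | single n => exact single n
  | glue Q b h hb hh ih => exact glue ⟨_, Q⟩ b h hb hh ih

theorem Shape.dim_globe' (n : ℕ) : (Shape.globe n).dim = n := rfl

theorem Shape.dim_glue' (S : Shape) (b h : ℕ) (hb : b < S.last) (hh : b < h) :
    (S.glue b h hb hh).dim = max S.dim h := rfl

theorem Shape.last_le_dim' (S : Shape) : S.last ≤ S.dim := by
  induction S using Shape.ind' with
  | single n => exact le_rfl
  | glue S b h hb hh ih => exact le_max_right _ _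

/-- A shape has no cells above its height. -/
theorem Shape.psh_empty (S : Shape) {j : ℕ} (hj : S.dim < j) :
    IsEmpty (S.psh.obj (op (GlobeObj.mk j))) := by
  induction S using Shape.ind' with
  | single n =>
    refine ⟨fun x => ?_⟩
    change GlobeObj.Arrow j n at x
    rw [Shape.dim_globe'] at hj
    cases x with
    | refl => omega
    | pole h b => omega
  | glue S b h hb hh ih =>
    rw [Shape.dim_glue'] at hj
    have h1 := ih (lt_of_le_of_lt (le_max_left _ _) hj)
    have h2 : IsEmpty ((Shape.globe h).psh.obj (op (GlobeObj.mk j))) := by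
      refine ⟨fun x => ?_⟩
      change GlobeObj.Arrow j h at x
      have : h < j := lt_of_le_of_lt (le_max_right _ _) hj
      cases x with
      | refl => omega
      | pole h b => omega
    refine ⟨fun x => ?_⟩
    have hp := (IsPushout.of_hasPushout (GlobPsh.globeRepFace hb true ≫ S.apex)
      (GlobPsh.globeRepFace hh false)).map ((evaluation _ _).obj (op (GlobeObj.mk j)))
    rcases Types.eq_or_eq_of_isPushout hp x with ⟨y, -⟩ | ⟨y, -⟩
    · exact h1.false y
    · exact h2.false y

/-- A tuple in the image of a map bijective on low levels lifts uniquely. -/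
theorem tup_lift_bijective {P Q : GlobPsh.{u}} (φ : P ⟶ Q) (k : ℕ)
    (hφ : ∀ j, j ≤ k → Function.Bijective (φ.app (op (GlobeObj.mk j))))
    (S : Shape) (hS : S.dim ≤ k) : Function.Bijective (fun τ : Tup P S => τ ≫ φ) := by
  constructor
  · intro τ τ' h
    ext ⟨⟨j⟩⟩ x
    by_cases hj : j ≤ k
    · apply (hφ j hj).1
      exact types_congr_hom (congrArg (fun f => f.app (op (GlobeObj.mk j))) h) x
    · exact ((Shape.psh_empty S (lt_of_le_of_lt hS (not_le.mp hj))).false x.down).elim
  · intro σ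
    classical
    let g : ∀ j, j ≤ k → Cl Q j → Cl P j := fun j hj => Function.surjInv (hφ j hj).2
    have hg : ∀ j (hj : j ≤ k) (c : Cl Q j), φ.app _ (g j hj c) = c :=
      fun j hj => Function.surjInv_eq (hφ j hj).2
    have hle : ∀ {j : ℕ}, S.psh.obj (op (GlobeObj.mk j)) → j ≤ k := by
      intro j x
      by_contra hj
      exact (Shape.psh_empty S (lt_of_le_of_lt hS (not_le.mp hj))).false x
    let τ : Tup P S :=
      { app := fun a => ↾(fun x => g a.unop.dim (hle x.down) (σ.app a x))
        naturality := by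
          rintro ⟨⟨a⟩⟩ ⟨⟨b'⟩⟩ f
          ext x
          have ha : a ≤ k := hle x.down
          have hb' : b' ≤ k := by
            have y : S.psh.obj (op (GlobeObj.mk b')) := S.psh.map f x.down
            exact hle y
          apply (hφ b' hb').1
          refine (hg b' hb' _).trans ?_
          have n1 := types_congr_hom (φ.naturality f) (g a ha (σ.app (op (GlobeObj.mk a)) x))
          have n2 := types_congr_hom (σ.naturality f) x
          have n1' : φ.app (op (GlobeObj.mk b')) (P.map f (g a ha (σ.app (op (GlobeObj.mk a)) x))) =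
              Q.map f (φ.app (op (GlobeObj.mk a)) (g a ha (σ.app (op (GlobeObj.mk a)) x))) := n1
          exact n2.trans ((congrArg (Q.map f) (hg a ha _)).symm.trans n1'.symm) }
    refine ⟨τ, ?_⟩
    ext ⟨⟨j⟩⟩ x
    exact hg j (hle x.down) _

end Crest.Agent.Coh
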