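import Crest.Agent.Lib.Coh.WModel

/-!
# Reversal of cylinder cells and congruence of `conj`
-/

set_option autoImplicit false

open CategoryTheory CategoryTheory.Limits Opposite
open Crest.GeometryTopology.Coherator

universe u

namespace Crest.Agent.Coh

variable {C : GlobTheory.{u}} [Kit C]

/-- A cell of the full cylinder at level `j` as a cell of the `j`-truncated cylinder. -/
def toA {ℓ j : ℕ} {M : Mdl C} (c : PC ℓ Einf M j) : PC ℓ (Eab j) M j :=
  PC.cast (fun i' hi' h => by
    have : j < i' := h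
    omega) c

/-- A truncated cell at level `j` as a cell of the full cylinder. -/
def ofA {ℓ j ℓ' : ℕ} {M : Mdl C} (c : PC ℓ (Eab ℓ') M j) : PC ℓ Einf M j :=
  PC.cast (fun _ _ h => absurd h (not_einf _)) c

/-- The reversed lower data, as a function of the top connecting function. -/
noncomputable def lowRevOf {ℓ : ℕ} {M : Mdl C} {j : ℕ}
    (R : ∀ i, i < j → PC ℓ Einf M i → Cl M.G (i + 1)) (c : PC ℓ Einf M j) : Low M j :=
  fun i h b => ⟨(c.low i h b).z0, (c.low i h b).z1, R i h (PC.face h b c)⟩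

open Classical in
/-- The connecting cell of the reversal, by recursion on the level. Total: junk if fillers
don't exist. -/
noncomputable def revLam (ℓ : ℕ) : (j : ℕ) → ∀ M : Mdl C, PC ℓ Einf M j → Cl M.G (j + 1)
  | j => fun M c =>
    if hj : j < ℓ then c.top.lam
    else
      if h : ∃ F : Cx (C := C) ℓ j (Shape.globe j) ⟶ cellF C (j + 1), ∀ (M' : Mdl C)
          (τ : Tup (cylA ℓ j M') (Shape.globe j)),
          fc M'.G (Nat.lt_succ_self j) false (F.app M' τ) =
            conj ℓ (lowRevOf (fun i (_ : i < j) => revLam ℓ i M') (ofA (tCell τ))) j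
              (ofA (tCell τ) : PC ℓ Einf M' j).top.z0 ∧
          fc M'.G (Nat.lt_succ_self j) true (F.app M' τ) = (ofA (tCell τ) : PC ℓ Einf M' j).top.z1
      then (Classical.choose h).app M (cellT (toA c))
      else c.top.lam
termination_by j => j

/-- The reversed lower data. -/
noncomputable def lowRev {ℓ : ℕ} {M : Mdl C} {j : ℕ} (c : PC ℓ Einf M j) : Low M j :=
  lowRevOf (fun i (_ : i < j) => revLam ℓ i M) c

/-- The reversed top triple. -/
noncomputable def revTop {ℓ : ℕ} {M : Mdl C} {j : ℕ} (c : PC ℓ Einf M j) : Tr M j :=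
  ⟨c.top.z0, c.top.z1, revLam ℓ j M c⟩

theorem lowRev_face {ℓ : ℕ} {M : Mdl C} {j i : ℕ} (c : PC ℓ Einf M j) (h : i < j) (b : Bool)
    (i' : ℕ) (h' : i' < i) (b' : Bool) :
    lowRev (PC.face h b c) i' h' b' = lowRev c i' (h'.trans h) b' := rfl

theorem lowRev_eq_of_low {ℓ : ℕ} {M : Mdl C} {j : ℕ} {c c' : PC ℓ Einf M j} (h : c.low = c'.low) :
    lowRev c = lowRev c' := by
  funext i hi b
  have e : PC.face hi b c = PC.face hi b c' := (par_cyl_iff c c').2 h i hi b
  unfold lowRev lowRevOf
  rw [e, h]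

/-- The statement that reversal works up to level `k`. -/
structure RevGood (C : GlobTheory.{u}) [Kit C] (ℓ j : ℕ) : Prop where
  vt : ∀ (M : Mdl C) (c : PC ℓ Einf M j), VT ℓ Einf (lowRev c) j le_rfl (revTop c)
  nat : ∀ {M M' : Mdl C} (f : M ⟶ M') (c : PC ℓ Einf M j),
    Mdl.cm f (revLam ℓ j M c) = revLam ℓ j M' ((cylMap f).app (op (GlobeObj.mk j)) c)

theorem revLam_lt (ℓ j : ℕ) (M : Mdl C) (c : PC ℓ Einf M j) (hj : j < ℓ) :
    revLam ℓ j M c = c.top.lam := by
  rw [revLam]
  exact dif_pos hj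

theorem ofA_toA {ℓ j : ℕ} {M : Mdl C} (c : PC ℓ Einf M j) : ofA (toA c) = c := rfl

theorem toA_map {ℓ j : ℕ} {M M' : Mdl C} (f : M ⟶ M') (c : PC ℓ Einf M j) :
    toA ((cylMap f).app (op (GlobeObj.mk j)) c) = (cylMap f).app (op (GlobeObj.mk j)) (toA c) := rfl

theorem ofA_map {ℓ j ℓ' : ℕ} {M M' : Mdl C} (f : M ⟶ M') (c : PC ℓ (Eab ℓ') M j) :
    ofA ((cylMap f).app (op (GlobeObj.mk j)) c) = (cylMap f).app (op (GlobeObj.mk j)) (ofA c) := rfl

theorem lowRev_vl {ℓ j : ℕ} (hlow : ∀ i, i < j → RevGood C ℓ i) {M : Mdl C} (c : PC ℓ Einf M j) :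
    VLow ℓ Einf (lowRev c) := by
  intro i h b
  exact ((hlow i h).vt M (PC.face h b c)).restrict h.le (fun _ _ _ => rfl)

theorem lowRev_nat {ℓ j : ℕ} (hlow : ∀ i, i < j → RevGood C ℓ i) {M M' : Mdl C} (f : M ⟶ M')
    (c : PC ℓ Einf M j) :
    (fun i h b => mapTr f (lowRev c i h b)) = lowRev ((cylMap f).app (op (GlobeObj.mk j)) c) := by
  funext i h b
  apply Tr.ext
  · rfl
  · rfl
  · exact (hlow i h).nat f (PC.face h b c)

/-- Reversal works up to the level where the filling hypotheses hold. -/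
theorem rev_good {ℓ k : ℕ} (hF : FillHyp C ℓ k) : ∀ j, j ≤ k → RevGood C ℓ j := by
  intro j
  induction j using Nat.strong_induction_on with
  | _ j ih =>
    intro hjk
    have hlow : ∀ i, i < j → RevGood C ℓ i := fun i hi => ih i hi (by omega)
    by_cases hj : j < ℓ
    · constructor
      · intro M c
        have hn := c.vt.nm (Or.inl hj)
        have hc1 : ∀ {j' : ℕ} (l : Low M j) (y : Cl M.G j'), conj ℓ l j y = y :=
          fun l y => conj_of_le ℓ l y hj.le
        rw [hc1] at hn
        obtain ⟨hz, hl⟩ := hn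
        refine ⟨fun i h b => c.vt.f0 i h b, fun i h b => c.vt.f1 i h b, ?_, ?_, fun _ => ?_⟩
        · change fc M.G _ false (revLam ℓ j M c) = conj ℓ _ j c.top.z0
          rw [revLam_lt ℓ j M c hj, hc1, hl, fc_unitC, hz]
        · change fc M.G _ true (revLam ℓ j M c) = c.top.z1
          rw [revLam_lt ℓ j M c hj, hl, fc_unitC]
        · change c.top.z1 = conj ℓ _ j c.top.z0 ∧ revLam ℓ j M c = unitC M (conj ℓ _ j c.top.z0)
          rw [hc1, revLam_lt ℓ j M c hj]
          exact ⟨hz.symm, by rw [hz]; exact hl⟩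
      · intro M M' f c
        rw [revLam_lt ℓ j M c hj, revLam_lt ℓ j M' _ hj]
        rfl
    · have hℓj : ℓ ≤ j := by omega
      -- the natural pair
      let A : Cx (C := C) ℓ j (Shape.globe j) ⟶ cellF C j :=
        natOp (fun M (τ : Tup (cylA ℓ j M) (Shape.globe j)) =>
            conj ℓ (lowRev (ofA (tCell τ))) j (ofA (tCell τ) : PC ℓ Einf M j).top.z0) (by
          intro M M' f (τ : Tup (cylA ℓ j M) (Shape.globe j))
          have hvl := lowRev_vl hlow (ofA (tCell τ) : PC ℓ Einf M j)
          rw [conj_nat f hvl _ j le_rfl le_rfl (fun i h b => (ofA (tCell τ) : PC ℓ Einf M j).vt.f0 i h b),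
            lowRev_nat hlow]
          rfl)
      let B : Cx (C := C) ℓ j (Shape.globe j) ⟶ cellF C j :=
        natOp (fun M (τ : Tup (cylA ℓ j M) (Shape.globe j)) =>
            (ofA (tCell τ) : PC ℓ Einf M j).top.z1) (by
          intro M M' f τ
          rfl)
      obtain ⟨F, hF'⟩ := hF j hℓj hjk (Shape.globe j) le_rfl A B (by
        intro M (τ : Tup (cylA ℓ j M) (Shape.globe j)) i h b
        have hvl := lowRev_vl hlow (ofA (tCell τ) : PC ℓ Einf M j)
        have hc := (conj_spec hvl (ofA (tCell τ) : PC ℓ Einf M j).top.z0 j le_rfl le_rfl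
          (fun i h b => (ofA (tCell τ) : PC ℓ Einf M j).vt.f0 i h b)).1 i h b
        change fc M.G h b (conj ℓ (lowRev (ofA (tCell τ))) j (ofA (tCell τ) : PC ℓ Einf M j).top.z0) =
          fc M.G h b (ofA (tCell τ) : PC ℓ Einf M j).top.z1
        rw [hc]
        exact ((ofA (tCell τ) : PC ℓ Einf M j).vt.f1 i h b).symm)
      have hex : ∃ F : Cx (C := C) ℓ j (Shape.globe j) ⟶ cellF C (j + 1), ∀ (M' : Mdl C)
          (τ : Tup (cylA ℓ j M') (Shape.globe j)),
          fc M'.G (Nat.lt_succ_self j) false (F.app M' τ) =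
            conj ℓ (lowRevOf (fun i (_ : i < j) => revLam ℓ i M') (ofA (tCell τ))) j
              (ofA (tCell τ) : PC ℓ Einf M' j).top.z0 ∧
          fc M'.G (Nat.lt_succ_self j) true (F.app M' τ) = (ofA (tCell τ) : PC ℓ Einf M' j).top.z1 :=
        ⟨F, hF'⟩
      have hval : ∀ (M : Mdl C) (c : PC ℓ Einf M j),
          revLam ℓ j M c = (Classical.choose hex).app M (cellT (toA c)) := by
        intro M c
        rw [revLam]
        exact (dif_neg hj).trans (dif_pos hex)
      constructor
      · intro M c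
        have hs := Classical.choose_spec hex M (cellT (toA c))
        rw [tCell_cellT, ofA_toA] at hs
        refine ⟨fun i h b => c.vt.f0 i h b, fun i h b => c.vt.f1 i h b, ?_, ?_, fun hn => ?_⟩
        · change fc M.G _ false (revLam ℓ j M c) = _
          rw [hval]
          exact hs.1
        · change fc M.G _ true (revLam ℓ j M c) = _
          rw [hval]
          exact hs.2
        · rcases hn with hn | hn
          · omega
          · exact absurd hn (not_einf _)
      · intro M M' f c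
        rw [hval, hval, nat_apply]
        congr 1
        exact (cellT_map (toA c) (cylMap f))

/-- The source of the reversal cell. -/
theorem revLam_src {ℓ j : ℕ} (hG : RevGood C ℓ j) {M : Mdl C} (c : PC ℓ Einf M j) :
    fc M.G (Nat.lt_succ_self j) false (revLam ℓ j M c) = conj ℓ (lowRev c) j c.top.z0 :=
  (hG.vt M c).src

/-- The target of the reversal cell. -/
theorem revLam_tgt {ℓ j : ℕ} (hG : RevGood C ℓ j) {M : Mdl C} (c : PC ℓ Einf M j) :
    fc M.G (Nat.lt_succ_self j) true (revLam ℓ j M c) = c.top.z1 :=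
  (hG.vt M c).tgt

end Crest.Agent.Coh
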