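import Crest.Agent.Lib.Coh.MainInd
import Crest.Agent.Lib.Coh.Final
import Crest.Agent.Lib.Coh.Iota

/-!
# The transfer step of the main induction

`Fill (Cx m (ℓ - 1) S) k → Fill (Cx m ℓ S) k` for `m < ℓ ≤ k`, via Lemma T. The homotopy `Ψ₀` is
defined level by level: below `ℓ` it is the normal lift `ι`; at level `ℓ` the triple is
`(ι z1, t, b)`, where `b` is a cell of the truncated full cylinder over `lam` with end-0 a unit;
above `ℓ` it is the normal triple over `ι z1`.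
-/

set_option autoImplicit false

open CategoryTheory CategoryTheory.Limits Opposite
open Crest.GeometryTopology.Coherator

universe u

namespace Crest.Agent.Coh

variable {C : GlobTheory.{u}} [Kit C]

/-! ### Generalities on the cylinder -/

/-- Below `ℓ`, cylinder cells are determined by their end-1 component. -/
theorem pc_eq_of_z1 {ℓ : ℕ} {E : ℕ → Prop} {M : Mdl C} : ∀ (j : ℕ), j < ℓ → ∀ (c c' : PC ℓ E M j),
    c.top.z1 = c'.top.z1 → c = c' := by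
  intro j
  induction j using Nat.strong_induction_on with
  | _ j ih =>
    intro hj c c' h
    have hlow : c.low = c'.low := by
      funext i hi b
      have e := ih i hi (by omega) (PC.face hi b c) (PC.face hi b c') (by
        change (c.low i hi b).z1 = (c'.low i hi b).z1
        rw [← c.vt.f1 i hi b, ← c'.vt.f1 i hi b, h])
      exact congrArg PC.top e
    apply PC.ext hlow
    rw [PC.top_eq_norm c (Or.inl hj), PC.top_eq_norm c' (Or.inl hj), hlow, h]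

theorem Ltop_z1 (m : ℕ) (M : Mdl C) (j : ℕ) (z : Cl M.G j) : (Ltop m M j z).z1 = z := by
  rw [Ltop_eq]
  rfl

theorem Ltop_nat {m : ℕ} {M M' : Mdl C} (f : M ⟶ M') : ∀ (j : ℕ) (z : Cl M.G j),
    mapTr f (Ltop m M j z) = Ltop m M' j (Mdl.cm f z) := by
  intro j
  induction j using Nat.strong_induction_on with
  | _ j ih =>
    intro z
    rw [Ltop_eq, Ltop_eq]
    have hl : VLow m Einf (lowOf (Q := M.G) (Ltop m M) z) :=
      (cellOfTop (Q := M.G) (Ltop m M) (Ltop_valid m Einf M) z).vl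
    have hz : ∀ i (h : i < j) (b : Bool), fc M.G h b z = (lowOf (Q := M.G) (Ltop m M) z i h b).z1 := by
      intro i h b
      change _ = (Ltop m M i (fc M.G h b z)).z1
      rw [Ltop_z1]
    rw [mapTr_normTr f hl z hz]
    have e : (fun i h b => mapTr f (lowOf (Q := M.G) (Ltop m M) z i h b)) =
        lowOf (Q := M'.G) (Ltop m M') (Mdl.cm f z) := by
      funext i h b
      change mapTr f (Ltop m M i (fc M.G h b z)) = Ltop m M' i (fc M'.G h b (Mdl.cm f z))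
      rw [ih i h, Mdl.cm, fc_nat]
    rw [e]

/-- The normal cell over `z`. -/
noncomputable abbrev Lc (ℓ : ℕ) {M : Mdl C} {j : ℕ} (z : Cl M.G j) : PC ℓ Einf M j :=
  (secL ℓ Einf M).app (op (GlobeObj.mk j)) z

@[simp] theorem Lc_top (ℓ : ℕ) {M : Mdl C} {j : ℕ} (z : Cl M.G j) :
    (Lc ℓ z).top = Ltop ℓ M j z := rfl

theorem Lc_z1 (ℓ : ℕ) {M : Mdl C} {j : ℕ} (z : Cl M.G j) : (Lc ℓ z).top.z1 = z :=
  Ltop_z1 ℓ M j z

theorem Lc_low (ℓ : ℕ) {M : Mdl C} {j : ℕ} (z : Cl M.G j) (i : ℕ) (h : i < j) (b : Bool) :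
    (Lc ℓ z).low i h b = Ltop ℓ M i (fc M.G h b z) := rfl

theorem face_Lc (ℓ : ℕ) {M : Mdl C} {i j : ℕ} (h : i < j) (b : Bool) (z : Cl M.G j) :
    PC.face h b (Lc ℓ z) = Lc ℓ (fc M.G h b z) :=
  (fc_nat (secL ℓ Einf M) h b z).symm

theorem cylMap_Lc {ℓ : ℕ} {M M' : Mdl C} (f : M ⟶ M') {j : ℕ} (z : Cl M.G j) :
    (cylMap f).app (op (GlobeObj.mk j)) (Lc ℓ z) = Lc ℓ (Mdl.cm f z) := by
  apply PC.ext
  · funext i h b
    change mapTr f (Ltop ℓ M i (fc M.G h b z)) = Ltop ℓ M' i (fc M'.G h b (Mdl.cm f z))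
    rw [Ltop_nat f i, Mdl.cm, fc_nat]
  · exact Ltop_nat f j z

/-- The endomorphism `z ↦ e0 (L z)`. -/
noncomputable def eL (ℓ : ℕ) {M : Mdl C} {j : ℕ} (z : Cl M.G j) : Cl M.G j := (Lc ℓ z).top.z0

theorem eL_of_le (ℓ : ℕ) {M : Mdl C} {j : ℕ} (z : Cl M.G j) (hj : j ≤ ℓ) : eL ℓ z = z := by
  unfold eL
  rw [Lc_top, Ltop_eq]
  exact conj_of_le ℓ _ z hj

theorem fc_eL (ℓ : ℕ) {M : Mdl C} {i j : ℕ} (h : i < j) (b : Bool) (z : Cl M.G j) :
    fc M.G h b (eL ℓ z) = eL ℓ (fc M.G h b z) := by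
  unfold eL
  rw [← face_Lc]
  exact (Lc ℓ z).vt.f0 i h b

theorem eL_nat {ℓ : ℕ} {M M' : Mdl C} (f : M ⟶ M') {j : ℕ} (z : Cl M.G j) :
    Mdl.cm f (eL ℓ z) = eL ℓ (Mdl.cm f z) := by
  unfold eL
  rw [← cylMap_Lc]
  rfl

/-! ### The map `ι` -/

section iota

variable {ℓ k : ℕ}

/-- The normal lift `ι` of a cell to the truncated cylinder. -/
noncomputable def io (ℓ k : ℕ) {M : Mdl C} {j : ℕ} (z : Cl M.G j) : Cl (wG ℓ k M) j :=
  etaC (P := cylI ℓ M) k (Lc ℓ z)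

theorem fc_io {M : Mdl C} {i j : ℕ} (h : i < j) (b : Bool) (z : Cl M.G j) :
    fc (wG ℓ k M) h b (io ℓ k z) = io ℓ k (fc M.G h b z) := by
  unfold io
  have := fc_etaC (P := cylI ℓ M) k h b (Lc ℓ z)
  refine this.trans ?_
  rw [fc_cyl, face_Lc]

variable (D : WData C ℓ k)

theorem cm_wE1_io {M : Mdl C} {j : ℕ} (z : Cl M.G j) :
    Mdl.cm (wE1 D M) (io ℓ k z) = Mdl.cm (etaM k M) z := by
  change CC.map (e1G ℓ Einf M) (etaC k (Lc ℓ z)) = etaC k z
  rw [CC_map_etaC]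
  congr 1
  exact Lc_z1 ℓ z

theorem cm_wE0_io {M : Mdl C} {j : ℕ} (z : Cl M.G j) :
    Mdl.cm (wE0 D M) (io ℓ k z) = Mdl.cm (etaM k M) (eL ℓ z) := by
  change CC.map (e0G ℓ Einf M) (etaC k (Lc ℓ z)) = etaC k (eL ℓ z)
  rw [CC_map_etaC]
  rfl

theorem cm_wMap_io {M M' : Mdl C} (f : M ⟶ M') {j : ℕ} (z : Cl M.G j) :
    Mdl.cm (wMap D f) (io ℓ k z) = io ℓ k (Mdl.cm f z) := by
  change CC.map (cylMap f) (etaC k (Lc ℓ z)) = etaC k (Lc ℓ (Mdl.cm f z))
  rw [CC_map_etaC, cylMap_Lc]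

/-- The image of a triple under `ι`. -/
noncomputable def iTr {M : Mdl C} {i : ℕ} (t : Tr M i) : Tr (wM D M) i :=
  ⟨io ℓ k t.z1, io ℓ k t.z0, io ℓ k t.lam⟩

theorem mapTr_wE1_iTr {M : Mdl C} {i : ℕ} (t : Tr M i) :
    mapTr (wE1 D M) (iTr D t) = mapTr (etaM k M) t :=
  Tr.ext (cm_wE1_io D _) (cm_wE1_io D _) (cm_wE1_io D _)

theorem mapTr_wE0_iTr {M : Mdl C} {i : ℕ} (t : Tr M i) (hi : i < ℓ) :
    mapTr (wE0 D M) (iTr D t) = mapTr (etaM k M) t := by
  apply Tr.ext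
  · change Mdl.cm (wE0 D M) (io ℓ k t.z1) = Mdl.cm (etaM k M) t.z1
    rw [cm_wE0_io, eL_of_le ℓ _ hi.le]
  · change Mdl.cm (wE0 D M) (io ℓ k t.z0) = Mdl.cm (etaM k M) t.z0
    rw [cm_wE0_io, eL_of_le ℓ _ hi.le]
  · change Mdl.cm (wE0 D M) (io ℓ k t.lam) = Mdl.cm (etaM k M) t.lam
    rw [cm_wE0_io, eL_of_le ℓ _ hi]

theorem mapTr_wMap_iTr {M M' : Mdl C} (f : M ⟶ M') {i : ℕ} (t : Tr M i) :
    mapTr (wMap D f) (iTr D t) = iTr D (mapTr f t) :=
  Tr.ext (cm_wMap_io D f _) (cm_wMap_io D f _) (cm_wMap_io D f _)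

/-- The end-1 map is injective below `ℓ`. -/
theorem wE1_injT (hℓk : ℓ ≤ k) {M : Mdl C} {j : ℕ} (hj : j < ℓ) {x y : Cl (wM D M).G j}
    (h : Mdl.cm (wE1 D M) x = Mdl.cm (wE1 D M) y) : x = y := by
  have hjk : j ≤ k := by omega
  have hc : CC.cell hjk x = CC.cell hjk y := by
    apply pc_eq_of_z1 j hj
    exact congrFun (congrArg CC.top h) hjk
  rw [← CC.etaC_cell' hjk x, ← CC.etaC_cell' hjk y, hc]

/-- The image of lower data under `ι`. -/
noncomputable def iLow {M : Mdl C} {j : ℕ} (l : Low M j) : Low (wM D M) j :=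
  fun i h b => iTr D (l i h b)

theorem conj_e1 {m : ℕ} {E E' : ℕ → Prop} {M : Mdl C} {j : ℕ} {l : Low M j} (hl : VLow m E l)
    (hl' : VLow m E' (iLow D l)) {j' : ℕ} (y : Cl M.G j') (i : ℕ) (hij : i ≤ j) (hj' : i ≤ j')
    (Hy : ∀ i' (h : i' < i) (b : Bool),
      fc M.G (lt_of_lt_of_le h hj') b y = (l i' (lt_of_lt_of_le h hij) b).z1) :
    Mdl.cm (wE1 D M) (conj m (iLow D l) i (io ℓ k y)) = Mdl.cm (etaM k M) (conj m l i y) := by
  rw [conj_nat (wE1 D M) hl' (io ℓ k y) i hij hj' (fun i' h b => by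
      rw [fc_io, Hy i' h b]; rfl), conj_nat (etaM k M) hl y i hij hj' Hy, cm_wE1_io]
  congr 1
  funext i' h b
  exact mapTr_wE1_iTr D _

theorem conj_e0 {m : ℕ} {E E' : ℕ → Prop} {M : Mdl C} {j : ℕ} {l : Low M j} (hl : VLow m E l)
    (hl' : VLow m E' (iLow D l)) (hjℓ : j ≤ ℓ) {j' : ℕ} (hj'ℓ : j' ≤ ℓ) (y : Cl M.G j') (i : ℕ)
    (hij : i ≤ j) (hj' : i ≤ j')
    (Hy : ∀ i' (h : i' < i) (b : Bool),
      fc M.G (lt_of_lt_of_le h hj') b y = (l i' (lt_of_lt_of_le h hij) b).z1) :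
    Mdl.cm (wE0 D M) (conj m (iLow D l) i (io ℓ k y)) = Mdl.cm (etaM k M) (conj m l i y) := by
  rw [conj_nat (wE0 D M) hl' (io ℓ k y) i hij hj' (fun i' h b => by
      rw [fc_io, Hy i' h b]; rfl), conj_nat (etaM k M) hl y i hij hj' Hy, cm_wE0_io,
      eL_of_le ℓ y hj'ℓ]
  congr 1
  funext i' h b
  exact mapTr_wE0_iTr D _ (by omega)

/-! ### Below `ℓ` -/

section low

variable {m : ℕ} {M : Mdl C}

/-- The images of cells below `ℓ` are valid. -/
theorem iTr_valid (hmℓ : m < ℓ) (hℓk : ℓ ≤ k) : ∀ (j : ℕ), j < ℓ → ∀ c : PC m (Eab ℓ) M j,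
    VT m (Eab ℓ) (iLow D c.low) j le_rfl (iTr D c.top) := by
  intro j
  induction j using Nat.strong_induction_on with
  | _ j ih =>
    intro hj c
    have hl' : VLow m (Eab ℓ) (iLow D c.low) := by
      intro i h b
      exact (ih i h (by omega) (PC.face h b c)).restrict h.le (fun _ _ _ => rfl)
    have hc : conj m (iLow D c.low) j (io ℓ k c.top.z1) = io ℓ k (conj m c.low j c.top.z1) := by
      apply wE1_injT D hℓk hj
      rw [conj_e1 D c.vl hl' c.top.z1 j le_rfl le_rfl c.vt.f1, cm_wE1_io]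
    refine ⟨fun i h b => ?_, fun i h b => ?_, ?_, ?_, fun hn => ?_⟩
    · change fc (wG ℓ k M) h b (io ℓ k c.top.z1) = io ℓ k (c.low i h b).z1
      rw [fc_io, c.vt.f1]
    · change fc (wG ℓ k M) h b (io ℓ k c.top.z0) = io ℓ k (c.low i h b).z0
      rw [fc_io, c.vt.f0]
    · change fc (wG ℓ k M) (Nat.lt_succ_self j) false (io ℓ k c.top.lam) = conj m (iLow D c.low) j (io ℓ k c.top.z1)
      rw [fc_io, c.vt.src, hc]
    · change fc (wG ℓ k M) (Nat.lt_succ_self j) true (io ℓ k c.top.lam) = io ℓ k c.top.z0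
      rw [fc_io, c.vt.tgt]
    · have hm : j < m := by
        rcases hn with hn | hn
        · exact hn
        · have : ℓ < j := hn
          omega
      obtain ⟨h1, h2⟩ := c.vt.nm (Or.inl hm)
      constructor
      · change io ℓ k c.top.z0 = conj m (iLow D c.low) j (io ℓ k c.top.z1)
        rw [hc, h1]
      · change io ℓ k c.top.lam = unitC (wM D M) (conj m (iLow D c.low) j (io ℓ k c.top.z1))
        rw [hc, h2]
        apply wE1_injT D hℓk (by omega)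
        rw [cm_wE1_io, unitC_nat, unitC_nat, cm_wE1_io]

theorem iLow_valid (hmℓ : m < ℓ) (hℓk : ℓ ≤ k) {j : ℕ} (hj : j ≤ ℓ) (c : PC m (Eab ℓ) M j) :
    VLow m (Eab ℓ) (iLow D c.low) := by
  intro i h b
  exact (iTr_valid D hmℓ hℓk i (by omega) (PC.face h b c)).restrict h.le (fun _ _ _ => rfl)

end low

/-! ### The triple at level `ℓ` -/

section mid

variable {m : ℕ} {M : Mdl C}

/-- The conjugate `a^P` as a cell of the full cylinder. -/
noncomputable def aCell (hℓk : ℓ ≤ k) (c : PC m (Eab ℓ) M ℓ) : PC ℓ Einf M ℓ :=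
  CC.cell (P := cylI ℓ M) hℓk (conj m (iLow D c.low) ℓ (io ℓ k c.top.z1) : Cl (wM D M).G ℓ)

/-- The conjugate in `M`. -/
noncomputable abbrev yC (c : PC m (Eab ℓ) M ℓ) : Cl M.G ℓ := conj m c.low ℓ c.top.z1

theorem aCell_eq (hℓk : ℓ ≤ k) (c : PC m (Eab ℓ) M ℓ) :
    (etaC k (aCell D hℓk c) : Cl (wM D M).G ℓ) = conj m (iLow D c.low) ℓ (io ℓ k c.top.z1) :=
  CC.etaC_cell' hℓk _

theorem aCell_z1 (hmℓ : m < ℓ) (hℓk : ℓ ≤ k) (c : PC m (Eab ℓ) M ℓ) :
    (aCell D hℓk c).top.z1 = yC c := by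
  have h := conj_e1 D c.vl (iLow_valid D hmℓ hℓk le_rfl c) c.top.z1 ℓ le_rfl le_rfl c.vt.f1
  exact congrFun (congrArg CC.top h) hℓk

theorem aCell_z0 (hmℓ : m < ℓ) (hℓk : ℓ ≤ k) (c : PC m (Eab ℓ) M ℓ) :
    (aCell D hℓk c).top.z0 = yC c := by
  have h := conj_e0 D c.vl (iLow_valid D hmℓ hℓk le_rfl c) le_rfl le_rfl c.top.z1 ℓ le_rfl le_rfl
    c.vt.f1
  exact congrFun (congrArg CC.top h) hℓk

theorem aCell_src (hℓk : ℓ ≤ k) (c : PC m (Eab ℓ) M ℓ) :
    fc M.G (Nat.lt_succ_self ℓ) false (aCell D hℓk c).top.lam = (aCell D hℓk c).top.z1 := by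
  rw [(aCell D hℓk c).vt.src, conj_of_le ℓ _ _ le_rfl]

theorem aCell_tgt (hℓk : ℓ ≤ k) (c : PC m (Eab ℓ) M ℓ) :
    fc M.G (Nat.lt_succ_self ℓ) true (aCell D hℓk c).top.lam = (aCell D hℓk c).top.z0 :=
  (aCell D hℓk c).vt.tgt

/-- The inverse loop. -/
noncomputable def xC (hℓk : ℓ ≤ k) (c : PC m (Eab ℓ) M ℓ) : Cl M.G (ℓ + 1) :=
  invC M (aCell D hℓk c).top.lam

theorem xC_match (hmℓ : m < ℓ) (hℓk : ℓ ≤ k) (c : PC m (Eab ℓ) M ℓ) :
    fc M.G (Nat.lt_succ_self ℓ) true (xC D hℓk c) = fc M.G (Nat.lt_succ_self ℓ) false c.top.lam := by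
  unfold xC
  rw [fc_invC_true, aCell_src, aCell_z1 D hmℓ hℓk, c.vt.src]

/-- The connecting cell of `t^P`. -/
noncomputable def LtC (hℓk : ℓ ≤ k) (c : PC m (Eab ℓ) M ℓ) : Cl M.G (ℓ + 1) :=
  invC M (comp2 M (xC D hℓk c) c.top.lam)

theorem LtC_src (hmℓ : m < ℓ) (hℓk : ℓ ≤ k) (c : PC m (Eab ℓ) M ℓ) :
    fc M.G (Nat.lt_succ_self ℓ) false (LtC D hℓk c) = c.top.z0 := by
  unfold LtC
  rw [fc_invC_false, (comp2_faces M (xC_match D hmℓ hℓk c)).2, c.vt.tgt]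

theorem LtC_tgt (hmℓ : m < ℓ) (hℓk : ℓ ≤ k) (c : PC m (Eab ℓ) M ℓ) :
    fc M.G (Nat.lt_succ_self ℓ) true (LtC D hℓk c) = (aCell D hℓk c).top.z0 := by
  unfold LtC
  rw [fc_invC_true, (comp2_faces M (xC_match D hmℓ hℓk c)).1]
  unfold xC
  rw [fc_invC_false, aCell_tgt]

theorem par_yC (c : PC m (Eab ℓ) M ℓ) (i : ℕ) (h : i < ℓ) (b : Bool) :
    fc M.G h b c.top.z0 = fc M.G h b (yC c) := by
  change fc M.G h b c.top.z0 = fc M.G h b (conj m c.low ℓ c.top.z1)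
  rw [← c.vt.src, ← c.vt.tgt, fc_fc, fc_fc]

/-- The cell `t^P`. -/
noncomputable def tC (hmℓ : m < ℓ) (hℓk : ℓ ≤ k) (c : PC m (Eab ℓ) M ℓ) : PC ℓ Einf M ℓ where
  low := (aCell D hℓk c).low
  top := ⟨c.top.z0, (aCell D hℓk c).top.z0, LtC D hℓk c⟩
  vl := (aCell D hℓk c).vl
  vt :=
    { f1 := fun i h b => by
        change fc M.G h b c.top.z0 = _
        rw [par_yC, ← aCell_z1 D hmℓ hℓk]
        exact (aCell D hℓk c).vt.f1 i h b
      f0 := (aCell D hℓk c).vt.f0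
      src := by
        change fc M.G _ false (LtC D hℓk c) = conj ℓ _ ℓ c.top.z0
        rw [LtC_src D hmℓ hℓk, conj_of_le ℓ _ _ le_rfl]
      tgt := LtC_tgt D hmℓ hℓk c
      nm := fun h => by
        rcases h with h | h
        · exact absurd h (Nat.lt_irrefl ℓ)
        · exact h.elim }

/-- The natural filler of the retraction. -/
noncomputable def retF (ℓ : ℕ) : tupF C (S2 ℓ) ⟶ cellF C (ℓ + 1 + 1) :=
  Classical.choose (exists_retFill (C := C) ℓ)

theorem retF_spec (ℓ : ℕ) (M : Mdl C) (τ : Tup M.G (S2 ℓ)) :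
    fc M.G (Nat.lt_succ_self (ℓ + 1)) false ((retF ℓ).app M τ) =
        comp3 M (x2 τ) (y2 τ) (invC M (comp2 M (x2 τ) (y2 τ))) ∧
      fc M.G (Nat.lt_succ_self (ℓ + 1)) true ((retF ℓ).app M τ) =
        unitC M (fc M.G (Nat.lt_succ_self ℓ) false (x2 τ)) :=
  Classical.choose_spec (exists_retFill (C := C) ℓ) M τ

/-- The connecting cell of `b^P`. -/
noncomputable def LbC (hmℓ : m < ℓ) (hℓk : ℓ ≤ k) (c : PC m (Eab ℓ) M ℓ) : Cl M.G (ℓ + 1 + 1) :=
  (retF ℓ).app M (tup2 (xC D hℓk c) c.top.lam (xC_match D hmℓ hℓk c))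

theorem LbC_src (hmℓ : m < ℓ) (hℓk : ℓ ≤ k) (c : PC m (Eab ℓ) M ℓ) :
    fc M.G (Nat.lt_succ_self (ℓ + 1)) false (LbC D hmℓ hℓk c) =
      comp3 M (xC D hℓk c) c.top.lam (LtC D hℓk c) := by
  have := (retF_spec ℓ M (tup2 (xC D hℓk c) c.top.lam (xC_match D hmℓ hℓk c))).1
  simp only [x2_tup2, y2_tup2] at this
  exact this

theorem LbC_tgt (hmℓ : m < ℓ) (hℓk : ℓ ≤ k) (c : PC m (Eab ℓ) M ℓ) :
    fc M.G (Nat.lt_succ_self (ℓ + 1)) true (LbC D hmℓ hℓk c) =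
      unitC M (aCell D hℓk c).top.z0 := by
  have := (retF_spec ℓ M (tup2 (xC D hℓk c) c.top.lam (xC_match D hmℓ hℓk c))).2
  simp only [x2_tup2] at this
  refine this.trans ?_
  unfold xC
  rw [fc_invC_false, aCell_tgt]

theorem bC_valid (hmℓ : m < ℓ) (hℓk : ℓ ≤ k) (c : PC m (Eab ℓ) M ℓ) :
    VT ℓ Einf (low2 (aCell D hℓk c) (tC D hmℓ hℓk c)) (ℓ + 1) le_rfl
      ⟨c.top.lam, unitC M (aCell D hℓk c).top.z0, LbC D hmℓ hℓk c⟩ := by
  have hbf : ∀ i' (h : i' < ℓ) (b' : Bool),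
      fc M.G (h.trans (Nat.lt_succ_self ℓ)) b' c.top.lam = ((aCell D hℓk c).low i' h b').z1 := by
    intro i' h b'
    rw [← fc_fc M.G h (Nat.lt_succ_self ℓ) b' false, c.vt.src]
    have e := (aCell D hℓk c).vt.f1 i' h b'
    rw [aCell_z1 D hmℓ hℓk] at e
    exact e
  refine ⟨fun i' h b' => ?_, fun i' h b' => ?_, ?_, LbC_tgt D hmℓ hℓk c, fun h => ?_⟩
  · change fc M.G h b' c.top.lam = _
    by_cases hi : i' < ℓ
    · rw [low2_lt _ _ h b' hi]
      exact hbf i' hi b'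
    · have hij : i' = ℓ := by omega
      subst hij
      rw [low2_eq]
      cases b'
      · change _ = (aCell D hℓk c).top.z1
        rw [aCell_z1 D hmℓ hℓk]
        exact c.vt.src
      · exact c.vt.tgt
  · change fc M.G h b' (unitC M (aCell D hℓk c).top.z0) = _
    by_cases hi : i' < ℓ
    · rw [low2_lt _ _ h b' hi]
      have e := fc_fc M.G hi (Nat.lt_succ_self ℓ) b' false (unitC M (aCell D hℓk c).top.z0)
      rw [fc_unitC] at e
      exact e.symm.trans ((aCell D hℓk c).vt.f0 i' hi b')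
    · have hij : i' = ℓ := by omega
      subst hij
      rw [low2_eq, fc_unitC]
      cases b' <;> rfl
  · change fc M.G (Nat.lt_succ_self (ℓ + 1)) false (LbC D hmℓ hℓk c) =
      conj ℓ (low2 (aCell D hℓk c) (tC D hmℓ hℓk c)) (ℓ + 1) c.top.lam
    rw [LbC_src, conj_succ_high ℓ (low2 (aCell D hℓk c) (tC D hmℓ hℓk c)) c.top.lam
        (Nat.lt_succ_self ℓ) (Nat.lt_irrefl ℓ),
      conj_of_le ℓ (low2 (aCell D hℓk c) (tC D hmℓ hℓk c)) c.top.lam le_rfl, low2_eq, low2_eq]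
    rfl
  · rcases h with h | h
    · omega
    · exact h.elim

/-- The cell `b^P`. -/
noncomputable def bC (hmℓ : m < ℓ) (hℓk : ℓ ≤ k) (c : PC m (Eab ℓ) M ℓ) : PC ℓ Einf M (ℓ + 1) :=
  PC.mk2 (aCell D hℓk c) (tC D hmℓ hℓk c) rfl
    ⟨c.top.lam, unitC M (aCell D hℓk c).top.z0, LbC D hmℓ hℓk c⟩ (bC_valid D hmℓ hℓk c)

/-- The triple at level `ℓ`. -/
noncomputable def midTr (hmℓ : m < ℓ) (hℓk : ℓ ≤ k) (c : PC m (Eab ℓ) M ℓ) : Tr (wM D M) ℓ :=
  ⟨io ℓ k c.top.z1, etaC (P := cylI ℓ M) k (tC D hmℓ hℓk c), etaC (P := cylI ℓ M) k (bC D hmℓ hℓk c)⟩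

theorem midTr_valid (hmℓ : m < ℓ) (hℓk : ℓ ≤ k) (c : PC m (Eab ℓ) M ℓ) :
    VT m (Eab ℓ) (iLow D c.low) ℓ le_rfl (midTr D hmℓ hℓk c) := by
  refine ⟨fun i h b => ?_, fun i h b => ?_, ?_, ?_, fun hn => ?_⟩
  · change fc (wG ℓ k M) h b (io ℓ k c.top.z1) = io ℓ k (c.low i h b).z1
    rw [fc_io, c.vt.f1]
  · change fc (Cosk k (cylI ℓ M)) h b (etaC k (tC D hmℓ hℓk c)) = io ℓ k (c.low i h b).z0
    refine (fc_etaC (P := cylI ℓ M) k h b (tC D hmℓ hℓk c)).trans ?_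
    unfold io
    congr 1
    apply pc_eq_of_z1 i h
    rw [Lc_z1]
    change ((aCell D hℓk c).low i h b).z1 = _
    rw [← (aCell D hℓk c).vt.f1 i h b, aCell_z1 D hmℓ hℓk, ← par_yC, c.vt.f0]
  · change fc (Cosk k (cylI ℓ M)) (Nat.lt_succ_self ℓ) false (etaC k (bC D hmℓ hℓk c)) =
      conj m (iLow D c.low) ℓ (io ℓ k c.top.z1)
    refine (fc_etaC (P := cylI ℓ M) k _ false (bC D hmℓ hℓk c)).trans ?_
    rw [← aCell_eq D hℓk]
    congr 1
    exact PC.face_mk2_false _ _ _ _ _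
  · change fc (Cosk k (cylI ℓ M)) (Nat.lt_succ_self ℓ) true (etaC k (bC D hmℓ hℓk c)) =
      etaC k (tC D hmℓ hℓk c)
    refine (fc_etaC (P := cylI ℓ M) k _ true (bC D hmℓ hℓk c)).trans ?_
    congr 1
    exact PC.face_mk2_true _ _ _ _ _
  · rcases hn with hn | hn
    · omega
    · exact absurd hn (Nat.lt_irrefl ℓ)

/-! ### Naturality at level `ℓ` -/

section midNat

variable {M' : Mdl C} (f : M ⟶ M') (hmℓ : m < ℓ) (hℓk : ℓ ≤ k) (c : PC m (Eab ℓ) M ℓ)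

include hmℓ in
theorem aCell_nat : (cylMap f).app (op (GlobeObj.mk ℓ)) (aCell D hℓk c) =
    aCell D hℓk ((cylMap f).app (op (GlobeObj.mk ℓ)) c) := by
  have h := conj_nat (wMap D f) (iLow_valid D hmℓ hℓk le_rfl c) (io ℓ k c.top.z1) ℓ le_rfl le_rfl
    (fun i' h b => by rw [fc_io, c.vt.f1 i' h b]; rfl)
  have e : (fun i h b => mapTr (wMap D f) (iLow D c.low i h b)) =
      iLow D ((cylMap f).app (op (GlobeObj.mk ℓ)) c : PC m (Eab ℓ) M' ℓ).low := by
    funext i h b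
    exact mapTr_wMap_iTr D f _
  rw [e, cm_wMap_io] at h
  exact congrFun (congrArg CC.top h) hℓk

include hmℓ in
theorem xC_nat : Mdl.cm f (xC D hℓk c) = xC D hℓk ((cylMap f).app (op (GlobeObj.mk ℓ)) c) := by
  unfold xC
  rw [invC_nat, ← aCell_nat D f hmℓ hℓk c]
  rfl

include hmℓ in
theorem LtC_nat : Mdl.cm f (LtC D hℓk c) = LtC D hℓk ((cylMap f).app (op (GlobeObj.mk ℓ)) c) := by
  unfold LtC
  rw [invC_nat, comp2_nat f (xC_match D hmℓ hℓk c), xC_nat D f hmℓ hℓk c]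
  rfl

theorem tC_nat : (cylMap f).app (op (GlobeObj.mk ℓ)) (tC D hmℓ hℓk c) =
    tC D hmℓ hℓk ((cylMap f).app (op (GlobeObj.mk ℓ)) c) := by
  have ha := aCell_nat D f hmℓ hℓk c
  apply PC.ext
  · have h := congrArg PC.low ha
    exact h
  · apply Tr.ext
    · rfl
    · have h := congrArg (fun x : PC ℓ Einf M' ℓ => x.top.z0) ha
      exact h
    · exact LtC_nat D f hmℓ hℓk c

theorem tup2_map {P Q : GlobPsh.{u}} {n : ℕ} (φ : P ⟶ Q) (x y : Cl P (n + 1))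
    (hm : fc P (Nat.lt_succ_self n) true x = fc P (Nat.lt_succ_self n) false y) :
    tup2 x y hm ≫ φ = tup2 (φ.app _ x) (φ.app _ y) (by rw [← fc_nat, ← fc_nat, hm]) := by
  unfold tup2
  refine (Tup.glueT_map φ (cellT x) y _).trans ?_
  have e := cellT_map x φ
  congr 1

theorem LbC_nat : Mdl.cm f (LbC D hmℓ hℓk c) =
    LbC D hmℓ hℓk ((cylMap f).app (op (GlobeObj.mk ℓ)) c) := by
  unfold LbC
  refine (nat_apply (retF ℓ) f _).trans ?_
  congr 1
  refine (tup2_map (Mdl.Hom.φ f) _ _ _).trans ?_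
  have hx := xC_nat D f hmℓ hℓk c
  have key : ∀ (x x' y : Cl M'.G (ℓ + 1)) (hm : fc M'.G (Nat.lt_succ_self ℓ) true x =
      fc M'.G (Nat.lt_succ_self ℓ) false y) (hm' : fc M'.G (Nat.lt_succ_self ℓ) true x' =
      fc M'.G (Nat.lt_succ_self ℓ) false y), x = x' → tup2 x y hm = tup2 x' y hm' := by
    intro x x' y hm hm' h
    subst h
    rfl
  exact key _ _ _ _ _ hx

theorem bC_nat : (cylMap f).app (op (GlobeObj.mk (ℓ + 1))) (bC D hmℓ hℓk c) =
    bC D hmℓ hℓk ((cylMap f).app (op (GlobeObj.mk ℓ)) c) := by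
  have ha := aCell_nat D f hmℓ hℓk c
  have ht := tC_nat D f hmℓ hℓk c
  apply PC.ext
  · have := low2_map f (aCell D hℓk c) (tC D hmℓ hℓk c)
    rw [ha, ht] at this
    exact this.symm
  · apply Tr.ext
    · rfl
    · change Mdl.cm f (unitC M (aCell D hℓk c).top.z0) =
        unitC M' (aCell D hℓk ((cylMap f).app (op (GlobeObj.mk ℓ)) c)).top.z0
      rw [unitC_nat, ← ha]
      rfl
    · exact LbC_nat D f hmℓ hℓk c

theorem midTr_nat : mapTr (wMap D f) (midTr D hmℓ hℓk c) =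
    midTr D hmℓ hℓk ((cylMap f).app (op (GlobeObj.mk ℓ)) c) := by
  apply Tr.ext
  · exact cm_wMap_io D f _
  · change CC.map (cylMap f) (etaC k (tC D hmℓ hℓk c)) = etaC k _
    refine (CC_map_etaC k (cylMap f) (tC D hmℓ hℓk c)).trans ?_
    exact congrArg (etaC (P := cylI ℓ M') k) (tC_nat D f hmℓ hℓk c)
  · change CC.map (cylMap f) (etaC k (bC D hmℓ hℓk c)) = etaC k _
    refine (CC_map_etaC k (cylMap f) (bC D hmℓ hℓk c)).trans ?_
    exact congrArg (etaC (P := cylI ℓ M') k) (bC_nat D f hmℓ hℓk c)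

end midNat

end mid

/-! ### The homotopy -/

section psi

variable {m : ℕ} (hmℓ : m < ℓ) (hℓk : ℓ ≤ k)

/-- The triple at level `ℓ`, for a level propositionally equal to `ℓ`. -/
noncomputable def midTr' {M : Mdl C} {j : ℕ} (hj : ℓ = j) (c : PC m (Eab ℓ) M j) :
    Tr (wM D M) j := by
  subst hj
  exact midTr D hmℓ hℓk c

/-- The top function of the homotopy. -/
noncomputable def Ttop (M : Mdl C) : (j : ℕ) → PC m (Eab ℓ) M j → Tr (wM D M) j
  | j => fun c =>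
    if hj : j < ℓ then iTr D c.top
    else if hj' : ℓ = j then midTr' D hmℓ hℓk hj' c
    else normTr m (fun i (h : i < j) b => Ttop M i (PC.face h b c)) (io ℓ k c.top.z1)
termination_by j => j

variable {M : Mdl C}

/-- The lower data of the homotopy. -/
noncomputable abbrev lowT {j : ℕ} (c : PC m (Eab ℓ) M j) : Low (wM D M) j :=
  fun i (h : i < j) b => Ttop D hmℓ hℓk M i (PC.face h b c)

theorem Ttop_low {j : ℕ} (hj : j < ℓ) (c : PC m (Eab ℓ) M j) :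
    Ttop D hmℓ hℓk M j c = iTr D c.top := by
  rw [Ttop]
  exact dif_pos hj

theorem Ttop_mid (c : PC m (Eab ℓ) M ℓ) :
    Ttop D hmℓ hℓk M ℓ c = midTr D hmℓ hℓk c := by
  rw [Ttop]
  exact (dif_neg (Nat.lt_irrefl ℓ)).trans (dif_pos rfl)

theorem Ttop_high {j : ℕ} (hj : ℓ < j) (c : PC m (Eab ℓ) M j) :
    Ttop D hmℓ hℓk M j c = normTr m (lowT D hmℓ hℓk c) (io ℓ k c.top.z1) := by
  rw [Ttop]
  exact (dif_neg (by omega)).trans (dif_neg (by omega))

theorem lowT_of_le {j : ℕ} (hj : j ≤ ℓ) (c : PC m (Eab ℓ) M j) :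
    lowT D hmℓ hℓk c = iLow D c.low := by
  funext i h b
  exact Ttop_low D hmℓ hℓk (by omega) _

theorem Ttop_z1 {j : ℕ} (c : PC m (Eab ℓ) M j) :
    (Ttop D hmℓ hℓk M j c).z1 = io ℓ k c.top.z1 := by
  rcases lt_trichotomy j ℓ with hj | hj | hj
  · rw [Ttop_low D hmℓ hℓk hj]
    rfl
  · subst hj
    rw [Ttop_mid]
    rfl
  · rw [Ttop_high D hmℓ hℓk hj]
    rfl

theorem lowT_z1 {j : ℕ} (c : PC m (Eab ℓ) M j) (i : ℕ) (h : i < j) (b : Bool) :
    fc (wM D M).G h b (io ℓ k c.top.z1) = (lowT D hmℓ hℓk c i h b).z1 := by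
  rw [Ttop_z1]
  refine (fc_io h b c.top.z1).trans ?_
  rw [c.vt.f1 i h b]
  rfl

theorem Ttop_valid : ∀ (j : ℕ) (c : PC m (Eab ℓ) M j),
    VT m (Eab ℓ) (lowT D hmℓ hℓk c) j le_rfl (Ttop D hmℓ hℓk M j c) := by
  intro j
  induction j using Nat.strong_induction_on with
  | _ j ih =>
    intro c
    rcases lt_trichotomy j ℓ with hj | hj | hj
    · rw [Ttop_low D hmℓ hℓk hj, lowT_of_le D hmℓ hℓk hj.le]
      exact iTr_valid D hmℓ hℓk j hj c
    · subst hj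
      rw [Ttop_mid, lowT_of_le D hmℓ hℓk le_rfl]
      exact midTr_valid D hmℓ hℓk c
    · rw [Ttop_high D hmℓ hℓk hj]
      apply normTr_valid (E := Eab ℓ)
      · intro i h b
        exact (ih i h (PC.face h b c)).restrict h.le (fun _ _ _ => rfl)
      · exact lowT_z1 D hmℓ hℓk c

theorem lowT_valid {j : ℕ} (c : PC m (Eab ℓ) M j) : VLow m (Eab ℓ) (lowT D hmℓ hℓk c) := by
  intro i h b
  exact (Ttop_valid D hmℓ hℓk i (PC.face h b c)).restrict h.le (fun _ _ _ => rfl)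

/-- The homotopy as a map of globular presheaves. -/
noncomputable def Psi₀ (M : Mdl C) : cyl m (Eab ℓ) M ⟶ cyl m (Eab ℓ) (wM D M) :=
  mapTop (Q := cyl m (Eab ℓ) M) (fun j (c : PC m (Eab ℓ) M j) => Ttop D hmℓ hℓk M j c)
    (fun j (c : PC m (Eab ℓ) M j) => Ttop_valid D hmℓ hℓk j c)

theorem Ttop_e1 : ∀ (j : ℕ) (c : PC m (Eab ℓ) M j),
    mapTr (wE1 D M) (Ttop D hmℓ hℓk M j c) = mapTr (etaM k M) c.top := by
  intro j
  induction j using Nat.strong_induction_on with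
  | _ j ih =>
    intro c
    rcases lt_trichotomy j ℓ with hj | hj | hj
    · rw [Ttop_low D hmℓ hℓk hj]
      exact mapTr_wE1_iTr D _
    · subst hj
      rw [Ttop_mid]
      apply Tr.ext
      · exact cm_wE1_io D _
      · exact CC_map_etaC k (e1G j Einf M) (tC D hmℓ hℓk c)
      · exact CC_map_etaC k (e1G j Einf M) (bC D hmℓ hℓk c)
    · rw [Ttop_high D hmℓ hℓk hj]
      have e := PC.top_eq_norm c (Or.inr hj)
      have hf : (fun i h b => mapTr (wE1 D M) (lowT D hmℓ hℓk c i h b)) =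
          fun i h b => mapTr (etaM k M) (c.low i h b) := by
        funext i h b
        exact ih i h (PC.face h b c)
      calc _ = normTr m (fun i h b => mapTr (wE1 D M) (lowT D hmℓ hℓk c i h b))
              (Mdl.cm (wE1 D M) (io ℓ k c.top.z1)) :=
            mapTr_normTr (wE1 D M) (lowT_valid D hmℓ hℓk c) _ (lowT_z1 D hmℓ hℓk c)
        _ = normTr m (fun i h b => mapTr (etaM k M) (c.low i h b))
              (Mdl.cm (etaM k M) c.top.z1) := by rw [hf, cm_wE1_io]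
        _ = mapTr (etaM k M) (normTr m c.low c.top.z1) :=
            (mapTr_normTr (etaM k M) c.vl c.top.z1 c.vt.f1).symm
        _ = mapTr (etaM k M) c.top := by rw [← e]

theorem Ttop_nat {M' : Mdl C} (f : M ⟶ M') : ∀ (j : ℕ) (c : PC m (Eab ℓ) M j),
    mapTr (wMap D f) (Ttop D hmℓ hℓk M j c) =
      Ttop D hmℓ hℓk M' j ((cylMap f).app (op (GlobeObj.mk j)) c) := by
  intro j
  induction j using Nat.strong_induction_on with
  | _ j ih =>
    intro c
    rcases lt_trichotomy j ℓ with hj | hj | hj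
    · rw [Ttop_low D hmℓ hℓk hj]
      refine Eq.trans ?_ (Ttop_low D hmℓ hℓk hj _).symm
      exact mapTr_wMap_iTr D f _
    · subst hj
      rw [Ttop_mid]
      refine Eq.trans ?_ (Ttop_mid D hmℓ hℓk _).symm
      exact midTr_nat D f hmℓ hℓk c
    · rw [Ttop_high D hmℓ hℓk hj]
      refine Eq.trans ?_ (Ttop_high D hmℓ hℓk hj _).symm
      refine (mapTr_normTr (wMap D f) (lowT_valid D hmℓ hℓk c) _ (lowT_z1 D hmℓ hℓk c)).trans ?_
      have hf : (fun i h b => mapTr (wMap D f) (lowT D hmℓ hℓk c i h b)) =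
          lowT D hmℓ hℓk ((cylMap f).app (op (GlobeObj.mk j)) c) := by
        funext i h b
        exact ih i h (PC.face h b c)
      rw [hf, cm_wMap_io]
      rfl

/-! ### Renormalisation -/

/-- The top function of the renormalisation. -/
noncomputable def Utop (m ℓ : ℕ) (M : Mdl C) : (j : ℕ) → PC m (Eab ℓ) M j → Tr M j
  | j => fun c =>
    if _hj : j < ℓ then c.top
    else normTr m (fun i (h : i < j) b => Utop m ℓ M i (PC.face h b c)) (eL ℓ c.top.z1)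
termination_by j => j

/-- The lower data of the renormalisation. -/
noncomputable abbrev lowU {j : ℕ} (c : PC m (Eab ℓ) M j) : Low M j :=
  fun i (h : i < j) b => Utop m ℓ M i (PC.face h b c)

theorem Utop_low {j : ℕ} (hj : j < ℓ) (c : PC m (Eab ℓ) M j) : Utop m ℓ M j c = c.top := by
  rw [Utop]
  exact dif_pos hj

theorem Utop_high {j : ℕ} (hj : ℓ ≤ j) (c : PC m (Eab ℓ) M j) :
    Utop m ℓ M j c = normTr m (lowU c) (eL ℓ c.top.z1) := by
  rw [Utop]
  exact dif_neg (by omega)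

theorem lowU_of_le {j : ℕ} (hj : j ≤ ℓ) (c : PC m (Eab ℓ) M j) : lowU c = c.low := by
  funext i h b
  exact Utop_low (by omega) _

theorem Utop_z1 {j : ℕ} (c : PC m (Eab ℓ) M j) : (Utop m ℓ M j c).z1 = eL ℓ c.top.z1 := by
  by_cases hj : j < ℓ
  · rw [Utop_low hj, eL_of_le ℓ _ hj.le]
  · rw [Utop_high (by omega)]
    rfl

theorem lowU_z1 {j : ℕ} (c : PC m (Eab ℓ) M j) (i : ℕ) (h : i < j) (b : Bool) :
    fc M.G h b (eL ℓ c.top.z1) = (lowU c i h b).z1 := by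
  rw [Utop_z1, fc_eL, c.vt.f1 i h b]
  rfl

theorem Utop_valid : ∀ (j : ℕ) (c : PC m (Eab ℓ) M j),
    VT m (Eab (ℓ - 1)) (lowU c) j le_rfl (Utop m ℓ M j c) := by
  intro j
  induction j using Nat.strong_induction_on with
  | _ j ih =>
    intro c
    by_cases hj : j < ℓ
    · rw [Utop_low hj, lowU_of_le hj.le]
      refine c.vt.mono (fun i' hi' h => ?_)
      have : ℓ - 1 < i' := h
      omega
    · rw [Utop_high (by omega)]
      apply normTr_valid (E := Eab (ℓ - 1))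
      · intro i h b
        exact (ih i h (PC.face h b c)).restrict h.le (fun _ _ _ => rfl)
      · exact lowU_z1 c

theorem lowU_valid {j : ℕ} (c : PC m (Eab ℓ) M j) : VLow m (Eab (ℓ - 1)) (lowU c) := by
  intro i h b
  exact (Utop_valid i (PC.face h b c)).restrict h.le (fun _ _ _ => rfl)

/-- The renormalisation as a map of globular presheaves. -/
noncomputable def Upi (m ℓ : ℕ) (M : Mdl C) : cyl m (Eab ℓ) M ⟶ cyl m (Eab (ℓ - 1)) M :=
  mapTop (Q := cyl m (Eab ℓ) M) (fun j (c : PC m (Eab ℓ) M j) => Utop m ℓ M j c)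
    (fun j (c : PC m (Eab ℓ) M j) => Utop_valid j c)

theorem Utop_nat {M' : Mdl C} (f : M ⟶ M') : ∀ (j : ℕ) (c : PC m (Eab ℓ) M j),
    mapTr f (Utop m ℓ M j c) = Utop m ℓ M' j ((cylMap f).app (op (GlobeObj.mk j)) c) := by
  intro j
  induction j using Nat.strong_induction_on with
  | _ j ih =>
    intro c
    by_cases hj : j < ℓ
    · rw [Utop_low hj]
      refine Eq.trans ?_ (Utop_low hj _).symm
      rfl
    · rw [Utop_high (by omega)]
      refine Eq.trans ?_ (Utop_high (by omega) _).symm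
      refine (mapTr_normTr f (lowU_valid c) _ (lowU_z1 c)).trans ?_
      have hf : (fun i h b => mapTr f (lowU c i h b)) =
          lowU ((cylMap f).app (op (GlobeObj.mk j)) c) := by
        funext i h b
        exact ih i h (PC.face h b c)
      rw [hf, eL_nat]
      rfl

theorem Ttop_e0 : ∀ (j : ℕ) (c : PC m (Eab ℓ) M j),
    mapTr (wE0 D M) (Ttop D hmℓ hℓk M j c) = mapTr (etaM k M) (Utop m ℓ M j c) := by
  intro j
  induction j using Nat.strong_induction_on with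
  | _ j ih =>
    intro c
    rcases lt_trichotomy j ℓ with hj | hj | hj
    · rw [Ttop_low D hmℓ hℓk hj, Utop_low hj]
      exact mapTr_wE0_iTr D _ hj
    · subst hj
      rw [Ttop_mid, Utop_high le_rfl, lowU_of_le le_rfl, eL_of_le j _ le_rfl]
      apply Tr.ext
      · refine (cm_wE0_io D _).trans ?_
        rw [eL_of_le j _ le_rfl]
        rfl
      · refine (CC_map_etaC k (e0G j Einf M) (tC D hmℓ hℓk c)).trans ?_
        exact congrArg (etaC (P := M.G) k) (aCell_z0 D hmℓ hℓk c)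
      · refine (CC_map_etaC k (e0G j Einf M) (bC D hmℓ hℓk c)).trans ?_
        exact congrArg (fun x => etaC (P := M.G) k (unitC M x)) (aCell_z0 D hmℓ hℓk c)
    · rw [Ttop_high D hmℓ hℓk hj, Utop_high hj.le]
      have hf : (fun i h b => mapTr (wE0 D M) (lowT D hmℓ hℓk c i h b)) =
          fun i h b => mapTr (etaM k M) (lowU c i h b) := by
        funext i h b
        exact ih i h (PC.face h b c)
      calc _ = normTr m (fun i h b => mapTr (wE0 D M) (lowT D hmℓ hℓk c i h b))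
              (Mdl.cm (wE0 D M) (io ℓ k c.top.z1)) :=
            mapTr_normTr (wE0 D M) (lowT_valid D hmℓ hℓk c) _ (lowT_z1 D hmℓ hℓk c)
        _ = normTr m (fun i h b => mapTr (etaM k M) (lowU c i h b))
              (Mdl.cm (etaM k M) (eL ℓ c.top.z1)) := by rw [hf, cm_wE0_io]
        _ = _ := (mapTr_normTr (etaM k M) (lowU_valid c) _ (lowU_z1 c)).symm

end psi

end iota

/-! ### The transfer step -/

section main

variable {m ℓ k : ℕ}

/-- The inclusion of cylinders `ρ`. -/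
theorem eab_pred (ℓ i' : ℕ) (h : Eab ℓ i') : Eab (ℓ - 1) i' := by
  have h1 : ℓ < i' := h
  change ℓ - 1 < i'
  omega

/-- The renormalisation of tuples. -/
noncomputable def uT (m ℓ : ℕ) (S : Shape) : Cx (C := C) m ℓ S ⟶ Cx (C := C) m (ℓ - 1) S where
  app M := ↾(fun τ : Tup (cyl m (Eab ℓ) M) S => τ ≫ Upi m ℓ M)
  naturality {M M'} f := by
    ext (τ : Tup (cyl m (Eab ℓ) M) S)
    change (τ ≫ cylMap f) ≫ Upi m ℓ M' = (τ ≫ Upi m ℓ M) ≫ cylMap f
    rw [Category.assoc, Category.assoc]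
    congr 1
    apply hom_ext'
    intro j c
    apply PC.ext
    · funext i h b
      exact (Utop_nat f i (PC.face h b c)).symm
    · exact (Utop_nat f j c).symm

/-- The inclusion of tuples. -/
noncomputable def rhoT (m ℓ : ℕ) (S : Shape) : Cx (C := C) m (ℓ - 1) S ⟶ Cx (C := C) m ℓ S where
  app M := ↾(fun τ : Tup (cyl m (Eab (ℓ - 1)) M) S => τ ≫ cylIncl (eab_pred ℓ) M)
  naturality {M M'} f := by
    ext (τ : Tup (cyl m (Eab (ℓ - 1)) M) S)
    change (τ ≫ cylMap f) ≫ cylIncl (eab_pred ℓ) M' = (τ ≫ cylIncl (eab_pred ℓ) M) ≫ cylMap f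
    rw [Category.assoc, Category.assoc, cylIncl_cylMap]

/-- **The transfer step.** -/
theorem transfer (hmℓ : m < ℓ) (hℓk : ℓ ≤ k) (hFill : FillHyp C ℓ k) {S : Shape}
    (h : Fill (Cx (C := C) m (ℓ - 1) S) k) : Fill (Cx (C := C) m ℓ S) k := by
  obtain ⟨D⟩ := exists_WData hFill
  refine lemmaT D hFill h (uT m ℓ S) (rhoT m ℓ S)
    (fun M τ => (τ : Tup (cyl m (Eab ℓ) M) S) ≫ Psi₀ D hmℓ hℓk M) ?_ ?_ ?_
  · intro M M' f (x : Tup (cyl m (Eab ℓ) M) S)
    change (x ≫ cylMap f) ≫ Psi₀ D hmℓ hℓk M' = (x ≫ Psi₀ D hmℓ hℓk M) ≫ cylMap (wMap D f)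
    rw [Category.assoc, Category.assoc]
    congr 1
    apply hom_ext'
    intro j c
    apply PC.ext
    · funext i h b
      exact (Ttop_nat D hmℓ hℓk f i (PC.face h b c)).symm
    · exact (Ttop_nat D hmℓ hℓk f j c).symm
  · intro M (x : Tup (cyl m (Eab ℓ) M) S)
    change (x ≫ Psi₀ D hmℓ hℓk M) ≫ cylMap (wE1 D M) = x ≫ cylMap (etaM k M)
    rw [Category.assoc]
    congr 1
    apply hom_ext'
    intro j c
    apply PC.ext
    · funext i h b
      exact Ttop_e1 D hmℓ hℓk i (PC.face h b c)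
    · exact Ttop_e1 D hmℓ hℓk j c
  · intro M (x : Tup (cyl m (Eab ℓ) M) S)
    change (x ≫ Psi₀ D hmℓ hℓk M) ≫ cylMap (wE0 D M) =
      ((x ≫ Upi m ℓ M) ≫ cylIncl (eab_pred ℓ) M) ≫ cylMap (etaM k M)
    rw [Category.assoc, Category.assoc, Category.assoc]
    congr 1
    apply hom_ext'
    intro j c
    apply PC.ext
    · funext i h b
      exact Ttop_e0 D hmℓ hℓk i (PC.face h b c)
    · exact Ttop_e0 D hmℓ hℓk j c

/-- The statement used in the main induction. -/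
theorem transferStep : TransferStep C :=
  fun hmℓ hℓk hFill _ h => transfer hmℓ hℓk hFill h

end main

end Crest.Agent.Coh
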