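import Crest.Agent.Lib.Coh.CK
import Crest.Agent.Lib.Coh.CylApi

/-!
# The core rule for generators in the cylinder model
-/

set_option autoImplicit false

open CategoryTheory CategoryTheory.Limits Opposite
open Crest.GeometryTopology.Coherator

universe u

namespace Crest.Agent.Coh

variable {C : GlobTheory.{u}} [Kit C]

theorem not_einf (i : ℕ) : ¬ Einf i := id

/-- The inclusion of the `ℓ`-truncated cylinder into the full one. -/
noncomputable abbrev inclA (m ℓ : ℕ) (M : Mdl C) : cylA m ℓ M ⟶ cylI m M :=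
  cylIncl (fun _ h => absurd h (not_einf _)) M

theorem inclA_bijective (m ℓ : ℕ) (M : Mdl C) (j : ℕ) (hj : j ≤ ℓ) :
    Function.Bijective ((inclA m ℓ M).app (op (GlobeObj.mk j))) :=
  cylIncl_bijective _ M j (fun i' hi' h => by
    have : ℓ < i' := h
    omega)

theorem tup_inclA_bijective (m ℓ : ℕ) (M : Mdl C) (S : Shape) (hS : S.dim ≤ ℓ) :
    Function.Bijective (fun τ : Tup (cylA m ℓ M) S => τ ≫ inclA m ℓ M) :=
  tup_lift_bijective _ ℓ (fun j hj => inclA_bijective m ℓ M j hj) S hS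

/-- Below `m` the two ends of a tuple agree. -/
theorem tup_ends_eq {m : ℕ} {E : ℕ → Prop} {M : Mdl C} {S : Shape} (hS : S.dim < m)
    (τ : Tup (cyl m E M) S) : τ ≫ e1G m E M = τ ≫ e0G m E M := by
  ext ⟨⟨j⟩⟩ x
  by_cases hj : j ≤ S.dim
  · have hjm : j < m := by omega
    have hc := (τ.app (op (GlobeObj.mk j)) x : PC m E M j).vt.nm (Or.inl hjm)
    have h2 := hc.1
    rw [conj_of_le m _ _ hjm.le] at h2
    exact h2.symm
  · exact ((Shape.psh_empty S (not_le.mp hj)).false x.down).elim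

/-- The core rule: natural boundary data for a generator extend to natural cells. -/
theorem exists_cell_rule {m n : ℕ} {S : Shape} (o : C.arr (Shape.globe (n + 1)) S)
    (hS : S.dim ≤ n + 1) (hF : m ≤ n + 1 → Fill (Cx (C := C) m (n + 1) S) (n + 1))
    (bd : ∀ M : Mdl C, Tup (cylI m M) S → Bool → PC m Einf M n)
    (hnat : ∀ {M M' : Mdl C} (f : M ⟶ M') (τ : Tup (cylI m M) S) (b : Bool),
      (cylMap f).app (op (GlobeObj.mk n)) (bd M τ b) = bd M' (τ ≫ cylMap f) b)
    (hpar : ∀ (M : Mdl C) (τ : Tup (cylI m M) S), (bd M τ false).low = (bd M τ true).low)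
    (h1 : ∀ (M : Mdl C) (τ : Tup (cylI m M) S) (b : Bool),
      (bd M τ b).top.z1 = fc M.G (Nat.lt_succ_self n) b (M.opC o (τ ≫ e1G m Einf M)))
    (h0 : ∀ (M : Mdl C) (τ : Tup (cylI m M) S) (b : Bool),
      (bd M τ b).top.z0 = fc M.G (Nat.lt_succ_self n) b (M.opC o (τ ≫ e0G m Einf M))) :
    ∃ F : ∀ M : Mdl C, Tup (cylI m M) S → PC m Einf M (n + 1),
      (∀ (M : Mdl C) (τ : Tup (cylI m M) S) (b : Bool),
        PC.face (Nat.lt_succ_self n) b (F M τ) = bd M τ b) ∧
      (∀ {M M' : Mdl C} (f : M ⟶ M') (τ : Tup (cylI m M) S),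
        (cylMap f).app (op (GlobeObj.mk (n + 1))) (F M τ) = F M' (τ ≫ cylMap f)) ∧
      (∀ (M : Mdl C) (τ : Tup (cylI m M) S), (F M τ).top.z1 = M.opC o (τ ≫ e1G m Einf M)) ∧
      (∀ (M : Mdl C) (τ : Tup (cylI m M) S), (F M τ).top.z0 = M.opC o (τ ≫ e0G m Einf M)) := by
  -- boundary matching of the two ends
  have hb1 : ∀ (M : Mdl C) (τ : Tup (cylI m M) S) (i : ℕ) (h : i < n + 1) (b : Bool),
      fc M.G h b (M.opC o (τ ≫ e1G m Einf M)) =
        (low2 (bd M τ false) (bd M τ true) i h b).z1 := by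
    intro M τ i h b
    by_cases hi : i < n
    · rw [low2_lt _ _ h b hi, ← (bd M τ false).vt.f1 i hi b, h1, fc_fc]
    · have hin : i = n := by omega
      subst hin
      rw [low2_eq]
      cases b
      · exact (h1 M τ false).symm
      · exact (h1 M τ true).symm
  have hb0 : ∀ (M : Mdl C) (τ : Tup (cylI m M) S) (i : ℕ) (h : i < n + 1) (b : Bool),
      fc M.G h b (M.opC o (τ ≫ e0G m Einf M)) =
        (low2 (bd M τ false) (bd M τ true) i h b).z0 := by
    intro M τ i h b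
    by_cases hi : i < n
    · rw [low2_lt _ _ h b hi, ← (bd M τ false).vt.f0 i hi b, h0, fc_fc]
    · have hin : i = n := by omega
      subst hin
      rw [low2_eq]
      cases b
      · exact (h0 M τ false).symm
      · exact (h0 M τ true).symm
  have hvl : ∀ (M : Mdl C) (τ : Tup (cylI m M) S),
      VLow m Einf (low2 (bd M τ false) (bd M τ true)) :=
    fun M τ => low2_vl _ _ (hpar M τ)
  -- the parts of the top triple
  let z1 : ∀ (M : Mdl C), Tup (cylI m M) S → Cl M.G (n + 1) := fun M τ => M.opC o (τ ≫ e1G m Einf M)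
  let z0 : ∀ (M : Mdl C), Tup (cylI m M) S → Cl M.G (n + 1) := fun M τ => M.opC o (τ ≫ e0G m Einf M)
  have hz1nat : ∀ {M M' : Mdl C} (f : M ⟶ M') (τ : Tup (cylI m M) S),
      Mdl.cm f (z1 M τ) = z1 M' (τ ≫ cylMap f) := by
    intro M M' f τ
    change Mdl.cm f (M.opC o (τ ≫ e1G m Einf M)) = M'.opC o ((τ ≫ cylMap f) ≫ e1G m Einf M')
    rw [Mdl.opC_nat, Category.assoc, Category.assoc, cylMap_e1]
  have hz0nat : ∀ {M M' : Mdl C} (f : M ⟶ M') (τ : Tup (cylI m M) S),
      Mdl.cm f (z0 M τ) = z0 M' (τ ≫ cylMap f) := by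
    intro M M' f τ
    change Mdl.cm f (M.opC o (τ ≫ e0G m Einf M)) = M'.opC o ((τ ≫ cylMap f) ≫ e0G m Einf M')
    rw [Mdl.opC_nat, Category.assoc, Category.assoc, cylMap_e0]
  have hlownat : ∀ {M M' : Mdl C} (f : M ⟶ M') (τ : Tup (cylI m M) S),
      (fun i h b => mapTr f (low2 (bd M τ false) (bd M τ true) i h b)) =
        low2 (bd M' (τ ≫ cylMap f) false) (bd M' (τ ≫ cylMap f) true) := by
    intro M M' f τ
    rw [← low2_map, hnat, hnat]
  have hconjnat : ∀ {M M' : Mdl C} (f : M ⟶ M') (τ : Tup (cylI m M) S),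
      Mdl.cm f (conj m (low2 (bd M τ false) (bd M τ true)) (n + 1) (z1 M τ)) =
        conj m (low2 (bd M' (τ ≫ cylMap f) false) (bd M' (τ ≫ cylMap f) true)) (n + 1)
          (z1 M' (τ ≫ cylMap f)) := by
    intro M M' f τ
    rw [conj_nat f (hvl M τ) (z1 M τ) (n + 1) le_rfl le_rfl (hb1 M τ), hlownat, hz1nat]
  have hcf : ∀ (M : Mdl C) (τ : Tup (cylI m M) S) (i : ℕ) (h : i < n + 1) (b : Bool),
      fc M.G h b (conj m (low2 (bd M τ false) (bd M τ true)) (n + 1) (z1 M τ)) =
        fc M.G h b (z0 M τ) := by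
    intro M τ i h b
    rw [hb0 M τ i h b]
    exact (conj_spec (hvl M τ) (z1 M τ) (n + 1) le_rfl le_rfl (hb1 M τ)).1 i h b
  by_cases hmn : m ≤ n + 1
  · -- use the filling hypothesis
    let lf : ∀ (M : Mdl C), Tup (cylI m M) S → Tup (cylA m (n + 1) M) S := fun M τ =>
      Function.surjInv (tup_inclA_bijective m (n + 1) M S hS).2 τ
    have hlf : ∀ (M : Mdl C) (τ : Tup (cylI m M) S), lf M τ ≫ inclA m (n + 1) M = τ :=
      fun M τ => Function.surjInv_eq (tup_inclA_bijective m (n + 1) M S hS).2 τ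
    have hlf2 : ∀ (M : Mdl C) (τ₀ : Tup (cylA m (n + 1) M) S),
        lf M (τ₀ ≫ inclA m (n + 1) M) = τ₀ :=
      fun M τ₀ => (tup_inclA_bijective m (n + 1) M S hS).1 (hlf M _)
    let A : Cx (C := C) m (n + 1) S ⟶ cellF C (n + 1) :=
      natOp (fun M (τ₀ : Tup (cylA m (n + 1) M) S) =>
          conj m (low2 (bd M (τ₀ ≫ inclA m (n + 1) M) false) (bd M (τ₀ ≫ inclA m (n + 1) M) true))
            (n + 1) (z1 M (τ₀ ≫ inclA m (n + 1) M))) (by
        intro M M' f (τ₀ : Tup (cylA m (n + 1) M) S)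
        rw [hconjnat]
        rfl)
    let B : Cx (C := C) m (n + 1) S ⟶ cellF C (n + 1) :=
      natOp (fun M (τ₀ : Tup (cylA m (n + 1) M) S) => z0 M (τ₀ ≫ inclA m (n + 1) M)) (by
        intro M M' f (τ₀ : Tup (cylA m (n + 1) M) S)
        rw [hz0nat]
        rfl)
    obtain ⟨F₀, hF₀⟩ := hF hmn A B (fun M (τ₀ : Tup (cylA m (n + 1) M) S) i h b =>
      hcf M _ i h b)
    have hF₀' : ∀ (M : Mdl C) (τ : Tup (cylI m M) S),
        fc M.G (Nat.lt_succ_self (n + 1)) false (F₀.app M (lf M τ)) =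
          conj m (low2 (bd M τ false) (bd M τ true)) (n + 1) (z1 M τ) ∧
        fc M.G (Nat.lt_succ_self (n + 1)) true (F₀.app M (lf M τ)) = z0 M τ := by
      intro M τ
      have := hF₀ M (lf M τ)
      change _ = conj m (low2 (bd M (lf M τ ≫ inclA m (n + 1) M) false)
          (bd M (lf M τ ≫ inclA m (n + 1) M) true)) (n + 1) (z1 M (lf M τ ≫ inclA m (n + 1) M)) ∧
        _ = z0 M (lf M τ ≫ inclA m (n + 1) M) at this
      rw [hlf] at this
      exact this
    have hv : ∀ (M : Mdl C) (τ : Tup (cylI m M) S),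
        VT m Einf (low2 (bd M τ false) (bd M τ true)) (n + 1) le_rfl
          ⟨z1 M τ, z0 M τ, F₀.app M (lf M τ)⟩ := by
      intro M τ
      refine ⟨hb1 M τ, hb0 M τ, (hF₀' M τ).1, (hF₀' M τ).2, fun hn => ?_⟩
      rcases hn with hn | hn
      · omega
      · exact absurd hn (not_einf _)
    refine ⟨fun M τ => PC.mk2 _ _ (hpar M τ) _ (hv M τ), fun M τ b => ?_, ?_, fun M τ => rfl,
      fun M τ => rfl⟩
    · cases b
      · exact PC.face_mk2_false _ _ _ _ _
      · exact PC.face_mk2_true _ _ _ _ _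
    · intro M M' f τ
      apply PC.ext
      · exact hlownat f τ
      · apply Tr.ext
        · exact hz1nat f τ
        · exact hz0nat f τ
        · have e : lf M' (τ ≫ cylMap f) = lf M τ ≫ cylMap f := by
            apply (tup_inclA_bijective m (n + 1) M' S hS).1
            change lf M' (τ ≫ cylMap f) ≫ inclA m (n + 1) M' =
              (lf M τ ≫ cylMap f) ≫ inclA m (n + 1) M'
            rw [hlf, Category.assoc, ← cylIncl_cylMap, ← Category.assoc, hlf]
          change Mdl.cm f (F₀.app M (lf M τ)) = F₀.app M' (lf M' (τ ≫ cylMap f))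
          rw [e, nat_apply]
          rfl
  · -- below `m`: normal cells
    have hlt : S.dim < m := by omega
    have hz : ∀ (M : Mdl C) (τ : Tup (cylI m M) S), z0 M τ = z1 M τ := by
      intro M τ
      change M.opC o (τ ≫ e0G m Einf M) = M.opC o (τ ≫ e1G m Einf M)
      rw [tup_ends_eq hlt τ]
    have hcj : ∀ (M : Mdl C) (τ : Tup (cylI m M) S),
        conj m (low2 (bd M τ false) (bd M τ true)) (n + 1) (z1 M τ) = z1 M τ :=
      fun M τ => conj_of_le m _ _ (by omega)
    have hv : ∀ (M : Mdl C) (τ : Tup (cylI m M) S),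
        VT m Einf (low2 (bd M τ false) (bd M τ true)) (n + 1) le_rfl
          ⟨z1 M τ, z0 M τ, unitC M (z1 M τ)⟩ := by
      intro M τ
      refine ⟨hb1 M τ, hb0 M τ, ?_, ?_, fun _ => ?_⟩
      · rw [fc_unitC, hcj]
      · rw [fc_unitC, hz]
      · exact ⟨by rw [hcj, hz], by simp only [hcj]⟩
    refine ⟨fun M τ => PC.mk2 _ _ (hpar M τ) _ (hv M τ), fun M τ b => ?_, ?_, fun M τ => rfl,
      fun M τ => rfl⟩
    · cases b
      · exact PC.face_mk2_false _ _ _ _ _
      · exact PC.face_mk2_true _ _ _ _ _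
    · intro M M' f τ
      apply PC.ext
      · exact hlownat f τ
      · apply Tr.ext
        · exact hz1nat f τ
        · exact hz0nat f τ
        · change Mdl.cm f (unitC M (z1 M τ)) = unitC M' (z1 M' (τ ≫ cylMap f))
          rw [unitC_nat, hz1nat]

end Crest.Agent.Coh
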