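import Crest.Agent.Lib.Coh.WCell

/-!
# The truncated cylinder model `wM D M`
-/

set_option autoImplicit false

open CategoryTheory CategoryTheory.Limits Opposite
open Crest.GeometryTopology.Coherator

universe u

namespace Crest.Agent.Coh

variable {C : GlobTheory.{u}} [Kit C]

/-- The filling hypotheses needed for the model structure on the truncated cylinder. -/
def FillHyp (C : GlobTheory.{u}) [Kit C] (m k : ℕ) : Prop :=
  ∀ j, m ≤ j → j ≤ k → ∀ S : Shape, S.dim ≤ j → Fill (Cx (C := C) m j S) j

/-- The underlying presheaf of the truncated cylinder model. -/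
noncomputable abbrev wG (m k : ℕ) (M : Mdl C) : GlobPsh.{u} := Cosk k (cylI m M)

/-- The end maps of the truncated cylinder. -/
noncomputable abbrev we1 (m k : ℕ) (M : Mdl C) : wG m k M ⟶ Cosk k M.G := coskMap k (e1G m Einf M)

/-- The end maps of the truncated cylinder. -/
noncomputable abbrev we0 (m k : ℕ) (M : Mdl C) : wG m k M ⟶ Cosk k M.G := coskMap k (e0G m Einf M)

/-- Functoriality of the truncated cylinder. -/
noncomputable abbrev wMapG (m k : ℕ) {M M' : Mdl C} (f : M ⟶ M') : wG m k M ⟶ wG m k M' :=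
  coskMap k (cylMap f)

/-- The model structure on the truncated cylinder, natural in the model, with model maps as ends. -/
structure WData (C : GlobTheory.{u}) [Kit C] (m k : ℕ) where
  /-- the action -/
  Φ : ∀ M : Mdl C, GlobTheory.TheoryMap C (EndT (wG m k M))
  nat : ∀ {M M' : Mdl C} (f : M ⟶ M'), Commutes (Φ M) (Φ M') (wMapG m k f)
  e1 : ∀ M : Mdl C, Commutes (Φ M) (ckM k M).Φ (we1 m k M)
  e0 : ∀ M : Mdl C, Commutes (Φ M) (ckM k M).Φ (we0 m k M)

/-- The invariant at stage `r`. -/
def WInv (m k r : ℕ) (Φ : StageFam (TT C) (fun M : Mdl C => wG m k M) r) : Prop :=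
  (∀ {M M' : Mdl C} (f : M ⟶ M'), Commutes (Φ M) (Φ M') (wMapG m k f)) ∧
  (∀ M : Mdl C, Commutes (Φ M) (((TT C).toEnd r).comp (ckM k M).Φ) (we1 m k M)) ∧
  (∀ M : Mdl C, Commutes (Φ M) (((TT C).toEnd r).comp (ckM k M).Φ) (we0 m k M))

/-- The lower or upper operation of a generator. -/
noncomputable def pb (r : ℕ) (g : (TT C).gen r) : Bool →
    ((TT C).stage r).arr (Shape.globe ((TT C).prob r g).n) ((TT C).prob r g).shape
  | false => ((TT C).prob r g).lower
  | true => ((TT C).prob r g).upper

theorem fc_opG' (M : Mdl C) (r : ℕ) (g : (TT C).gen r) (τ : Tup M.G ((TT C).prob r g).shape)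
    (b : Bool) :
    fc M.G (Nat.lt_succ_self _) b (M.opC (opG r g) τ) = M.opC (((TT C).toEnd r).map (pb r g b)) τ := by
  cases b
  · exact (fc_opG M r g τ).1
  · exact (fc_opG M r g τ).2

/-- The key computation relating the ends of a stage operation to the operation in the model. -/
theorem end_of_stage {m k r : ℕ} {M : Mdl C} {Φ : GlobTheory.TheoryMap ((TT C).stage r) (EndT (wG m k M))}
    (e : cylI m M ⟶ M.G)
    (hE : Commutes Φ (((TT C).toEnd r).comp (ckM k M).Φ) (coskMap k e))
    {S : Shape} {n : ℕ} (hn : n ≤ k) (o' : ((TT C).stage r).arr (Shape.globe n) S)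
    (σ : Tup (cylI m M) S) :
    e.app _ (CC.cell hn (tCell (Φ.map o' (σ ≫ eta k (cylI m M))))) =
      M.opC (((TT C).toEnd r).map o') (σ ≫ e) := by
  have h1 := hE o' (σ ≫ eta k (cylI m M))
  have h2 : (σ ≫ eta k (cylI m M)) ≫ coskMap k e = (σ ≫ e) ≫ eta k M.G := by
    rw [Category.assoc, eta_coskMap, Category.assoc]
  rw [h2] at h1
  have h3 : (((TT C).toEnd r).comp (ckM k M).Φ).map o' ((σ ≫ e) ≫ eta k M.G) =
      M.act (((TT C).toEnd r).map o') (σ ≫ e) ≫ eta k M.G :=
    etaM_comm k M _ _
  rw [h3] at h1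
  have h4 := congrArg tCell h1
  have h5 := congrArg (CC.cell hn) h4
  exact h5

theorem exists_gen_rule {m k r : ℕ} (hFill : FillHyp C m k)
    (Φ : StageFam (TT C) (fun M : Mdl C => wG m k M) r) (hΦ : WInv m k r Φ) (g : (TT C).gen r) :
    ∃ F : ∀ M : Mdl C, Tup (wG m k M) ((TT C).prob r g).shape →
        Cl (wG m k M) (((TT C).prob r g).n + 1),
      (∀ (M : Mdl C) (τ : Tup (wG m k M) ((TT C).prob r g).shape) (b : Bool),
        fc (wG m k M) (Nat.lt_succ_self _) b (F M τ) = tCell ((Φ M).map (pb r g b) τ)) ∧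
      (∀ {M M' : Mdl C} (f : M ⟶ M') (τ : Tup (wG m k M) ((TT C).prob r g).shape),
        (wMapG m k f).app _ (F M τ) = F M' (τ ≫ wMapG m k f)) ∧
      (∀ (M : Mdl C) (τ : Tup (wG m k M) ((TT C).prob r g).shape),
        ((TT C).prob r g).n + 1 ≤ k →
        (we1 m k M).app _ (F M τ) = tCell ((ckM k M).act (opG r g) (τ ≫ we1 m k M))) ∧
      (∀ (M : Mdl C) (τ : Tup (wG m k M) ((TT C).prob r g).shape),
        ((TT C).prob r g).n + 1 ≤ k →
        (we0 m k M).app _ (F M τ) = tCell ((ckM k M).act (opG r g) (τ ≫ we0 m k M))) := by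
  obtain ⟨hN, hE1, hE0⟩ := hΦ
  by_cases hn : ((TT C).prob r g).n + 1 ≤ k
  · -- the filling case
    have hS : ((TT C).prob r g).shape.dim ≤ ((TT C).prob r g).n + 1 := ((TT C).prob r g).dim_le
    have hnk : ((TT C).prob r g).n ≤ k := by omega
    let bd : ∀ M : Mdl C, Tup (cylI m M) ((TT C).prob r g).shape → Bool → PC m Einf M ((TT C).prob r g).n := fun M σ b =>
      CC.cell hnk (tCell ((Φ M).map (pb r g b) (σ ≫ eta k (cylI m M))))
    obtain ⟨F₀, hF1, hF2, hF3, hF4⟩ := exists_cell_rule (opG r g) hS
      (fun hm => hFill (((TT C).prob r g).n + 1) hm hn ((TT C).prob r g).shape hS) bd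
      (by
        intro M M' f σ b
        have h1 := hN f (pb r g b) (σ ≫ eta k (cylI m M))
        have h2 : (σ ≫ eta k (cylI m M)) ≫ wMapG m k f = (σ ≫ cylMap f) ≫ eta k (cylI m M') := by
          rw [Category.assoc, eta_coskMap, Category.assoc]
        rw [h2] at h1
        have h4 := congrArg (fun x => CC.cell hnk (tCell x)) h1
        exact h4)
      (by
        intro M σ
        have hpar := par_of_admissible (Φ M) ((TT C).prob r g) (σ ≫ eta k (cylI m M))
        rw [← par_cyl_iff]
        intro i hi b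
        have h := hpar i hi b
        have h2 := congrArg (fun c : CC k (cylI m M) i => CC.cell (by omega) c) h
        have e : ∀ c : CC k (cylI m M) ((TT C).prob r g).n, CC.cell (k := k) (P := cylI m M) (j := i) (by omega)
            (CC.face hi b c) = fc (cylI m M) hi b (CC.cell hnk c) := fun c => CC.cell_face hi b hnk c
        exact (e _).symm.trans (h2.trans (e _))
      )
      (by
        intro M σ b
        have h := end_of_stage (e1G m Einf M) (hE1 M) hnk (pb r g b) σ
        rw [fc_opG']
        exact h)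
      (by
        intro M σ b
        have h := end_of_stage (e0G m Einf M) (hE0 M) hnk (pb r g b) σ
        rw [fc_opG']
        exact h)
    have hdS : ((TT C).prob r g).shape.dim ≤ k := le_trans hS hn
    refine ⟨fun M τ => etaC k (F₀ M (liftTup hdS τ)), ?_, ?_, ?_, ?_⟩
    · intro M τ b
      have e1 : fc (wG m k M) (Nat.lt_succ_self _) b (etaC k (F₀ M (liftTup hdS τ))) =
          etaC k (PC.face (Nat.lt_succ_self _) b (F₀ M (liftTup hdS τ))) :=
        (fc_nat (eta k (cylI m M)) _ _ _).symm
      rw [e1, hF1]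
      change etaC k (CC.cell hnk (tCell ((Φ M).map (pb r g b) (liftTup hdS τ ≫ eta k (cylI m M))))) = _
      rw [CC.etaC_cell', liftTup_spec]
    · intro M M' f τ
      have e1 : liftTup hdS (τ ≫ wMapG m k f) = liftTup hdS τ ≫ cylMap f := by
        conv_lhs => rw [← liftTup_spec hdS τ]
        rw [Category.assoc, eta_coskMap, ← Category.assoc, liftTup_eta]
      change (coskMap k (cylMap f)).app (op (GlobeObj.mk (((TT C).prob r g).n + 1)))
          (etaC k (P := cylI m M) (j := ((TT C).prob r g).n + 1) (F₀ M (liftTup hdS τ))) =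
        etaC k (P := cylI m M') (j := ((TT C).prob r g).n + 1) (F₀ M' (liftTup hdS (τ ≫ wMapG m k f)))
      rw [e1, ← hF2, coskMap_etaC]
    · intro M τ _
      have e1 : liftTup hdS τ ≫ e1G m Einf M ≫ eta k M.G = τ ≫ we1 m k M := by
        conv_rhs => rw [← liftTup_spec hdS τ]
        rw [Category.assoc, eta_coskMap]
      rw [← e1, ← Category.assoc]
      have h3 : (ckM k M).act (opG r g) ((liftTup hdS τ ≫ e1G m Einf M) ≫ eta k M.G) =
          M.act (opG r g) (liftTup hdS τ ≫ e1G m Einf M) ≫ eta k M.G := etaM_comm k M _ _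
      rw [h3, tCell_map]
      change (coskMap k (e1G m Einf M)).app (op (GlobeObj.mk (((TT C).prob r g).n + 1)))
        (etaC k (P := cylI m M) (j := ((TT C).prob r g).n + 1) (F₀ M (liftTup hdS τ))) = _
      rw [coskMap_etaC]
      change etaC k ((F₀ M (liftTup hdS τ)).top.z1) = _
      rw [hF3]
      rfl
    · intro M τ _
      have e1 : liftTup hdS τ ≫ e0G m Einf M ≫ eta k M.G = τ ≫ we0 m k M := by
        conv_rhs => rw [← liftTup_spec hdS τ]
        rw [Category.assoc, eta_coskMap]
      rw [← e1, ← Category.assoc]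
      have h3 : (ckM k M).act (opG r g) ((liftTup hdS τ ≫ e0G m Einf M) ≫ eta k M.G) =
          M.act (opG r g) (liftTup hdS τ ≫ e0G m Einf M) ≫ eta k M.G := etaM_comm k M _ _
      rw [h3, tCell_map]
      change (coskMap k (e0G m Einf M)).app (op (GlobeObj.mk (((TT C).prob r g).n + 1)))
        (etaC k (P := cylI m M) (j := ((TT C).prob r g).n + 1) (F₀ M (liftTup hdS τ))) = _
      rw [coskMap_etaC]
      change etaC k ((F₀ M (liftTup hdS τ)).top.z0) = _
      rw [hF4]
      rfl
  · -- the coskeletal case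
    have hkn : k ≤ ((TT C).prob r g).n := by omega
    refine ⟨fun M τ => CC.fill hkn (tCell ((Φ M).map ((TT C).prob r g).lower τ)) (tCell ((Φ M).map ((TT C).prob r g).upper τ))
      (par_of_admissible (Φ M) ((TT C).prob r g) τ), ?_, ?_, fun M τ h => absurd h hn, fun M τ h => absurd h hn⟩
    · intro M τ b
      cases b
      · exact CC.face_fill_false _ _ _ _
      · exact CC.face_fill_true _ _ _ _
    · intro M M' f τ
      have hlt : k < ((TT C).prob r g).n + 1 := by omega
      apply CC.eq_of_par hlt
      apply Par.of_succ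
      · have e1 := fc_nat (wMapG m k f) (Nat.lt_succ_self ((TT C).prob r g).n) false (CC.fill hkn (tCell ((Φ M).map ((TT C).prob r g).lower τ))
          (tCell ((Φ M).map ((TT C).prob r g).upper τ)) (par_of_admissible (Φ M) ((TT C).prob r g) τ))
        rw [← e1]
        have e2 := CC.face_fill_false hkn (tCell ((Φ M).map ((TT C).prob r g).lower τ))
          (tCell ((Φ M).map ((TT C).prob r g).upper τ)) (par_of_admissible (Φ M) ((TT C).prob r g) τ)
        have e3 := CC.face_fill_false hkn (tCell ((Φ M').map ((TT C).prob r g).lower (τ ≫ wMapG m k f)))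
          (tCell ((Φ M').map ((TT C).prob r g).upper (τ ≫ wMapG m k f))) (par_of_admissible (Φ M') ((TT C).prob r g) _)
        refine (congrArg _ e2).trans (Eq.trans ?_ e3.symm)
        exact congrArg tCell (hN f ((TT C).prob r g).lower τ)
      · have e1 := fc_nat (wMapG m k f) (Nat.lt_succ_self ((TT C).prob r g).n) true (CC.fill hkn (tCell ((Φ M).map ((TT C).prob r g).lower τ))
          (tCell ((Φ M).map ((TT C).prob r g).upper τ)) (par_of_admissible (Φ M) ((TT C).prob r g) τ))
        rw [← e1]
        have e2 := CC.face_fill_true hkn (tCell ((Φ M).map ((TT C).prob r g).lower τ))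
          (tCell ((Φ M).map ((TT C).prob r g).upper τ)) (par_of_admissible (Φ M) ((TT C).prob r g) τ)
        have e3 := CC.face_fill_true hkn (tCell ((Φ M').map ((TT C).prob r g).lower (τ ≫ wMapG m k f)))
          (tCell ((Φ M').map ((TT C).prob r g).upper (τ ≫ wMapG m k f))) (par_of_admissible (Φ M') ((TT C).prob r g) _)
        refine (congrArg _ e2).trans (Eq.trans ?_ e3.symm)
        exact congrArg tCell (hN f ((TT C).prob r g).upper τ)

theorem exists_WData {m k : ℕ} (hFill : FillHyp C m k) : Nonempty (WData C m k) := by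
  obtain ⟨Φ, hΦ⟩ := tower_build (TT C) (fun M : Mdl C => wG m k M) (WInv m k)
    (fun Φ => ⟨fun f => comm_initial (TT C).stage_zero _ _ _,
      fun M => comm_initial (TT C).stage_zero _ _ _,
      fun M => comm_initial (TT C).stage_zero _ _ _⟩)
    (by
      intro r Φ hΦ
      choose F hF1 hF2 hF3 hF4 using fun g => exists_gen_rule hFill Φ hΦ g
      refine ⟨fun M g => ruleOf (F g M), fun M g => ?_, ?_⟩
      · apply filler_of_cells
        · intro τ
          exact hF1 g M τ false
        · intro τ
          exact hF1 g M τ true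
      · intro Φ' h1 h2
        obtain ⟨hN, hE1, hE0⟩ := hΦ
        have hC1 : ∀ M : Mdl C, ((TT C).next r).comp (((TT C).toEnd (r + 1)).comp (ckM k M).Φ) =
            ((TT C).toEnd r).comp (ckM k M).Φ := by
          intro M
          rw [← (TT C).toEnd_comm r]
          rfl
        refine ⟨fun {M M'} f => ?_, fun M => ?_, fun M => ?_⟩
        · apply comm_free_cosk ((TT C).free r)
          · rw [h1, h1]
            exact hN f
          · intro g _ τ
            rw [h2, h2]
            change cellT (F g M τ) ≫ wMapG m k f = cellT (F g M' (τ ≫ wMapG m k f))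
            rw [cellT_map, hF2]
        · apply comm_free_cosk ((TT C).free r)
          · rw [h1, hC1]
            exact hE1 M
          · intro g hn τ
            rw [h2]
            change cellT (F g M τ) ≫ we1 m k M = (ckM k M).act (opG r g) (τ ≫ we1 m k M)
            rw [cellT_map, hF3 g M τ hn, cellT_tCell]
        · apply comm_free_cosk ((TT C).free r)
          · rw [h1, hC1]
            exact hE0 M
          · intro g hn τ
            rw [h2]
            change cellT (F g M τ) ≫ we0 m k M = (ckM k M).act (opG r g) (τ ≫ we0 m k M)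
            rw [cellT_map, hF4 g M τ hn, cellT_tCell])
  refine ⟨⟨Φ, fun {M M'} f => ?_, fun M => ?_, fun M => ?_⟩⟩
  · exact comm_colim (TT C) _ _ _ (fun r => (hΦ r).1 f)
  · exact comm_colim (TT C) _ _ _ (fun r => (hΦ r).2.1 M)
  · exact comm_colim (TT C) _ _ _ (fun r => (hΦ r).2.2 M)

section WAPI

variable {m k : ℕ} (D : WData C m k)

/-- The truncated cylinder model. -/
noncomputable abbrev wM (M : Mdl C) : Mdl C := ⟨wG m k M, D.Φ M⟩

/-- Functoriality of the truncated cylinder model. -/
noncomputable def wMap {M M' : Mdl C} (f : M ⟶ M') : wM D M ⟶ wM D M' :=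
  ⟨wMapG m k f, fun o τ => D.nat f o τ⟩

/-- The end-1 map of the truncated cylinder model. -/
noncomputable def wE1 (M : Mdl C) : wM D M ⟶ ckM k M :=
  ⟨we1 m k M, fun o τ => D.e1 M o τ⟩

/-- The end-0 map of the truncated cylinder model. -/
noncomputable def wE0 (M : Mdl C) : wM D M ⟶ ckM k M :=
  ⟨we0 m k M, fun o τ => D.e0 M o τ⟩

theorem wMap_e1 {M M' : Mdl C} (f : M ⟶ M') : wMap D f ≫ wE1 D M' = wE1 D M ≫ ckMap k f := rfl

theorem wMap_e0 {M M' : Mdl C} (f : M ⟶ M') : wMap D f ≫ wE0 D M' = wE0 D M ≫ ckMap k f := rfl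

end WAPI

end Crest.Agent.Coh
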